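import Vale.Agent.P310h2.Defs

namespace Vale.Agent.P310h2

open Function Relation

namespace Layered

variable {N : Type} (S : Layered N)

/-- Words: a node per position, from `lo` to `hi`, consecutive ones joined by edges. -/
def IsWord (w : ℕ → N) : Prop :=
  w 0 = S.lo ∧ w S.m = S.hi ∧ ∀ i, i < S.m → S.E (w i) (w (i + 1))

/-- One move: change one position along a vertical pair. -/
def Move (w w' : ℕ → N) : Prop :=
  S.IsWord w ∧ S.IsWord w' ∧
    ∃ j, (∀ i, i ≤ S.m → i ≠ j → w i = w' i) ∧ (w j = w' j ∨ S.Vert (w j) (w' j))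

/-- Reachability by moves. -/
def Conn : (ℕ → N) → (ℕ → N) → Prop := ReflTransGen S.Move

/-- The hypotheses on the layered graph. -/
structure Nice (pos lab : N → ℕ) (T0 : ℕ) : Prop where
  m_ge : 2 ≤ S.m
  pos_lo : pos S.lo = 0
  pos_hi : pos S.hi = S.m
  E_pos : ∀ {a b}, S.E a b → pos b = pos a + 1
  E_le : ∀ {a b}, S.E a b → pos b ≤ S.m
  V_pos : ∀ {p q}, S.Vert p q → pos p = pos q
  V_ne : ∀ {p q}, S.Vert p q → p ≠ q
  V_lo : ∀ {p q}, S.Vert p q → p ≠ S.lo
  V_hi : ∀ {p q}, S.Vert p q → p ≠ S.hi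
  V_symm : ∀ {p q}, S.Vert p q → S.Vert q p
  win_E : ∀ {a b}, S.E a b → a ≠ S.lo → b ≠ S.hi → lab a ≤ lab b + 1 ∧ lab b ≤ lab a + 1
  win_V : ∀ {p q}, S.Vert p q → lab p ≤ lab q + 1
  win_word : ∀ {w}, S.IsWord w → ∀ i j, 0 < i → i < S.m → 0 < j → j < S.m →
    lab (w i) ≤ lab (w j) + 1
  sep2 : ∀ {p p' q q'}, S.Vert p p' → S.Vert q q' → S.E p q → S.E p' q' → S.E p' q ∨ S.E p q'
  s_word : S.IsWord S.s
  t_word : S.IsWord S.t
  lab_s : ∀ i, 0 < i → i < S.m → lab (S.s i) = 0
  lab_t : ∀ i, 0 < i → i < S.m → lab (S.t i) = T0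
  lab_le : ∀ x, lab x ≤ T0
  T_big : S.m + 2 ≤ T0
  low : ∀ {w}, S.IsWord w → (∀ i, 0 < i → i < S.m → lab (w i) ≤ 3) → S.Conn w S.s
  high : ∀ {w}, S.IsWord w → (∀ i, 0 < i → i < S.m → T0 ≤ lab (w i) + 3) → S.Conn w S.t
  code_inj : Injective S.code

variable {S} {pos lab : N → ℕ} {T0 : ℕ}

namespace Nice

variable (hS : S.Nice pos lab T0)
include hS

theorem word_pos {w : ℕ → N} (hw : S.IsWord w) : ∀ i, i ≤ S.m → pos (w i) = i := by
  intro i
  induction i with
  | zero =>
    intro _
    rw [hw.1, hS.pos_lo]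
  | succ i ih =>
    intro hi
    have h1 := hS.E_pos (hw.2.2 i (by omega))
    rw [h1, ih (by omega)]

theorem word_ne_lo {w : ℕ → N} (hw : S.IsWord w) {i : ℕ} (h0 : 0 < i) (h1 : i ≤ S.m) :
    w i ≠ S.lo := by
  intro h
  have := hS.word_pos hw i h1
  rw [h, hS.pos_lo] at this
  omega

theorem word_ne_hi {w : ℕ → N} (hw : S.IsWord w) {i : ℕ} (h1 : i < S.m) :
    w i ≠ S.hi := by
  intro h
  have := hS.word_pos hw i h1.le
  rw [h, hS.pos_hi] at this
  omega

theorem lo_ne_hi : S.lo ≠ S.hi := by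
  intro h
  have h1 := hS.pos_lo
  rw [h, hS.pos_hi] at h1
  have := hS.m_ge
  omega

theorem E_ne_hi {a b : N} (h : S.E a b) : a ≠ S.hi := by
  intro h'
  have h1 := hS.E_pos h
  have h2 := hS.E_le h
  rw [h', hS.pos_hi] at h1
  omega

theorem E_ne_lo {a b : N} (h : S.E a b) : b ≠ S.lo := by
  intro h'
  have h1 := hS.E_pos h
  rw [h', hS.pos_lo] at h1
  omega

theorem V_not_E {a b : N} (h : S.Vert a b) (h' : S.E a b) : False := by
  have h1 := hS.E_pos h'
  have h2 := hS.V_pos h
  omega

theorem Move_symm {w w' : ℕ → N} (h : S.Move w w') : S.Move w' w := by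
  obtain ⟨h1, h2, j, h3, h4⟩ := h
  refine ⟨h2, h1, j, fun i hi hj => (h3 i hi hj).symm, ?_⟩
  rcases h4 with h4 | h4
  · exact Or.inl h4.symm
  · exact Or.inr (hS.V_symm h4)

theorem Conn_symm {w w' : ℕ → N} (h : S.Conn w w') : S.Conn w' w := by
  induction h with
  | refl => exact ReflTransGen.refl
  | tail _ h2 ih => exact ReflTransGen.head (hS.Move_symm h2) ih

omit hS in
theorem Conn_trans {w w' w'' : ℕ → N} (h : S.Conn w w') (h' : S.Conn w' w'') : S.Conn w w'' :=
  ReflTransGen.trans h h'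

end Nice

/-- `bw τ` is the special word of type `τ`. -/
def bw (S : Layered N) (τ : Bool) : ℕ → N := if τ then S.t else S.s

/-- Inner nodes of the special words. -/
def Blank (S : Layered N) (τ : Bool) (x : N) : Prop :=
  ∃ i, 0 < i ∧ i < S.m ∧ x = S.bw τ i

/-- Nodes different from the two ends. -/
def Inner (S : Layered N) (x : N) : Prop := x ≠ S.lo ∧ x ≠ S.hi

/-- `z` is a node of the class `c`. -/
def _root_.Vale.Agent.P310h2.Item.Has (c : Item N) (z : N) : Prop :=
  ∃ d, d ∈ c.vars ∧ (z = d.1 ∨ z = d.2)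

/-- Two inner nodes joined by a variable of the class `c`. -/
def StepIn (S : Layered N) (c : Item N) (x y : N) : Prop :=
  S.Inner x ∧ S.Inner y ∧ ((x, y) ∈ c.vars ∨ (y, x) ∈ c.vars)

/-- Two inner nodes joined by a variable of the set `T` of classes. -/
def Step (S : Layered N) (T : Finset (Item N)) (x y : N) : Prop :=
  ∃ c ∈ T, S.StepIn c x y

/-- The relation of lying in the same component among inner nodes. -/
def Rel (S : Layered N) (T : Finset (Item N)) : N → N → Prop := ReflTransGen (S.Step T)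

/-- `y` is joined to `lo` by a variable of `T`. -/
def AttL (S : Layered N) (T : Finset (Item N)) (y : N) : Prop := ∃ c ∈ T, (S.lo, y) ∈ c.vars

/-- `y` is joined to `hi` by a variable of `T`. -/
def AttR (S : Layered N) (T : Finset (Item N)) (y : N) : Prop := ∃ c ∈ T, (y, S.hi) ∈ c.vars

/-- All edges of the word are variables of `T`. -/
def WordIn (S : Layered N) (T : Finset (Item N)) (w : ℕ → N) : Prop :=
  S.IsWord w ∧ ∀ i, i < S.m → ∃ c ∈ T, (w i, w (i + 1)) ∈ c.vars

/-- The position of the gap touched by the class. -/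
def gapPos (pos : N → ℕ) : Item N → ℕ
  | .ev a _ => pos a
  | .vv p _ => pos p
  | .tl a _ _ => pos a
  | .tr p _ _ => pos p
  | .un a _ => pos a

theorem Step_symm (T : Finset (Item N)) {x y : N} (h : S.Step T x y) : S.Step T y x := by
  obtain ⟨c, hc, h1, h2, h3⟩ := h
  exact ⟨c, hc, h2, h1, h3.symm⟩

theorem Rel_symm (T : Finset (Item N)) {x y : N} (h : S.Rel T x y) : S.Rel T y x := by
  induction h with
  | refl => exact ReflTransGen.refl
  | tail _ h2 ih => exact ReflTransGen.head (Step_symm T h2) ih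

theorem Rel_trans {T : Finset (Item N)} {x y z : N} (h : S.Rel T x y) (h' : S.Rel T y z) :
    S.Rel T x z := ReflTransGen.trans h h'

theorem Rel_refl (T : Finset (Item N)) (x : N) : S.Rel T x x := ReflTransGen.refl

theorem Rel_mono {T T' : Finset (Item N)} (h : T ⊆ T') {x y : N} (hr : S.Rel T x y) :
    S.Rel T' x y := by
  induction hr with
  | refl => exact ReflTransGen.refl
  | tail _ h2 ih =>
    obtain ⟨c, hc, h1⟩ := h2
    exact ReflTransGen.tail ih ⟨c, h hc, h1⟩

theorem AttL_mono {T T' : Finset (Item N)} (h : T ⊆ T') {y : N} (hr : S.AttL T y) :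
    S.AttL T' y := by
  obtain ⟨c, hc, h1⟩ := hr
  exact ⟨c, h hc, h1⟩

theorem AttR_mono {T T' : Finset (Item N)} (h : T ⊆ T') {y : N} (hr : S.AttR T y) :
    S.AttR T' y := by
  obtain ⟨c, hc, h1⟩ := hr
  exact ⟨c, h hc, h1⟩

theorem WordIn_mono {T T' : Finset (Item N)} (h : T ⊆ T') {w : ℕ → N} (hr : S.WordIn T w) :
    S.WordIn T' w := by
  refine ⟨hr.1, fun i hi => ?_⟩
  obtain ⟨c, hc, h1⟩ := hr.2 i hi
  exact ⟨c, h hc, h1⟩

namespace Nice

variable (hS : S.Nice pos lab T0)
include hS

theorem un_edge {a b : N} (h : S.valid (.un a b)) : S.E a b := by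
  obtain ⟨i, hi, h1 | h1⟩ := h
  · simp only [Prod.mk.injEq] at h1
    rw [h1.1, h1.2]
    exact hS.s_word.2.2 i hi
  · simp only [Prod.mk.injEq] at h1
    rw [h1.1, h1.2]
    exact hS.t_word.2.2 i hi

/-- Every variable of a class is an edge or a vertical pair. -/
theorem var_cases {c : Item N} (hc : S.valid c) {d : N × N} (hd : d ∈ c.vars) :
    S.E d.1 d.2 ∨ S.Vert d.1 d.2 := by
  cases c with
  | ev a b =>
    have : d = (a, b) := hd
    subst this
    exact Or.inl hc
  | vv p q =>
    have : d = (p, q) := hd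
    subst this
    exact Or.inr hc
  | tl a p q =>
    rcases hd with rfl | rfl | rfl
    · exact Or.inl hc.1
    · exact Or.inl hc.2.1
    · exact Or.inr hc.2.2
  | tr p q b =>
    rcases hd with rfl | rfl | rfl
    · exact Or.inl hc.1
    · exact Or.inl hc.2.1
    · exact Or.inr hc.2.2
  | un a b =>
    have : d = (a, b) := hd
    subst this
    exact Or.inl (hS.un_edge hc)

/-- The left end of an edge variable of a class sits at the gap of the class. -/
theorem gap_eq {c : Item N} (hc : S.valid c) {a b : N} (hd : (a, b) ∈ c.vars) (hE : S.E a b) :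
    gapPos pos c = pos a := by
  cases c with
  | ev x y =>
    have : (a, b) = (x, y) := hd
    simp only [Prod.mk.injEq] at this
    simp [gapPos, this.1]
  | vv p q =>
    have : (a, b) = (p, q) := hd
    simp only [Prod.mk.injEq] at this
    rw [this.1, this.2] at hE
    exact (hS.V_not_E hc hE).elim
  | tl x p q =>
    rcases hd with h | h | h
    · simp only [Prod.mk.injEq] at h
      simp [gapPos, h.1]
    · simp only [Prod.mk.injEq] at h
      simp [gapPos, h.1]
    · have h' : (a, b) = (p, q) := h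
      simp only [Prod.mk.injEq] at h'
      rw [h'.1, h'.2] at hE
      exact (hS.V_not_E hc.2.2 hE).elim
  | tr p q y =>
    rcases hd with h | h | h
    · simp only [Prod.mk.injEq] at h
      simp [gapPos, h.1]
    · simp only [Prod.mk.injEq] at h
      simp [gapPos, h.1, hS.V_pos hc.2.2]
    · have h' : (a, b) = (p, q) := h
      simp only [Prod.mk.injEq] at h'
      rw [h'.1, h'.2] at hE
      exact (hS.V_not_E hc.2.2 hE).elim
  | un x y =>
    have : (a, b) = (x, y) := hd
    simp only [Prod.mk.injEq] at this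
    simp [gapPos, this.1]

/-- Two edge variables of one class share an end; the other ends form a vertical pair. -/
theorem shape {c : Item N} (hc : S.valid c) {a b a' b' : N} (hd : (a, b) ∈ c.vars)
    (hd' : (a', b') ∈ c.vars) (hE : S.E a b) (hE' : S.E a' b') :
    (a = a' ∧ (b = b' ∨ S.Vert b b')) ∨ (b = b' ∧ (a = a' ∨ S.Vert a a')) := by
  cases c with
  | ev x y =>
    have h1 : (a, b) = (x, y) := hd
    have h2 : (a', b') = (x, y) := hd'
    simp only [Prod.mk.injEq] at h1 h2
    left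
    exact ⟨h1.1.trans h2.1.symm, Or.inl (h1.2.trans h2.2.symm)⟩
  | vv p q =>
    have h1 : (a, b) = (p, q) := hd
    simp only [Prod.mk.injEq] at h1
    rw [h1.1, h1.2] at hE
    exact (hS.V_not_E hc hE).elim
  | tl x p q =>
    have key : ∀ {u v : N}, (u, v) ∈ (Item.tl x p q).vars → S.E u v → u = x ∧ (v = p ∨ v = q) := by
      intro u v h hE
      rcases h with h | h | h
      · simp only [Prod.mk.injEq] at h
        exact ⟨h.1, Or.inl h.2⟩
      · simp only [Prod.mk.injEq] at h
        exact ⟨h.1, Or.inr h.2⟩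
      · have h' : (u, v) = (p, q) := h
        simp only [Prod.mk.injEq] at h'
        rw [h'.1, h'.2] at hE
        exact (hS.V_not_E hc.2.2 hE).elim
    obtain ⟨h1, h2⟩ := key hd hE
    obtain ⟨h3, h4⟩ := key hd' hE'
    left
    refine ⟨h1.trans h3.symm, ?_⟩
    rcases h2 with rfl | rfl <;> rcases h4 with rfl | rfl
    · exact Or.inl rfl
    · exact Or.inr hc.2.2
    · exact Or.inr (hS.V_symm hc.2.2)
    · exact Or.inl rfl
  | tr p q y =>
    have key : ∀ {u v : N}, (u, v) ∈ (Item.tr p q y).vars → S.E u v → v = y ∧ (u = p ∨ u = q) := by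
      intro u v h hE
      rcases h with h | h | h
      · simp only [Prod.mk.injEq] at h
        exact ⟨h.2, Or.inl h.1⟩
      · simp only [Prod.mk.injEq] at h
        exact ⟨h.2, Or.inr h.1⟩
      · have h' : (u, v) = (p, q) := h
        simp only [Prod.mk.injEq] at h'
        rw [h'.1, h'.2] at hE
        exact (hS.V_not_E hc.2.2 hE).elim
    obtain ⟨h1, h2⟩ := key hd hE
    obtain ⟨h3, h4⟩ := key hd' hE'
    right
    refine ⟨h1.trans h3.symm, ?_⟩
    rcases h2 with rfl | rfl <;> rcases h4 with rfl | rfl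
    · exact Or.inl rfl
    · exact Or.inr hc.2.2
    · exact Or.inr (hS.V_symm hc.2.2)
    · exact Or.inl rfl
  | un x y =>
    have h1 : (a, b) = (x, y) := hd
    have h2 : (a', b') = (x, y) := hd'
    simp only [Prod.mk.injEq] at h1 h2
    left
    exact ⟨h1.1.trans h2.1.symm, Or.inl (h1.2.trans h2.2.symm)⟩

/-- Two edge variables of a class: the crossing pair is also a variable of the class. -/
theorem cross_var {c : Item N} (hc : S.valid c) {a b a' b' : N} (hd : (a, b) ∈ c.vars)
    (hd' : (a', b') ∈ c.vars) (hE : S.E a b) (hE' : S.E a' b') : (a, b') ∈ c.vars := by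
  rcases hS.shape hc hd hd' hE hE' with ⟨h1, _⟩ | ⟨h1, h2⟩
  · rw [h1]; exact hd'
  · rw [← h1]; exact hd

/-- Two inner nodes of a valid class have close labels. -/
theorem window {c : Item N} (hc : S.valid c) {z z' : N} (hz : c.Has z) (hz' : c.Has z')
    (iz : S.Inner z) (iz' : S.Inner z') : lab z ≤ lab z' + 1 := by
  have E_w : ∀ {a b : N}, S.E a b → S.Inner a → S.Inner b →
      lab a ≤ lab b + 1 ∧ lab b ≤ lab a + 1 :=
    fun h h1 h2 => hS.win_E h h1.1 h2.2
  have V_w : ∀ {a b : N}, S.Vert a b → lab a ≤ lab b + 1 := fun h => hS.win_V h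
  cases c with
  | ev a b =>
    obtain ⟨d, hd, h1⟩ := hz
    obtain ⟨d', hd', h1'⟩ := hz'
    have e1 : d = (a, b) := hd
    have e2 : d' = (a, b) := hd'
    subst e1; subst e2
    have hE : S.E a b := hc
    rcases h1 with rfl | rfl <;> rcases h1' with rfl | rfl
    · exact Nat.le_succ _
    · exact (E_w hE iz iz').1
    · exact (E_w hE iz' iz).2
    · exact Nat.le_succ _
  | vv a b =>
    obtain ⟨d, hd, h1⟩ := hz
    obtain ⟨d', hd', h1'⟩ := hz'
    have e1 : d = (a, b) := hd
    have e2 : d' = (a, b) := hd'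
    subst e1; subst e2
    have hE : S.Vert a b := hc
    rcases h1 with rfl | rfl <;> rcases h1' with rfl | rfl
    · exact Nat.le_succ _
    · exact V_w hE
    · exact V_w (hS.V_symm hE)
    · exact Nat.le_succ _
  | tl a p q =>
    have h3 : ∀ {y : N}, (Item.tl a p q).Has y → y = a ∨ y = p ∨ y = q := by
      rintro y ⟨d, hd, h1⟩
      rcases hd with rfl | rfl | rfl <;> rcases h1 with rfl | rfl <;> simp
    obtain ⟨hap, haq, hpq⟩ := hc
    rcases h3 hz with rfl | rfl | rfl <;> rcases h3 hz' with rfl | rfl | rfl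
    · exact Nat.le_succ _
    · exact (E_w hap iz iz').1
    · exact (E_w haq iz iz').1
    · exact (E_w hap iz' iz).2
    · exact Nat.le_succ _
    · exact V_w hpq
    · exact (E_w haq iz' iz).2
    · exact V_w (hS.V_symm hpq)
    · exact Nat.le_succ _
  | tr p q b =>
    have h3 : ∀ {y : N}, (Item.tr p q b).Has y → y = p ∨ y = q ∨ y = b := by
      rintro y ⟨d, hd, h1⟩
      rcases hd with rfl | rfl | rfl <;> rcases h1 with rfl | rfl <;> simp
    obtain ⟨hpb, hqb, hpq⟩ := hc
    rcases h3 hz with rfl | rfl | rfl <;> rcases h3 hz' with rfl | rfl | rfl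
    · exact Nat.le_succ _
    · exact V_w hpq
    · exact (E_w hpb iz iz').1
    · exact V_w (hS.V_symm hpq)
    · exact Nat.le_succ _
    · exact (E_w hqb iz iz').1
    · exact (E_w hpb iz' iz).2
    · exact (E_w hqb iz' iz).2
    · exact Nat.le_succ _
  | un a b =>
    obtain ⟨d, hd, h1⟩ := hz
    obtain ⟨d', hd', h1'⟩ := hz'
    have e1 : d = (a, b) := hd
    have e2 : d' = (a, b) := hd'
    subst e1; subst e2
    have hE : S.E a b := hS.un_edge hc
    rcases h1 with rfl | rfl <;> rcases h1' with rfl | rfl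
    · exact Nat.le_succ _
    · exact (E_w hE iz iz').1
    · exact (E_w hE iz' iz).2
    · exact Nat.le_succ _

end Nice

end Layered

end Vale.Agent.P310h2
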