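import Vale.Agent.P310h2.Size

/-!
# The block reduction from 3-colouring to clique

The vertices `Fin N` of `X` are split into `k` blocks by their residue modulo `k`.  A vertex of the
new graph is a block with a colouring of that block; two such vertices are adjacent when they live
on different blocks and their union is a proper colouring.
-/

namespace Vale.Agent.P310h2

/-- The block of index `i`: the vertices of `Fin N` with residue `i` modulo `k`. -/
def Block (N k : ℕ) (i : Fin k) : Type := {v : Fin N // v.val % k = i.val}

instance (N k : ℕ) (i : Fin k) : Fintype (Block N k i) := by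
  unfold Block; infer_instance

instance (N k : ℕ) (i : Fin k) : DecidableEq (Block N k i) := by
  unfold Block; infer_instance

/-- A block with a colouring of that block by three colours. -/
abbrev BlockVertex (N k : ℕ) : Type := Σ i : Fin k, (Block N k i → Fin 3)

/-- Two block colourings are compatible when their union is proper for `X`, that is, when no edge
of `X` inside the union of their two blocks has equal colours at its ends. -/
def Compatible {N k : ℕ} (X : SimpleGraph (Fin N)) (a b : BlockVertex N k) : Prop :=
  (∀ u v : Block N k a.1, X.Adj u.1 v.1 → a.2 u ≠ a.2 v) ∧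
  (∀ u v : Block N k b.1, X.Adj u.1 v.1 → b.2 u ≠ b.2 v) ∧
  (∀ (u : Block N k a.1) (v : Block N k b.1), X.Adj u.1 v.1 → a.2 u ≠ b.2 v)

/-- The graph on block colourings: different blocks, compatible colourings. -/
def blockGraph0 {N k : ℕ} (X : SimpleGraph (Fin N)) : SimpleGraph (BlockVertex N k) where
  Adj a b := a.1 ≠ b.1 ∧ Compatible X a b
  symm := ⟨by
    rintro a b ⟨h, h1, h2, h3⟩
    refine ⟨h.symm, h2, h1, ?_⟩
    intro u v huv e
    exact h3 v u huv.symm e.symm⟩
  loopless := ⟨fun a h => h.1 rfl⟩

/-- The number of block colourings. -/
def blockCount (N k : ℕ) : ℕ := Fintype.card (BlockVertex N k)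

/-- A numbering of the block colourings. -/
noncomputable def blockEquiv (N k : ℕ) : BlockVertex N k ≃ Fin (blockCount N k) :=
  Fintype.equivFin (BlockVertex N k)

/-- The graph on block colourings with vertex set `Fin (blockCount N k)`. -/
noncomputable def blockGraph {N : ℕ} (X : SimpleGraph (Fin N)) (k : ℕ) :
    SimpleGraph (Fin (blockCount N k)) :=
  (blockGraph0 (k := k) X).comap (blockEquiv N k).symm

lemma card_block_le (N k : ℕ) (i : Fin k) :
    Fintype.card (Block N k i) ≤ N / k + 1 := by
  classical
  have hi := i.2
  -- inject the block into `Fin (N / k + 1)` by the quotient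
  let f : Block N k i → Fin (N / k + 1) := fun v =>
    ⟨v.1.val / k, by
      have := Nat.div_le_div_right (c := k) (Nat.le_of_lt v.1.2)
      omega⟩
  have hf : Function.Injective f := by
    intro u v h
    have h1 : u.1.val / k = v.1.val / k := congrArg Fin.val h
    have h2 : u.1.val % k = v.1.val % k := by rw [u.2, v.2]
    have h3 : u.1.val = v.1.val := by
      rw [← Nat.div_add_mod u.1.val k, ← Nat.div_add_mod v.1.val k, h1, h2]
    exact Subtype.ext (Fin.ext h3)
  have := Fintype.card_le_of_injective f hf
  simpa using this

lemma blockCount_le (N k : ℕ) : blockCount N k ≤ k * 3 ^ (N / k + 1) := by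
  classical
  unfold blockCount
  rw [Fintype.card_sigma]
  calc ∑ i : Fin k, Fintype.card (Block N k i → Fin 3)
      ≤ ∑ _i : Fin k, 3 ^ (N / k + 1) := by
        apply Finset.sum_le_sum
        intro i _
        rw [Fintype.card_fun, Fintype.card_fin]
        exact Nat.pow_le_pow_right (by norm_num) (card_block_le N k i)
    _ = k * 3 ^ (N / k + 1) := by simp

/-- A proper colouring gives a clique of size `k`. -/
lemma clique_of_colorable {N k : ℕ} (X : SimpleGraph (Fin N)) (hk : 2 ≤ k)
    (h : X.Colorable 3) :
    ∃ S : Finset (Fin (blockCount N k)), (blockGraph X k).IsNClique k S := by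
  classical
  obtain ⟨C⟩ := h
  let e := blockEquiv N k
  let g : Fin k → BlockVertex N k := fun i => ⟨i, fun v => C v.1⟩
  have hg : Function.Injective g := by
    intro i j h
    exact congrArg Sigma.fst h
  refine ⟨(Finset.univ : Finset (Fin k)).image (fun i => e (g i)), ?_⟩
  constructor
  · intro x hx y hy hxy
    simp only [Finset.coe_image, Finset.coe_univ, Set.image_univ, Set.mem_range] at hx hy
    obtain ⟨i, rfl⟩ := hx
    obtain ⟨j, rfl⟩ := hy
    have hij : i ≠ j := fun h => hxy (by rw [h])
    have hi : e.symm (e (g i)) = g i := e.symm_apply_apply _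
    have hj : e.symm (e (g j)) = g j := e.symm_apply_apply _
    simp only [blockGraph, SimpleGraph.comap_adj]
    change (blockGraph0 X).Adj (e.symm (e (g i))) (e.symm (e (g j)))
    rw [hi, hj]
    refine ⟨hij, ?_, ?_, ?_⟩
    · intro u v huv; exact C.valid huv
    · intro u v huv; exact C.valid huv
    · intro u v huv; exact C.valid huv
  · rw [Finset.card_image_of_injective _ (fun i j h => hg (e.injective h))]
    simp

/-- A clique of size `k` gives a proper colouring. -/
lemma colorable_of_clique {N k : ℕ} (X : SimpleGraph (Fin N)) (hk : 2 ≤ k)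
    (h : ∃ S : Finset (Fin (blockCount N k)), (blockGraph X k).IsNClique k S) :
    X.Colorable 3 := by
  classical
  obtain ⟨S, hS⟩ := h
  let e := blockEquiv N k
  have hk0 : 0 < k := by omega
  -- the first coordinate is injective on the clique
  let fst : Fin (blockCount N k) → Fin k := fun x => (e.symm x).1
  have hinj : Set.InjOn fst (S : Set _) := by
    intro x hx y hy hxy
    by_contra hne
    have := hS.isClique hx hy hne
    simp only [blockGraph, SimpleGraph.comap_adj] at this
    exact this.1 hxy
  have hsurj : ∀ i : Fin k, ∃ x ∈ S, fst x = i := by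
    have hcard : (S.image fst).card = k := by
      rw [Finset.card_image_of_injOn hinj, hS.card_eq]
    have huniv : S.image fst = Finset.univ := by
      apply Finset.eq_univ_of_card
      simp [hcard]
    intro i
    have : i ∈ S.image fst := by rw [huniv]; exact Finset.mem_univ i
    simpa using this
  choose pick hpick hfst using hsurj
  let res : Fin N → Fin k := fun v => ⟨v.val % k, Nat.mod_lt _ hk0⟩
  -- the block vertex of the residue class
  have adjOf : ∀ i j : Fin k, i ≠ j →
      (blockGraph0 (k := k) X).Adj (e.symm (pick i)) (e.symm (pick j)) := by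
    intro i j hij
    have hne : pick i ≠ pick j := by
      intro h
      apply hij
      rw [← hfst i, ← hfst j, h]
    have := hS.isClique (hpick i) (hpick j) hne
    simpa [blockGraph, SimpleGraph.comap_adj] using this
  -- colour of a vertex
  have memb : ∀ v : Fin N, v.val % k = (e.symm (pick (res v))).1.val := by
    intro v
    have := hfst (res v)
    have h2 : (e.symm (pick (res v))).1 = res v := this
    rw [h2]
  let col : Fin N → Fin 3 := fun v => (e.symm (pick (res v))).2 ⟨v, memb v⟩
  refine ⟨SimpleGraph.Coloring.mk col ?_⟩
  intro u v huv hc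
  by_cases hres : res u = res v
  · -- same block: use adjacency to some other block
    have hother : ∃ j : Fin k, j ≠ res u := by
      by_cases h0 : (res u).val = 0
      · refine ⟨⟨1, by omega⟩, ?_⟩
        intro h
        have := congrArg Fin.val h
        simp only at this
        omega
      · refine ⟨⟨0, hk0⟩, ?_⟩
        intro h
        have := congrArg Fin.val h
        simp only at this
        omega
    obtain ⟨j, hj⟩ := hother
    have hadj := adjOf (res u) j (Ne.symm hj)
    obtain ⟨_, h1, _, _⟩ := hadj
    have mu : v.val % k = (e.symm (pick (res u))).1.val := by rw [hres]; exact memb v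
    apply h1 ⟨u, memb u⟩ ⟨v, mu⟩ huv
    have : (e.symm (pick (res v))).2 ⟨v, memb v⟩ = (e.symm (pick (res u))).2 ⟨v, mu⟩ := by
      have key : ∀ (i : Fin k) (hi : res v = i) (w : v.val % k = (e.symm (pick i)).1.val),
          (e.symm (pick (res v))).2 ⟨v, memb v⟩ = (e.symm (pick i)).2 ⟨v, w⟩ := by
        intro i hi w
        subst hi
        rfl
      exact key (res u) hres.symm mu
    calc _ = col u := rfl
      _ = col v := hc
      _ = _ := this
  · have hadj := adjOf (res u) (res v) hres
    obtain ⟨_, _, _, h3⟩ := hadj
    exact h3 ⟨u, memb u⟩ ⟨v, memb v⟩ huv hc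

/-- The block reduction: for `k ≥ 2`, the graph `X` is 3-colourable iff the block graph has a
clique of size `k`. -/
lemma colorable_iff_clique {N k : ℕ} (X : SimpleGraph (Fin N)) (hk : 2 ≤ k) :
    X.Colorable 3 ↔ ∃ S : Finset (Fin (blockCount N k)), (blockGraph X k).IsNClique k S :=
  ⟨clique_of_colorable X hk, colorable_of_clique X hk⟩

/-- The two graphs attached to a graph `X` and a number `k`. -/
theorem coloring_reduction {N : ℕ} (X : SimpleGraph (Fin N)) (k : ℕ) (hk : 2 ≤ k) :
    (X.Colorable 3 ↔
      ¬ WLEquiv ((machine (blockGraph X k) k).graph false)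
        ((machine (blockGraph X k) k).graph true) (2 * k + 1)) ∧
    Nat.card (machine (blockGraph X k) k).Vtx ≤ (k * 3 ^ (N / k + 1) + 2 * k + 11) ^ 110 := by
  obtain ⟨h1, h2⟩ := main_theorem (blockGraph X k) k (by omega)
  refine ⟨(colorable_iff_clique X hk).trans h1, h2.trans ?_⟩
  exact Nat.pow_le_pow_left (by have := blockCount_le N k; omega) 110

end Vale.Agent.P310h2
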