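import Vale.Agent.P310h2.Basic

namespace Vale.Agent.P310h2

open Function Relation

open scoped Classical

namespace Layered

variable {N : Type} {S : Layered N} {pos lab : N → ℕ} {T0 : ℕ}

namespace Nice

variable (hS : S.Nice pos lab T0)
include hS

/-- A cover of the word by classes, one per gap, is injective, so there is no room for much more. -/
theorem cover_card {T : Finset (Item N)} (hT : ∀ c ∈ T, S.valid c) {w : ℕ → N}
    (hw : S.IsWord w) (f : ℕ → Item N)
    (hf : ∀ i, i < S.m → f i ∈ T ∧ (w i, w (i + 1)) ∈ (f i).vars)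
    {A : Finset (Item N)} (hA : A ⊆ T) (hA2 : ∀ c ∈ A, ∀ i, i < S.m → c ≠ f i) :
    S.m + A.card ≤ T.card := by
  have h1 : (Finset.range S.m).image f ⊆ T \ A := by
    intro c hc
    obtain ⟨i, hi, rfl⟩ := Finset.mem_image.1 hc
    have hi' : i < S.m := Finset.mem_range.1 hi
    refine Finset.mem_sdiff.2 ⟨(hf i hi').1, fun h => hA2 _ h i hi' rfl⟩
  have h2 : ((Finset.range S.m).image f).card = S.m := by
    rw [Finset.card_image_of_injOn, Finset.card_range]
    intro i hi j hj hij
    have hi' : i < S.m := Finset.mem_range.1 hi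
    have hj' : j < S.m := Finset.mem_range.1 hj
    have h3 := hS.gap_eq (hT _ (hf i hi').1) (hf i hi').2 (hw.2.2 i hi')
    have h4 := hS.gap_eq (hT _ (hf j hj').1) (hf j hj').2 (hw.2.2 j hj')
    rw [hij, h4, hS.word_pos hw j hj'.le, hS.word_pos hw i hi'.le] at h3
    exact h3.symm
  have h3 := Finset.card_le_card h1
  rw [h2, Finset.card_sdiff_of_subset hA] at h3
  have h4 := Finset.card_le_card hA
  omega

theorem exists_cover {T : Finset (Item N)} {w : ℕ → N} (hw : S.WordIn T w) :
    ∃ f : ℕ → Item N, ∀ i, i < S.m → f i ∈ T ∧ (w i, w (i + 1)) ∈ (f i).vars := by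
  haveI : Nonempty (Item N) := ⟨Item.ev S.lo S.lo⟩
  choose! f hf using hw.2
  exact ⟨f, fun i hi => ⟨(hf i hi).1, (hf i hi).2⟩⟩

/-- If `T` has at most `m` classes and covers a word, every class of `T` meets the word. -/
theorem item_meets_word {T : Finset (Item N)} (hT : ∀ c ∈ T, S.valid c) {w : ℕ → N}
    (hw : S.WordIn T w) (hcard : T.card ≤ S.m) {c : Item N} (hc : c ∈ T) :
    ∃ i, i < S.m ∧ (w i, w (i + 1)) ∈ c.vars := by
  by_contra hne
  push_neg at hne
  obtain ⟨f, hf⟩ := hS.exists_cover hw
  have := hS.cover_card hT hw.1 f hf (A := {c}) (by simpa using hc) (by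
    intro c' hc' i hi h
    rw [Finset.mem_singleton] at hc'
    subst hc'
    exact hne i hi (h ▸ (hf i hi).2))
  simp only [Finset.card_singleton] at this
  omega

/-- At most one gap carries two classes. -/
theorem no_two_double {T : Finset (Item N)} (hT : ∀ c ∈ T, S.valid c) {w : ℕ → N}
    (hw : S.WordIn T w) (hcard : T.card ≤ S.m + 1) {c1 c1' c2 c2' : Item N}
    (h1 : c1 ∈ T) (h1' : c1' ∈ T) (h2 : c2 ∈ T) (h2' : c2' ∈ T)
    (hne1 : c1 ≠ c1') (hne2 : c2 ≠ c2') (hg1 : gapPos pos c1 = gapPos pos c1')
    (hg2 : gapPos pos c2 = gapPos pos c2') (hg : gapPos pos c1 ≠ gapPos pos c2) : False := by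
  obtain ⟨f, hf⟩ := hS.exists_cover hw
  have hgapf : ∀ i, i < S.m → gapPos pos (f i) = i := by
    intro i hi
    rw [hS.gap_eq (hT _ (hf i hi).1) (hf i hi).2 (hw.1.2.2 i hi), hS.word_pos hw.1 i hi.le]
  -- an item not equal to the cover at its own gap is not in the cover at all
  have key : ∀ c ∈ T, ∀ c' ∈ T, c ≠ c' → gapPos pos c = gapPos pos c' →
      ∃ x ∈ T, gapPos pos x = gapPos pos c ∧ ∀ i, i < S.m → x ≠ f i := by
    intro c hc c' hc' hne hg
    by_cases hin : ∀ i, i < S.m → c ≠ f i
    · exact ⟨c, hc, rfl, hin⟩
    · push_neg at hin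
      obtain ⟨i0, hi0, rfl⟩ := hin
      refine ⟨c', hc', hg.symm, ?_⟩
      intro i hi h
      subst h
      have e1 := hgapf i hi
      have e2 := hgapf i0 hi0
      have : i = i0 := by omega
      subst this
      exact hne rfl
  obtain ⟨x, hx, hxg, hx2⟩ := key c1 h1 c1' h1' hne1 hg1
  obtain ⟨y, hy, hyg, hy2⟩ := key c2 h2 c2' h2' hne2 hg2
  have hxy : x ≠ y := by
    intro h
    subst h
    exact hg (hxg.symm.trans hyg)
  have := hS.cover_card hT hw.1 f hf (A := {x, y})
    (by
      intro c hc
      rw [Finset.mem_insert, Finset.mem_singleton] at hc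
      rcases hc with rfl | rfl <;> assumption)
    (by
      intro c hc i hi
      rw [Finset.mem_insert, Finset.mem_singleton] at hc
      rcases hc with rfl | rfl
      · exact hx2 i hi
      · exact hy2 i hi)
  rw [Finset.card_pair hxy] at this
  omega

/-- Number of positions where two words differ. -/
noncomputable def diffN (S : Layered N) (w w' : ℕ → N) : ℕ :=
  ((Finset.range (S.m + 1)).filter (fun i => w i ≠ w' i)).card

omit hS in
theorem diffN_update {w w' : ℕ → N} {j : ℕ} (hj : j ≤ S.m) (hne : w j ≠ w' j) :
    diffN S (update w j (w' j)) w' < diffN S w w' := by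
  unfold diffN
  apply Finset.card_lt_card
  refine ⟨?_, ?_⟩
  · intro i hi
    rw [Finset.mem_filter] at hi ⊢
    refine ⟨hi.1, ?_⟩
    by_cases hij : i = j
    · subst hij
      simp at hi
    · have := hi.2
      rwa [update_of_ne hij] at this
  · intro h
    have hmem : j ∈ (Finset.range (S.m + 1)).filter (fun i => w i ≠ w' i) :=
      Finset.mem_filter.2 ⟨Finset.mem_range.2 (by omega), hne⟩
    have := h hmem
    simp at this

theorem wordIn_mix {T : Finset (Item N)} {w w' w'' : ℕ → N} (h : S.WordIn T w)
    (h' : S.WordIn T w') (h0 : w'' 0 = S.lo) (hm : w'' S.m = S.hi)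
    (hmix : ∀ g, g < S.m → (w'' g, w'' (g + 1)) = (w g, w (g + 1)) ∨
      (w'' g, w'' (g + 1)) = (w' g, w' (g + 1))) : S.WordIn T w'' := by
  refine ⟨⟨h0, hm, ?_⟩, ?_⟩
  · intro i hi
    rcases hmix i hi with e | e <;> simp only [Prod.mk.injEq] at e <;> rw [e.1, e.2]
    · exact h.1.2.2 i hi
    · exact h'.1.2.2 i hi
  · intro i hi
    rcases hmix i hi with e | e <;> rw [e]
    · exact h.2 i hi
    · exact h'.2 i hi

/-- Any two words inside at most `m + 1` classes are connected by moves. -/
theorem words_conn {T : Finset (Item N)} (hT : ∀ c ∈ T, S.valid c) (hcard : T.card ≤ S.m + 1) :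
    ∀ n : ℕ, ∀ w w' : ℕ → N, S.WordIn T w → S.WordIn T w' → diffN S w w' ≤ n → S.Conn w w' := by
  have hedge : ∀ {w : ℕ → N}, S.WordIn T w → ∀ i, i < S.m → S.E (w i) (w (i + 1)) :=
    fun h i hi => h.1.2.2 i hi
  -- at two different gaps, one of them has a single class
  have single : ∀ {w w' : ℕ → N}, S.WordIn T w → S.WordIn T w' → ∀ g g', g < S.m → g' < S.m →
      g ≠ g' →
      (∃ c ∈ T, (w g, w (g + 1)) ∈ c.vars ∧ (w' g, w' (g + 1)) ∈ c.vars) ∨
      (∃ c ∈ T, (w g', w (g' + 1)) ∈ c.vars ∧ (w' g', w' (g' + 1)) ∈ c.vars) := by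
    intro w w' hw hw' g g' hg hg' hne
    obtain ⟨c1, h1, h1v⟩ := hw.2 g hg
    obtain ⟨c1', h1', h1v'⟩ := hw'.2 g hg
    obtain ⟨c2, h2, h2v⟩ := hw.2 g' hg'
    obtain ⟨c2', h2', h2v'⟩ := hw'.2 g' hg'
    by_cases e1 : c1 = c1'
    · subst e1
      exact Or.inl ⟨c1, h1, h1v, h1v'⟩
    by_cases e2 : c2 = c2'
    · subst e2
      exact Or.inr ⟨c2, h2, h2v, h2v'⟩
    exfalso
    have pos1 := hS.gap_eq (hT _ h1) h1v (hedge hw g hg)
    have pos1' := hS.gap_eq (hT _ h1') h1v' (hedge hw' g hg)
    have pos2 := hS.gap_eq (hT _ h2) h2v (hedge hw g' hg')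
    have pos2' := hS.gap_eq (hT _ h2') h2v' (hedge hw' g' hg')
    rw [hS.word_pos hw.1 g hg.le] at pos1
    rw [hS.word_pos hw'.1 g hg.le] at pos1'
    rw [hS.word_pos hw.1 g' hg'.le] at pos2
    rw [hS.word_pos hw'.1 g' hg'.le] at pos2'
    exact hS.no_two_double hT hw hcard h1 h1' h2 h2' e1 e2 (pos1.trans pos1'.symm)
      (pos2.trans pos2'.symm) (by rw [pos1, pos2]; exact hne)
  -- change of a position where both neighbours agree
  have isolated : ∀ {w w' : ℕ → N} {i : ℕ}, S.WordIn T w → S.WordIn T w' → i + 1 < S.m →
      w (i + 1) ≠ w' (i + 1) → w i = w' i → w (i + 2) = w' (i + 2) →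
      S.Move w (update w (i + 1) (w' (i + 1))) ∧
        S.WordIn T (update w (i + 1) (w' (i + 1))) := by
    intro w w' i hw hw' hi hne e1 e2
    have hmix : S.WordIn T (update w (i + 1) (w' (i + 1))) := by
      refine hS.wordIn_mix hw hw' ?_ ?_ ?_
      · rw [update_of_ne (by omega)]
        exact hw.1.1
      · rw [update_of_ne (by omega)]
        exact hw.1.2.1
      · intro g hg
        by_cases h1 : g = i
        · subst h1
          right
          rw [update_of_ne (by omega), update_self, e1]
        by_cases h2 : g = i + 1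
        · subst h2
          right
          rw [update_self, update_of_ne (by omega), e2]
        left
        rw [update_of_ne h2, update_of_ne (by omega)]
    refine ⟨⟨hw.1, hmix.1, i + 1, ?_, Or.inr ?_⟩, hmix⟩
    · intro x _ hx
      rw [update_of_ne hx]
    · rw [update_self]
      rcases single hw hw' i (i + 1) (by omega) hi (by omega) with ⟨c, hc, h1, h2⟩ | ⟨c, hc, h1, h2⟩
      · rcases hS.shape (hT c hc) h1 h2 (hedge hw i (by omega)) (hedge hw' i (by omega)) with
          ⟨_, h3 | h3⟩ | ⟨h3, _⟩
        · exact (hne h3).elim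
        · exact h3
        · exact (hne h3).elim
      · rcases hS.shape (hT c hc) h1 h2 (hedge hw (i + 1) hi) (hedge hw' (i + 1) hi) with
          ⟨h3, _⟩ | ⟨_, h3 | h3⟩
        · exact (hne h3).elim
        · exact (hne h3).elim
        · exact h3
  -- change of two neighbouring positions
  have pair : ∀ {w w' : ℕ → N} {j : ℕ}, S.WordIn T w → S.WordIn T w' → 0 < j → j + 1 < S.m →
      w j ≠ w' j → w (j + 1) ≠ w' (j + 1) →
      ∃ w2, S.Conn w w2 ∧ S.WordIn T w2 ∧ diffN S w2 w' < diffN S w w' := by
    intro w w' j hw hw' hj0 hj1 hne1 hne2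
    obtain ⟨i, rfl⟩ : ∃ i, j = i + 1 := ⟨j - 1, by omega⟩
    -- the gap `i + 1` has two classes
    have hdbl : ¬ ∃ c ∈ T, (w (i + 1), w (i + 1 + 1)) ∈ c.vars ∧
        (w' (i + 1), w' (i + 1 + 1)) ∈ c.vars := by
      rintro ⟨c, hc, h1, h2⟩
      rcases hS.shape (hT c hc) h1 h2 (hedge hw _ (by omega)) (hedge hw' _ (by omega)) with
        ⟨h3, _⟩ | ⟨h3, _⟩
      · exact hne1 h3
      · exact hne2 h3
    have hL : ∃ c ∈ T, (w i, w (i + 1)) ∈ c.vars ∧ (w' i, w' (i + 1)) ∈ c.vars := by
      rcases single hw hw' (i + 1) i (by omega) (by omega) (by omega) with h | h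
      · exact (hdbl h).elim
      · exact h
    have hR : ∃ c ∈ T, (w (i + 2), w (i + 2 + 1)) ∈ c.vars ∧
        (w' (i + 2), w' (i + 2 + 1)) ∈ c.vars := by
      rcases single hw hw' (i + 1) (i + 2) (by omega) (by omega) (by omega) with h | h
      · exact (hdbl h).elim
      · exact h
    obtain ⟨cL, hcL, hL1, hL2⟩ := hL
    obtain ⟨cR, hcR, hR1, hR2⟩ := hR
    have hLs : w i = w' i ∧ S.Vert (w (i + 1)) (w' (i + 1)) := by
      rcases hS.shape (hT cL hcL) hL1 hL2 (hedge hw i (by omega)) (hedge hw' i (by omega)) with
        ⟨h3, h4 | h4⟩ | ⟨h3, _⟩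
      · exact (hne1 h4).elim
      · exact ⟨h3, h4⟩
      · exact (hne1 h3).elim
    have hRs : w (i + 3) = w' (i + 3) ∧ S.Vert (w (i + 2)) (w' (i + 2)) := by
      rcases hS.shape (hT cR hcR) hR1 hR2 (hedge hw (i + 2) (by omega))
          (hedge hw' (i + 2) (by omega)) with
        ⟨h3, _⟩ | ⟨h3, h4 | h4⟩
      · exact (hne2 h3).elim
      · exact (hne2 h4).elim
      · exact ⟨h3, h4⟩
    obtain ⟨hL3, hLV⟩ := hLs
    obtain ⟨hR3, hRV⟩ := hRs
    -- the final word
    let w2 := update (update w (i + 1) (w' (i + 1))) (i + 2) (w' (i + 2))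
    have hw2 : S.WordIn T w2 := by
      refine hS.wordIn_mix hw hw' ?_ ?_ ?_
      · simp only [w2]
        rw [update_of_ne (by omega), update_of_ne (by omega)]
        exact hw.1.1
      · simp only [w2]
        rw [update_of_ne (by omega), update_of_ne (by omega)]
        exact hw.1.2.1
      · intro g hg
        simp only [w2]
        by_cases h1 : g = i
        · subst h1
          right
          rw [update_of_ne (by omega), update_of_ne (by omega), update_of_ne (by omega),
            update_self, hL3]
        by_cases h2 : g = i + 1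
        · subst h2
          right
          rw [update_of_ne (by omega), update_self, update_self]
        by_cases h3 : g = i + 2
        · subst h3
          right
          rw [update_self, update_of_ne (by omega), update_of_ne (by omega), hR3]
        left
        rw [update_of_ne (by omega), update_of_ne (by omega), update_of_ne (by omega),
          update_of_ne (by omega)]
    have hdiff : diffN S w2 w' < diffN S w w' := by
      have h1 : diffN S (update w (i + 1) (w' (i + 1))) w' < diffN S w w' :=
        diffN_update (by omega) hne1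
      have h2 : diffN S w2 w' < diffN S (update w (i + 1) (w' (i + 1))) w' := by
        apply diffN_update (by omega)
        rw [update_of_ne (by omega)]
        exact hne2
      exact h2.trans h1
    refine ⟨w2, ?_, hw2, hdiff⟩
    -- the middle word
    have hEm : S.E (w' (i + 1)) (w (i + 2)) ∨ S.E (w (i + 1)) (w' (i + 2)) :=
      hS.sep2 hLV hRV (hedge hw (i + 1) (by omega)) (hedge hw' (i + 1) (by omega))
    rcases hEm with hEm | hEm
    · -- change `i + 1` first
      let w1 := update w (i + 1) (w' (i + 1))
      have hw1 : S.IsWord w1 := by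
        refine ⟨?_, ?_, ?_⟩
        · simp only [w1]
          rw [update_of_ne (by omega)]
          exact hw.1.1
        · simp only [w1]
          rw [update_of_ne (by omega)]
          exact hw.1.2.1
        · intro g hg
          simp only [w1]
          by_cases h1 : g = i
          · subst h1
            rw [update_of_ne (by omega), update_self, hL3]
            exact hedge hw' g hg
          by_cases h2 : g = i + 1
          · subst h2
            rw [update_self, update_of_ne (by omega)]
            exact hEm
          rw [update_of_ne h2, update_of_ne (by omega)]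
          exact hedge hw g hg
      have m1 : S.Move w w1 := by
        refine ⟨hw.1, hw1, i + 1, ?_, Or.inr ?_⟩
        · intro x _ hx
          simp only [w1]
          rw [update_of_ne hx]
        · simp only [w1]
          rw [update_self]
          exact hLV
      have m2 : S.Move w1 w2 := by
        refine ⟨hw1, hw2.1, i + 2, ?_, Or.inr ?_⟩
        · intro x _ hx
          simp only [w2]
          rw [update_of_ne hx]
        · simp only [w2, w1]
          rw [update_self, update_of_ne (by omega)]
          exact hRV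
      exact ReflTransGen.tail (ReflTransGen.single m1) m2
    · -- change `i + 2` first
      let w1 := update w (i + 2) (w' (i + 2))
      have hw1 : S.IsWord w1 := by
        refine ⟨?_, ?_, ?_⟩
        · simp only [w1]
          rw [update_of_ne (by omega)]
          exact hw.1.1
        · simp only [w1]
          rw [update_of_ne (by omega)]
          exact hw.1.2.1
        · intro g hg
          simp only [w1]
          by_cases h1 : g = i + 1
          · subst h1
            rw [update_of_ne (by omega), update_self]
            exact hEm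
          by_cases h2 : g = i + 2
          · subst h2
            rw [update_self, update_of_ne (by omega), hR3]
            exact hedge hw' _ hg
          rw [update_of_ne (by omega), update_of_ne (by omega)]
          exact hedge hw g hg
      have hw2' : w2 = update w1 (i + 1) (w' (i + 1)) := by
        simp only [w2, w1]
        rw [update_comm (by omega)]
      have m1 : S.Move w w1 := by
        refine ⟨hw.1, hw1, i + 2, ?_, Or.inr ?_⟩
        · intro x _ hx
          simp only [w1]
          rw [update_of_ne hx]
        · simp only [w1]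
          rw [update_self]
          exact hRV
      have m2 : S.Move w1 w2 := by
        refine ⟨hw1, hw2.1, i + 1, ?_, Or.inr ?_⟩
        · intro x _ hx
          rw [hw2']
          rw [update_of_ne hx]
        · rw [hw2', update_self]
          simp only [w1]
          rw [update_of_ne (by omega)]
          exact hLV
      exact ReflTransGen.tail (ReflTransGen.single m1) m2
  intro n
  induction n with
  | zero =>
    intro w w' hw hw' hd
    refine ReflTransGen.single ⟨hw.1, hw'.1, 0, ?_, Or.inl (hw.1.1.trans hw'.1.1.symm)⟩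
    intro i hi _
    by_contra hne
    have : i ∈ (Finset.range (S.m + 1)).filter (fun i => w i ≠ w' i) :=
      Finset.mem_filter.2 ⟨Finset.mem_range.2 (by omega), hne⟩
    have h0 : diffN S w w' = 0 := by omega
    unfold diffN at h0
    rw [Finset.card_eq_zero] at h0
    rw [h0] at this
    simp at this
  | succ n ih =>
    intro w w' hw hw' hd
    by_cases hd0 : diffN S w w' = 0
    · exact ih w w' hw hw' (by omega)
    obtain ⟨j, hj⟩ : ∃ j, j ∈ (Finset.range (S.m + 1)).filter (fun i => w i ≠ w' i) := by
      rw [← Finset.Nonempty]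
      rw [← Finset.card_pos]
      unfold diffN at hd0
      omega
    obtain ⟨hj1, hj2⟩ := Finset.mem_filter.1 hj
    have hj1' : j ≤ S.m := by
      have := Finset.mem_range.1 hj1
      omega
    have hj0 : 0 < j := by
      rcases Nat.eq_zero_or_pos j with h | h
      · subst h
        exact (hj2 (hw.1.1.trans hw'.1.1.symm)).elim
      · exact h
    have hjm : j < S.m := by
      rcases Nat.lt_or_ge j S.m with h | h
      · exact h
      · have : j = S.m := by omega
        subst this
        exact (hj2 (hw.1.2.1.trans hw'.1.2.1.symm)).elim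
    obtain ⟨i, rfl⟩ : ∃ i, j = i + 1 := ⟨j - 1, by omega⟩
    by_cases h1 : w i = w' i
    · by_cases h2 : w (i + 2) = w' (i + 2)
      · obtain ⟨hm, hw1⟩ := isolated hw hw' hjm hj2 h1 h2
        have hlt := diffN_update (S := S) hj1' hj2
        exact ReflTransGen.head hm (ih _ w' hw1 hw' (by omega))
      · obtain ⟨w2, h3, h4, h5⟩ := pair hw hw' (j := i + 1) (by omega) (by
          rcases Nat.lt_or_ge (i + 2) S.m with h | h
          · exact h
          · have : i + 2 = S.m := by omega
            rw [this] at h2
            exact (h2 (hw.1.2.1.trans hw'.1.2.1.symm)).elim) hj2 h2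
        exact Conn_trans h3 (ih _ w' h4 hw' (by omega))
    · have hi0 : 0 < i := by
        rcases Nat.eq_zero_or_pos i with h | h
        · subst h
          exact (h1 (hw.1.1.trans hw'.1.1.symm)).elim
        · exact h
      obtain ⟨w2, h3, h4, h5⟩ := pair hw hw' (j := i) hi0 hjm h1 hj2
      exact Conn_trans h3 (ih _ w' h4 hw' (by omega))

end Nice

end Layered

end Vale.Agent.P310h2
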