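import Vale.Agent.P310h2.Combo

namespace Vale.Agent.P310h2

open Function Relation

open scoped Classical

namespace Layered

variable {N : Type} {S : Layered N} {pos lab : N → ℕ} {T0 : ℕ}

theorem StepIn.has {c : Item N} {x y : N} (h : S.StepIn c x y) : c.Has x ∧ c.Has y := by
  obtain ⟨_, _, h3 | h3⟩ := h
  · exact ⟨⟨_, h3, Or.inl rfl⟩, ⟨_, h3, Or.inr rfl⟩⟩
  · exact ⟨⟨_, h3, Or.inr rfl⟩, ⟨_, h3, Or.inl rfl⟩⟩

/-- A path between nodes of small and large value of `ρ` has a step crossing any given level. -/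
theorem cross_gen (T : Finset (Item N)) (ρ : N → ℕ) {x y : N} (h : S.Rel T x y) (a : ℕ)
    (hx : ρ x ≤ a) (hy : a < ρ y) : ∃ c ∈ T, ∃ p q, S.StepIn c p q ∧ ρ p ≤ a ∧ a < ρ q := by
  induction h with
  | refl => omega
  | @tail b c' _ h2 ih =>
    by_cases hb : a < ρ b
    · exact ih hb
    · obtain ⟨c, hc, h3⟩ := h2
      exact ⟨c, hc, b, c', h3, by omega, hy⟩

namespace Nice

variable (hS : S.Nice pos lab T0)
include hS

theorem E_lo_inner {y : N} (h : S.E S.lo y) : S.Inner y := by
  refine ⟨hS.E_ne_lo h, ?_⟩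
  intro e
  have h1 := hS.E_pos h
  rw [e, hS.pos_hi, hS.pos_lo] at h1
  have := hS.m_ge
  omega

theorem E_hi_inner {y : N} (h : S.E y S.hi) : S.Inner y := by
  refine ⟨?_, hS.E_ne_hi h⟩
  intro e
  have h1 := hS.E_pos h
  rw [e, hS.pos_hi, hS.pos_lo] at h1
  have := hS.m_ge
  omega

/-- A word edge has an inner end. -/
theorem word_edge_inner {w : ℕ → N} (hw : S.IsWord w) {g : ℕ} (hg : g < S.m) :
    ∃ i, 0 < i ∧ i < S.m ∧ (i = g ∨ i = g + 1) := by
  have := hS.m_ge
  rcases Nat.eq_zero_or_pos g with h | h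
  · exact ⟨1, by omega, by omega, Or.inr (by omega)⟩
  · exact ⟨g, h, hg, Or.inl rfl⟩

theorem word_inner {w : ℕ → N} (hw : S.IsWord w) {i : ℕ} (h0 : 0 < i) (h1 : i < S.m) :
    S.Inner (w i) :=
  ⟨hS.word_ne_lo hw h0 h1.le, hS.word_ne_hi hw h1⟩

/-- If an inner node of a word is in the component of a node of value `0` of `ρ`, the word has
a node of value at most `2`. -/
theorem word_low_gen (ρ : N → ℕ)
    (hρ : ∀ {c : Item N}, S.valid c → ∀ {z z' : N}, c.Has z → c.Has z' → S.Inner z → S.Inner z' →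
      ρ z ≤ ρ z' + 1)
    {T : Finset (Item N)} (hT : ∀ c ∈ T, S.valid c) (hcard : T.card ≤ S.m + 1) {w : ℕ → N}
    (hw : S.WordIn T w) {x : N} (hx : ρ x = 0) {i : ℕ} (hi0 : 0 < i) (hi1 : i < S.m)
    (hr : S.Rel T x (w i)) : ∃ i', 0 < i' ∧ i' < S.m ∧ ρ (w i') ≤ 2 := by
  by_contra hne
  push_neg at hne
  have hbig : ∀ i', 0 < i' → i' < S.m → 3 ≤ ρ (w i') := fun i' h h' => hne i' h h'
  have h3 := hbig i hi0 hi1
  obtain ⟨c0, hc0, p0, q0, hs0, hp0, hq0⟩ := cross_gen T ρ hr 0 (by omega) (by omega)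
  obtain ⟨c1, hc1, p1, q1, hs1, hp1, hq1⟩ := cross_gen T ρ hr 1 (by omega) (by omega)
  -- no word edge in them
  have noedge : ∀ {c : Item N} {p : N}, c ∈ T → S.Inner p → c.Has p → ρ p ≤ 1 →
      ∀ g, g < S.m → (w g, w (g + 1)) ∉ c.vars := by
    intro c p hc hp1 hp2 hp3 g hg hmem
    obtain ⟨i', h1, h2, h4⟩ := hS.word_edge_inner hw.1 hg
    have hhas : c.Has (w i') := by
      rcases h4 with rfl | rfl
      · exact ⟨_, hmem, Or.inl rfl⟩
      · exact ⟨_, hmem, Or.inr rfl⟩
    have := hρ (hT c hc) hhas hp2 (hS.word_inner hw.1 h1 h2) hp1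
    have := hbig i' h1 h2
    omega
  have hne01 : c0 ≠ c1 := by
    intro e
    subst e
    have := hρ (hT c0 hc0) hs1.has.2 hs0.has.1 hs1.2.1 hs0.1
    omega
  obtain ⟨f, hf⟩ := hS.exists_cover hw
  have := hS.cover_card hT hw.1 f hf (A := {c0, c1})
    (by
      intro c hc
      rw [Finset.mem_insert, Finset.mem_singleton] at hc
      rcases hc with rfl | rfl <;> assumption)
    (by
      intro c hc g hg e
      rw [Finset.mem_insert, Finset.mem_singleton] at hc
      have hfv := (hf g hg).2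
      rw [← e] at hfv
      rcases hc with rfl | rfl
      · exact noedge hc0 hs0.1 hs0.has.1 (by omega) g hg hfv
      · exact noedge hc1 hs1.1 hs1.has.1 (by omega) g hg hfv)
  rw [Finset.card_pair hne01] at this
  omega

theorem Blank_inner {τ : Bool} {x : N} (h : S.Blank τ x) : S.Inner x := by
  obtain ⟨i, h0, h1, rfl⟩ := h
  cases τ
  · exact hS.word_inner hS.s_word h0 h1
  · exact hS.word_inner hS.t_word h0 h1

theorem Blank_lab_false {x : N} (h : S.Blank false x) : lab x = 0 := by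
  obtain ⟨i, h0, h1, rfl⟩ := h
  exact hS.lab_s i h0 h1

theorem Blank_lab_true {x : N} (h : S.Blank true x) : lab x = T0 := by
  obtain ⟨i, h0, h1, rfl⟩ := h
  exact hS.lab_t i h0 h1

/-- If a word inside `m + 1` classes is in the component of a blank, then it is connected to the
special word of the type of the blank. -/
theorem blank_word {T : Finset (Item N)} (hT : ∀ c ∈ T, S.valid c) (hcard : T.card ≤ S.m + 1)
    {w : ℕ → N} (hw : S.WordIn T w) {τ : Bool} {x : N} (hx : S.Blank τ x) {i : ℕ} (hi0 : 0 < i)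
    (hi1 : i < S.m) (hr : S.Rel T x (w i)) : S.Conn w (S.bw τ) := by
  cases τ
  · obtain ⟨i', h0, h1, h2⟩ := hS.word_low_gen lab (fun hc _ _ hz hz' iz iz' =>
      hS.window hc hz hz' iz iz') hT hcard hw (hS.Blank_lab_false hx) hi0 hi1 hr
    refine hS.low hw.1 ?_
    intro j hj0 hj1
    have := hS.win_word hw.1 j i' hj0 hj1 h0 h1
    omega
  · obtain ⟨i', h0, h1, h2⟩ := hS.word_low_gen (fun y => T0 - lab y) (by
      intro c hc z z' hz hz' iz iz'
      have h1 := hS.window hc hz' hz iz' iz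
      have h2 := hS.lab_le z
      have h3 := hS.lab_le z'
      omega) hT hcard hw (by
        rw [hS.Blank_lab_true hx]
        omega) hi0 hi1 hr
    refine hS.high hw.1 ?_
    intro j hj0 hj1
    have := hS.win_word hw.1 i' j h0 h1 hj0 hj1
    omega

/-- A component with at most `m + 1` classes does not contain blanks of both types. -/
theorem no_two_blanks {T : Finset (Item N)} (hT : ∀ c ∈ T, S.valid c) (hcard : T.card ≤ S.m + 1)
    {x y : N} (hx : S.Blank false x) (hy : S.Blank true y) (hr : S.Rel T x y) : False := by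
  have hlx := hS.Blank_lab_false hx
  have hly := hS.Blank_lab_true hy
  have hT0 := hS.T_big
  have key : ∀ a, a < T0 → ∃ c ∈ T, ∃ p q, S.StepIn c p q ∧ lab p ≤ a ∧ a < lab q :=
    fun a ha => cross_gen T lab hr a (by omega) (by omega)
  haveI : Nonempty (Item N) := ⟨Item.ev S.lo S.lo⟩
  choose! f hf hf2 using key
  have hinj : Set.InjOn f (Finset.range T0 : Set ℕ) := by
    have aux : ∀ a a', a < T0 → a' < T0 → a < a' → f a ≠ f a' := by
      intro a a' ha ha' hlt e
      obtain ⟨p, q, hs, h1, h2⟩ := hf2 a ha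
      obtain ⟨p', q', hs', h1', h2'⟩ := hf2 a' ha'
      have hva := hT _ (hf a ha)
      have hhas : (f a).Has q' := by
        rw [e]
        exact hs'.has.2
      have := hS.window hva hhas hs.has.1 hs'.2.1 hs.1
      omega
    intro a ha a' ha' e
    have ha2 : a < T0 := Finset.mem_range.1 ha
    have ha2' : a' < T0 := Finset.mem_range.1 ha'
    rcases Nat.lt_trichotomy a a' with h | h | h
    · exact (aux a a' ha2 ha2' h e).elim
    · exact h
    · exact (aux a' a ha2' ha2 h e.symm).elim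
  have h1 : (Finset.range T0).image f ⊆ T := by
    intro c hc
    obtain ⟨a, ha, rfl⟩ := Finset.mem_image.1 hc
    exact hf a (Finset.mem_range.1 ha)
  have h2 := Finset.card_le_card h1
  rw [Finset.card_image_of_injOn hinj, Finset.card_range] at h2
  omega

/-- The nodes of a class with an edge variable. -/
theorem has_cases {c : Item N} (hc : S.valid c) {a b : N} (hd : (a, b) ∈ c.vars) (hE : S.E a b)
    {z : N} (hz : c.Has z) :
    (pos z = gapPos pos c ∧ ∃ b', (z, b') ∈ c.vars ∧ S.E z b') ∨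
      (pos z = gapPos pos c + 1 ∧ ∃ a', (a', z) ∈ c.vars ∧ S.E a' z) := by
  obtain ⟨d, hd1, hd2⟩ := hz
  cases c with
  | ev x y =>
    have e1 : d = (x, y) := hd1
    subst e1
    have hxy : S.E x y := hc
    rcases hd2 with rfl | rfl
    · exact Or.inl ⟨rfl, _, rfl, hxy⟩
    · exact Or.inr ⟨hS.E_pos hxy, _, rfl, hxy⟩
  | vv p q =>
    have h1 : (a, b) = (p, q) := hd
    simp only [Prod.mk.injEq] at h1
    rw [h1.1, h1.2] at hE
    exact (hS.V_not_E hc hE).elim
  | tl x p q =>
    obtain ⟨h1, h2, h3⟩ := hc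
    have c1 : (x, p) ∈ (Item.tl x p q).vars := Or.inl rfl
    have c2 : (x, q) ∈ (Item.tl x p q).vars := Or.inr (Or.inl rfl)
    have hzz : z = x ∨ z = p ∨ z = q := by
      rcases hd1 with rfl | rfl | rfl <;> rcases hd2 with rfl | rfl <;> simp
    rcases hzz with rfl | rfl | rfl
    · exact Or.inl ⟨rfl, _, c1, h1⟩
    · exact Or.inr ⟨hS.E_pos h1, _, c1, h1⟩
    · exact Or.inr ⟨hS.E_pos h2, _, c2, h2⟩
  | tr p q y =>
    obtain ⟨h1, h2, h3⟩ := hc
    have c1 : (p, y) ∈ (Item.tr p q y).vars := Or.inl rfl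
    have c2 : (q, y) ∈ (Item.tr p q y).vars := Or.inr (Or.inl rfl)
    have hzz : z = p ∨ z = q ∨ z = y := by
      rcases hd1 with rfl | rfl | rfl <;> rcases hd2 with rfl | rfl <;> simp
    rcases hzz with rfl | rfl | rfl
    · exact Or.inl ⟨rfl, _, c1, h1⟩
    · exact Or.inl ⟨(hS.V_pos h3).symm, _, c2, h2⟩
    · exact Or.inr ⟨hS.E_pos h1, _, c1, h1⟩
  | un x y =>
    have e1 : d = (x, y) := hd1
    subst e1
    have hxy : S.E x y := hS.un_edge hc
    rcases hd2 with rfl | rfl
    · exact Or.inl ⟨rfl, _, rfl, hxy⟩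
    · exact Or.inr ⟨hS.E_pos hxy, _, rfl, hxy⟩

/-- If at most `m` classes connect `lo` and `hi` among inner nodes, they contain a word. -/
theorem word_of_att {T : Finset (Item N)} (hT : ∀ c ∈ T, S.valid c) (hcard : T.card ≤ S.m)
    {y1 y2 : N} (hr : S.Rel T y1 y2) (h1 : S.AttL T y1) (h2 : S.AttR T y2) :
    ∃ w, S.WordIn T w := by
  have hm := hS.m_ge
  obtain ⟨c1, hc1, hv1⟩ := h1
  obtain ⟨c2, hc2, hv2⟩ := h2
  have hE1 : S.E S.lo y1 := by
    rcases hS.var_cases (hT c1 hc1) hv1 with h | h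
    · exact h
    · exact (hS.V_lo h rfl).elim
  have hE2 : S.E y2 S.hi := by
    rcases hS.var_cases (hT c2 hc2) hv2 with h | h
    · exact h
    · exact (hS.V_hi (hS.V_symm h) rfl).elim
  have hpy1 : pos y1 = 1 := by rw [hS.E_pos hE1, hS.pos_lo]
  have hpy2 : pos y2 + 1 = S.m := by rw [← hS.E_pos hE2, hS.pos_hi]
  -- every gap has a class
  have hgap : ∀ g, g < S.m → ∃ c ∈ T, ∃ a b, (a, b) ∈ c.vars ∧ S.E a b ∧ pos a = g := by
    intro g hg
    rcases Nat.eq_zero_or_pos g with h0 | h0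
    · subst h0
      exact ⟨c1, hc1, _, _, hv1, hE1, hS.pos_lo⟩
    rcases Nat.lt_or_ge (g + 1) S.m with hlt | hge
    · obtain ⟨c, hc, p, q, hs, hp, hq⟩ :=
        cross_gen T pos hr g (by omega) (by omega)
      refine ⟨c, hc, ?_⟩
      obtain ⟨_, _, h3 | h3⟩ := hs
      · rcases hS.var_cases (hT c hc) h3 with h | h
        · simp only at h
          have := hS.E_pos h
          exact ⟨p, q, h3, h, by omega⟩
        · simp only at h
          have := hS.V_pos h
          omega
      · rcases hS.var_cases (hT c hc) h3 with h | h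
        · simp only at h
          have := hS.E_pos h
          omega
        · simp only at h
          have := hS.V_pos h
          omega
    · have : g + 1 = S.m := by omega
      exact ⟨c2, hc2, _, _, hv2, hE2, by omega⟩
  haveI : Nonempty (Item N) := ⟨Item.ev S.lo S.lo⟩
  choose! I hI hI2 using hgap
  have hIgap : ∀ g, g < S.m → gapPos pos (I g) = g := by
    intro g hg
    obtain ⟨a, b, h3, h4, h5⟩ := hI2 g hg
    rw [hS.gap_eq (hT _ (hI g hg)) h3 h4, h5]
  have hinj : Set.InjOn I (Finset.range S.m : Set ℕ) := by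
    intro g hg g' hg' e
    have e1 := hIgap g (Finset.mem_range.1 hg)
    have e2 := hIgap g' (Finset.mem_range.1 hg')
    rw [e] at e1
    omega
  have hsub : (Finset.range S.m).image I ⊆ T := by
    intro c hc
    obtain ⟨a, ha, rfl⟩ := Finset.mem_image.1 hc
    exact hI a (Finset.mem_range.1 ha)
  have hcardI : ((Finset.range S.m).image I).card = S.m := by
    rw [Finset.card_image_of_injOn hinj, Finset.card_range]
  have hTeq : (Finset.range S.m).image I = T :=
    Finset.eq_of_subset_of_card_le hsub (by omega)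
  have hallI : ∀ c ∈ T, ∃ g, g < S.m ∧ c = I g := by
    intro c hc
    rw [← hTeq] at hc
    obtain ⟨a, ha, rfl⟩ := Finset.mem_image.1 hc
    exact ⟨a, Finset.mem_range.1 ha, rfl⟩
  have hval : ∀ g, g < S.m → S.valid (I g) := fun g hg => hT _ (hI g hg)
  -- any node of `I g` is at position `g` or `g + 1`
  have hcases : ∀ g, g < S.m → ∀ z, (I g).Has z →
      (pos z = g ∧ ∃ b', (z, b') ∈ (I g).vars ∧ S.E z b') ∨
        (pos z = g + 1 ∧ ∃ a', (a', z) ∈ (I g).vars ∧ S.E a' z) := by
    intro g hg z hz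
    obtain ⟨a, b, h3, h4, h5⟩ := hI2 g hg
    have := hS.has_cases (hval g hg) h3 h4 hz
    rwa [hIgap g hg] at this
  have hc1I : c1 = I 0 := by
    obtain ⟨g, hg, e⟩ := hallI c1 hc1
    have e1 := hIgap g hg
    rw [← e, hS.gap_eq (hT c1 hc1) hv1 hE1, hS.pos_lo] at e1
    rw [e, ← e1]
  have hc2I : c2 = I (S.m - 1) := by
    obtain ⟨g, hg, e⟩ := hallI c2 hc2
    have e1 := hIgap g hg
    rw [← e, hS.gap_eq (hT c2 hc2) hv2 hE2] at e1
    have : g = S.m - 1 := by omega
    rw [e, this]
  -- the cut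
  have hcut : ∀ g, 0 < g → g < S.m → ∃ x, (∃ a', (a', x) ∈ (I (g - 1)).vars ∧ S.E a' x) ∧
      (∃ b', (x, b') ∈ (I g).vars ∧ S.E x b') := by
    intro g hg0 hg1
    by_contra hno
    push_neg at hno
    -- the set of nodes of classes before the cut
    let A : N → Prop := fun z => ∃ h, h < g ∧ (I h).Has z
    have hboth : ∀ z h h', h < g → g ≤ h' → h' < S.m → (I h).Has z → (I h').Has z → False := by
      intro z h h' hhg hgh' hh' hz hz'
      have hhm : h < S.m := by omega
      rcases hcases h hhm z hz with ⟨e1, _⟩ | ⟨e1, a', ha1, ha2⟩ <;>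
        rcases hcases h' hh' z hz' with ⟨e2, b', hb1, hb2⟩ | ⟨e2, _⟩
      · omega
      · omega
      · have e3 : h' = g := by omega
        have e4 : h = g - 1 := by omega
        subst e3
        subst e4
        exact hno z ⟨a', ha1, ha2⟩ b' hb1 hb2
      · omega
    have hA0 : A y1 := ⟨0, hg0, by rw [← hc1I]; exact ⟨_, hv1, Or.inr rfl⟩⟩
    have hAcl : ∀ {z z' : N}, S.Rel T z z' → A z → A z' := by
      intro z z' hzz hz
      induction hzz with
      | refl => exact hz
      | tail _ h3 ih =>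
        obtain ⟨c, hc, hs⟩ := h3
        obtain ⟨h', hh', rfl⟩ := hallI c hc
        obtain ⟨h'', hh'', hz2⟩ := ih
        by_cases hlt : h' < g
        · exact ⟨h', hlt, hs.has.2⟩
        · exact (hboth _ h'' h' hh'' (by omega) hh' hz2 hs.has.1).elim
    have hA2 : A y2 := hAcl hr hA0
    obtain ⟨h, hh, hz⟩ := hA2
    have hz2 : (I (S.m - 1)).Has y2 := by
      rw [← hc2I]
      exact ⟨_, hv2, Or.inl rfl⟩
    exact hboth y2 h (S.m - 1) hh (by omega) (by omega) hz hz2
  -- the forward construction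
  have hfw : ∀ g, g + 1 ≤ S.m → ∀ x, (∃ a', (a', x) ∈ (I g).vars ∧ S.E a' x) →
      ∃ w : ℕ → N, w 0 = S.lo ∧ w (g + 1) = x ∧
        ∀ i, i < g + 1 → S.E (w i) (w (i + 1)) ∧ ∃ c ∈ T, (w i, w (i + 1)) ∈ c.vars := by
    intro g
    induction g with
    | zero =>
      intro _ x hx
      obtain ⟨a', ha1, ha2⟩ := hx
      have h3 := hS.E_pos ha2
      obtain ⟨a, b, h4, h5, h6⟩ := hI2 0 (by omega)
      -- `a' = lo`
      have e : a' = S.lo := by
        have hh : (I 0).Has S.lo := by
          rw [← hc1I]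
          exact ⟨_, hv1, Or.inl rfl⟩
        rcases hS.shape (hval 0 (by omega)) ha1 (by rw [← hc1I]; exact hv1) ha2 hE1 with
          ⟨h7, _⟩ | ⟨_, h7 | h7⟩
        · exact h7
        · exact h7
        · exact (hS.V_lo (hS.V_symm h7) rfl).elim
      refine ⟨fun i => if i = 0 then S.lo else x, by simp, by simp, ?_⟩
      intro i hi
      have : i = 0 := by omega
      subst this
      simp only [if_true, one_ne_zero, if_false, zero_add]
      rw [e] at ha1 ha2
      exact ⟨ha2, I 0, hI 0 (by omega), ha1⟩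
    | succ g ih =>
      intro hg x hx
      obtain ⟨a', ha1, ha2⟩ := hx
      obtain ⟨x0, ⟨a0, h3, h4⟩, ⟨b0, h5, h6⟩⟩ := hcut (g + 1) (by omega) (by omega)
      simp only [Nat.add_sub_cancel] at h3
      obtain ⟨w, h7, h8, h9⟩ := ih (by omega) x0 ⟨a0, h3, h4⟩
      have hvar : (x0, x) ∈ (I (g + 1)).vars := hS.cross_var (hval _ (by omega)) h5 ha1 h6 ha2
      have hEE : S.E x0 x := by
        rcases hS.var_cases (hval _ (by omega)) hvar with h | h
        · exact h
        · simp only at h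
          have e1 := hS.V_pos h
          have e2 := hS.E_pos ha2
          have e3 := hS.gap_eq (hval _ (by omega)) h5 h6
          have e4 := hS.gap_eq (hval _ (by omega)) ha1 ha2
          omega
      refine ⟨update w (g + 1 + 1) x, ?_, ?_, ?_⟩
      · rw [update_of_ne (by omega)]
        exact h7
      · rw [update_self]
      · intro i hi
        by_cases hig : i = g + 1
        · subst hig
          rw [update_of_ne (by omega), update_self, h8]
          exact ⟨hEE, _, hI _ (by omega), hvar⟩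
        · rw [update_of_ne (by omega), update_of_ne (by omega)]
          exact h9 i (by omega)
  obtain ⟨w, h3, h4, h5⟩ := hfw (S.m - 1) (by omega) S.hi
    ⟨y2, by rw [← hc2I]; exact hv2, hE2⟩
  have e : S.m - 1 + 1 = S.m := by omega
  rw [e] at h4 h5
  exact ⟨w, ⟨h3, h4, fun i hi => (h5 i hi).1⟩, fun i hi => (h5 i hi).2⟩

end Nice

end Layered

end Vale.Agent.P310h2
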