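import Mathlib

/-!
# Definitions for the clique reduction to Weisfeiler-Leman equivalence

Part 1: joint-update `m`-dimensional colour refinement, exactly as in the problem.
Part 2: from a layered graph (`Layered`) build two uncoloured graphs `graph false`, `graph true`
  that encode a linear system over the two element field whose variables are the edges of the
  layered graph and some vertical pairs.
Part 3: the layered graph attached to a graph `X` and a number `k`.
-/

namespace Vale.Agent.P310h2

open Function

/-! ### Part 1 : the colours -/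

/-- The type of colour names of round `r` for `m`-tuples; the same for all graphs. -/
def Col (m : ℕ) : ℕ → Type
  | 0 => Fin m → Fin m → Prop × Prop
  | r + 1 => Col m r × Multiset (Fin m → Col m r)

/-- The colour of round `r` of the tuple `x` in `G`: round `0` is the atomic type (which entries are
equal, which are adjacent); round `r + 1` is the old colour with the multiset, over all vertices `y`,
of the family of old colours of the tuples `x[i ← y]`. -/
noncomputable def wlColor {V : Type} [Fintype V] (G : SimpleGraph V) {m : ℕ} :
    (r : ℕ) → (Fin m → V) → Col m r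
  | 0, x => fun i j => (x i = x j, G.Adj (x i) (x j))
  | r + 1, x =>
    (wlColor G r x,
      Multiset.map (fun y i => wlColor G r (update x i y)) (Finset.univ : Finset V).val)

/-- `G` and `H` are `m`-dimensionally equivalent: in every round the multisets of colours of
all `m`-tuples coincide. -/
def WLEquiv {V W : Type} [Fintype V] [Fintype W] (G : SimpleGraph V) (H : SimpleGraph W)
    (m : ℕ) : Prop :=
  ∀ r : ℕ, Multiset.map (wlColor G r) (Finset.univ : Finset (Fin m → V)).val =
    Multiset.map (wlColor H r) (Finset.univ : Finset (Fin m → W)).val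

/-! ### Part 2 : the graphs attached to a layered graph -/

/-- A layered graph: nodes `N`, two end nodes, `m` gaps, left-to-right edges `E`, vertical pairs
`Vert`, two special words `s t` given as functions of the position, and an injective numbering. -/
structure Layered (N : Type) where
  lo : N
  hi : N
  m : ℕ
  E : N → N → Prop
  Vert : N → N → Prop
  s : ℕ → N
  t : ℕ → N
  code : N → ℕ

/-- The classes of variables and equations of the linear system.
`ev a b` is the variable of the edge `(a, b)`; `vv p q` is the variable of the vertical pair `(p, q)`;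
`tl a p q` is the equation `x(a,p) + x(a,q) + x(p,q) = 0`; `tr p q b` is the equation
`x(p,b) + x(q,b) + x(p,q) = 0`; `un a b` is the equation fixing the value of `x(a,b)`. -/
inductive Item (N : Type) : Type
  | ev (a b : N) : Item N
  | vv (p q : N) : Item N
  | tl (a p q : N) : Item N
  | tr (p q b : N) : Item N
  | un (a b : N) : Item N

namespace Item

variable {N : Type}

/-- The variables occurring in a class. -/
def vars : Item N → Set (N × N)
  | ev a b => {(a, b)}
  | vv p q => {(p, q)}
  | tl a p q => {(a, p), (a, q), (p, q)}
  | tr p q b => {(p, b), (q, b), (p, q)}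
  | un a b => {(a, b)}

/-- The number of free bits of a solution of the class. -/
def free : Item N → ℕ
  | ev _ _ => 1
  | vv _ _ => 1
  | tl _ _ _ => 2
  | tr _ _ _ => 2
  | un _ _ => 0

/-- An injective numbering of the classes, from a numbering of the nodes. -/
def icode (c : N → ℕ) : Item N → ℕ
  | ev a b => Nat.pair 0 (Nat.pair (c a) (Nat.pair (c b) 0))
  | vv p q => Nat.pair 1 (Nat.pair (c p) (Nat.pair (c q) 0))
  | tl a p q => Nat.pair 2 (Nat.pair (c a) (Nat.pair (c p) (c q)))
  | tr p q b => Nat.pair 3 (Nat.pair (c p) (Nat.pair (c q) (c b)))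
  | un a b => Nat.pair 4 (Nat.pair (c a) (Nat.pair (c b) 0))

end Item

instance {N : Type} [Finite N] : Finite (Item N) :=
  Finite.of_injective
    (fun c : Item N => match c with
      | .ev a b => ((0 : Fin 5), a, b, b)
      | .vv p q => ((1 : Fin 5), p, q, q)
      | .tl a p q => ((2 : Fin 5), a, p, q)
      | .tr p q b => ((3 : Fin 5), p, q, b)
      | .un a b => ((4 : Fin 5), a, b, b))
    (by
      intro c c' h
      cases c <;> cases c' <;> simp_all)

namespace Layered

variable {N : Type} (S : Layered N)

/-- Which classes are present in the system. -/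
def valid : Item N → Prop
  | .ev a b => S.E a b
  | .vv p q => S.Vert p q
  | .tl a p q => S.E a p ∧ S.E a q ∧ S.Vert p q
  | .tr p q b => S.E p b ∧ S.E q b ∧ S.Vert p q
  | .un a b => ∃ i, i < S.m ∧ ((a, b) = (S.s i, S.s (i + 1)) ∨ (a, b) = (S.t i, S.t (i + 1)))

/-- The only edge whose value is fixed to `1` in the twisted system. -/
def star : N × N := (S.lo, S.t 1)

/-- A solution of a class: the class and up to two free bits. -/
structure Core where
  item : Item N
  b1 : Bool
  b2 : Bool
  ok : S.valid item
  dof1 : item.free = 0 → b1 = false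
  dof2 : item.free ≤ 1 → b2 = false

variable {S}

open Classical in
/-- The value of the variable `d` in the solution `x`; `tw` says whether the system is twisted. -/
noncomputable def Core.val (tw : Bool) (x : S.Core) (d : N × N) : Bool :=
  match x.item with
  | .ev _ _ => x.b1
  | .vv _ _ => x.b1
  | .tl a p q => if d = (a, p) then x.b1 else if d = (a, q) then x.b2 else xor x.b1 x.b2
  | .tr p q b => if d = (p, b) then x.b1 else if d = (q, b) then x.b2 else xor x.b1 x.b2
  | .un a b => tw && decide ((a, b) = S.star)

variable (S)

/-- Two solutions are adjacent when they belong to different classes and agree on all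
common variables. -/
def coreAdj (tw : Bool) (x y : S.Core) : Prop :=
  x.item ≠ y.item ∧ ∀ d, d ∈ x.item.vars → d ∈ y.item.vars → x.val tw d = y.val tw d

instance [Finite N] : Finite S.Core :=
  Finite.of_injective (fun x : S.Core => (x.item, x.b1, x.b2))
    (by
      intro x y h
      cases x; cases y; simp_all)

/-- The number of pendant vertices of each solution of class `c`: it makes the degree reveal the
class. -/
noncomputable def weight (c : Item N) : ℕ :=
  (Nat.card S.Core + 2) * (Item.icode S.code c + 1)

/-- The vertices: a solution together with a number `i ≤ weight`; `i = 0` is the solution itself,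
`i > 0` is one of its pendant vertices. -/
def Vtx : Type := {v : S.Core × ℕ // v.2 ≤ S.weight v.1.item}

instance [Finite N] : Finite S.Vtx :=
  Finite.of_injective
    (fun v : S.Vtx =>
      (⟨v.1.1, ⟨v.1.2, Nat.lt_succ_of_le v.2⟩⟩ : Σ x : S.Core, Fin (S.weight x.item + 1)))
    (by
      rintro ⟨⟨x, i⟩, hi⟩ ⟨⟨y, j⟩, hj⟩ h
      simp only [Sigma.mk.injEq] at h
      obtain ⟨rfl, h2⟩ := h
      have : i = j := by simpa using h2
      subst this
      rfl)

noncomputable instance [Finite N] : Fintype S.Vtx := Fintype.ofFinite _

/-- The graphs: solutions adjacent by `coreAdj`, plus the pendant vertices. `graph false` encodes the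
homogeneous system, `graph true` the twisted one. -/
def graph (tw : Bool) : SimpleGraph S.Vtx where
  Adj v w :=
    (v.1.2 = 0 ∧ w.1.2 = 0 ∧ S.coreAdj tw v.1.1 w.1.1) ∨
      (v.1.1 = w.1.1 ∧ ((v.1.2 = 0 ∧ w.1.2 ≠ 0) ∨ (v.1.2 ≠ 0 ∧ w.1.2 = 0)))
  symm := ⟨by
    intro v w h
    rcases h with ⟨h1, h2, h3, h4⟩ | ⟨h1, h2⟩
    · refine Or.inl ⟨h2, h1, ?_, ?_⟩
      · exact fun e => h3 e.symm
      · intro d hd hd'
        exact (h4 d hd' hd).symm
    · refine Or.inr ⟨h1.symm, ?_⟩
      rcases h2 with h2 | h2
      · exact Or.inr ⟨h2.2, h2.1⟩
      · exact Or.inl ⟨h2.2, h2.1⟩⟩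
  loopless := ⟨by
    intro v h
    rcases h with ⟨_, _, h3, _⟩ | ⟨_, h2⟩
    · exact h3 rfl
    · rcases h2 with h2 | h2
      · exact h2.2 h2.1
      · exact h2.1 h2.2⟩

end Layered

/-! ### Part 3 : the layered graph of a graph `X` and a number `k` -/

/-- The nodes: two end nodes, and at each of the `2 * k` cells `j` the values
`(label l, content c, carried vertex d)`. -/
inductive MNode (n k : ℕ) : Type
  | lo : MNode n k
  | hi : MNode n k
  | cell (j : Fin (2 * k)) (l : Fin (2 * k + 11)) (c d : Option (Fin n)) : MNode n k

variable {n k : ℕ}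

/-- Labels `l` with `7 ≤ l < 2 * k + 7`, `l` odd: labels of the sweeps that carry a vertex. -/
def isCarry (k l : ℕ) : Prop := 7 ≤ l ∧ l < 2 * k + 7 ∧ l % 2 = 1

/-- Which values exist at cell `j`. Labels `≤ 4` and `≥ 2 * k + 7` have one value, without content.
Other labels have a content `v`. At a carry label `l = 7 + 2 * r` the cells of the rows `> r` (row
of `j` is `j / 2`) also carry a vertex `w` adjacent to `v`. -/
def valOk (X : SimpleGraph (Fin n)) (k j l : ℕ) (c d : Option (Fin n)) : Prop :=
  ((l ≤ 4 ∨ 2 * k + 7 ≤ l) ∧ c = none ∧ d = none) ∨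
    (5 ≤ l ∧ l < 2 * k + 7 ∧ ∃ v, c = some v ∧
      ((isCarry k l ∧ (l - 7) / 2 < j / 2 ∧ ∃ w, d = some w ∧ X.Adj w v) ∨
        (¬ (isCarry k l ∧ (l - 7) / 2 < j / 2) ∧ d = none)))

/-- Neighbouring labels in a word: equal, or left one odd and right one even, differing by one. -/
def labOk (l r : ℕ) : Prop := l = r ∨ (l = r + 1 ∧ l % 2 = 1) ∨ (r = l + 1 ∧ r % 2 = 0)

/-- The edges between neighbouring cells: the labels fit; in one row the contents agree;
during a carry sweep the carried vertex is passed on to the right (the first cell of row `r + 1` takes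
the content of row `r`). -/
def stepOk (k j : ℕ) (l : ℕ) (c d : Option (Fin n)) (l' : ℕ) (c' d' : Option (Fin n)) : Prop :=
  labOk l l' ∧
    (j % 2 = 0 → c = none ∨ c' = none ∨ c = c') ∧
    (l = l' → isCarry k l → (l - 7) / 2 < (j + 1) / 2 →
      (j + 1 = 2 * ((l - 7) / 2) + 2 → d' = c) ∧ (j + 1 ≠ 2 * ((l - 7) / 2) + 2 → d' = d))

/-- The edge relation of the layered graph. -/
def mE (X : SimpleGraph (Fin n)) (k : ℕ) : MNode n k → MNode n k → Prop
  | .lo, .cell j l c d => j.val = 0 ∧ valOk X k j l c d
  | .cell j l c d, .hi => j.val + 1 = 2 * k ∧ valOk X k j l c d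
  | .cell j l c d, .cell j' l' c' d' =>
      j'.val = j.val + 1 ∧ valOk X k j l c d ∧ valOk X k j' l' c' d' ∧
        stepOk k j l c d l' c' d'
  | _, _ => False

/-- The label of a node. -/
def mLab : MNode n k → ℕ
  | .lo => 0
  | .hi => 0
  | .cell _ l _ _ => l

/-- Vertical pairs: distinct nodes with a common left and a common right neighbour, whose labels
differ by at most one. -/
def mVert (X : SimpleGraph (Fin n)) (k : ℕ) (p q : MNode n k) : Prop :=
  p ≠ q ∧ mLab p ≤ mLab q + 1 ∧ mLab q ≤ mLab p + 1 ∧
    (∃ a, mE X k a p ∧ mE X k a q) ∧ (∃ b, mE X k p b ∧ mE X k q b)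

/-- The word all of whose inner cells carry the value without content of label `l`. -/
def mUnit (k : ℕ) (l : Fin (2 * k + 11)) (i : ℕ) : MNode n k :=
  if i = 0 then .lo
  else if h : i - 1 < 2 * k then .cell ⟨i - 1, h⟩ l none none
  else .hi

instance : Finite (MNode n k) :=
  Finite.of_injective
    (fun x : MNode n k => match x with
      | .lo => (none : Option (Option (Fin (2 * k) × Fin (2 * k + 11) × Option (Fin n) × Option (Fin n))))
      | .hi => some none
      | .cell j l c d => some (some (j, l, c, d)))
    (by
      intro x y h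
      cases x <;> cases y <;> simp_all)

/-- Coding an optional vertex by a number. -/
def optCode : Option (Fin n) → ℕ
  | none => 0
  | some v => v.val + 1

/-- An injective numbering of the nodes. -/
def mCode : MNode n k → ℕ
  | .lo => 0
  | .hi => 1
  | .cell j l c d => 2 + Nat.pair j.val (Nat.pair l.val (Nat.pair (optCode c) (optCode d)))

/-- The layered graph of `X` and `k`, with `2 * k + 1` gaps. The word `s` consists of the values of
label `0`, the word `t` of the values of the last label `2 * k + 10`. -/
def machine (X : SimpleGraph (Fin n)) (k : ℕ) : Layered (MNode n k) where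
  lo := .lo
  hi := .hi
  m := 2 * k + 1
  E := mE X k
  Vert := mVert X k
  s := mUnit k ⟨0, by omega⟩
  t := mUnit k ⟨2 * k + 10, by omega⟩
  code := mCode

end Vale.Agent.P310h2
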