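import Vale.Agent.P310h2.Ext

namespace Vale.Agent.P310h2

open Function Relation

open scoped Classical

namespace Layered

variable {N : Type} {S : Layered N} {pos lab : N → ℕ} {T0 : ℕ}

theorem xor_aux6 (b1 b2 x1 x2 x3 : Bool) :
    xor (xor b1 (xor x1 x2)) (xor b2 (xor x1 x3)) = xor (xor b1 b2) (xor x2 x3) := by
  revert b1 b2 x1 x2 x3; decide

theorem xor_aux7 (b1 b2 x1 x2 x3 : Bool) :
    xor (xor b1 (xor x2 x1)) (xor b2 (xor x3 x1)) = xor (xor b1 b2) (xor x2 x3) := by
  revert b1 b2 x1 x2 x3; decide

/-- The change of the free bits of a solution produced by the potential `u`. -/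
def gradBits (u : N → Bool) : Item N → Bool × Bool
  | .ev a b => (xor (u a) (u b), false)
  | .vv p q => (xor (u p) (u q), false)
  | .tl a p q => (xor (u a) (u p), xor (u a) (u q))
  | .tr p q b => (xor (u p) (u b), xor (u q) (u b))
  | .un _ _ => (false, false)

@[ext]
theorem Core.ext' {x y : S.Core} (h1 : x.item = y.item) (h2 : x.b1 = y.b1) (h3 : x.b2 = y.b2) :
    x = y := by
  cases x; cases y; simp_all

/-- The action of the potential `u` on solutions. -/
def Core.flip (u : N → Bool) (x : S.Core) : S.Core where
  item := x.item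
  b1 := xor x.b1 (gradBits u x.item).1
  b2 := xor x.b2 (gradBits u x.item).2
  ok := x.ok
  dof1 := by
    intro h
    have h1 := x.dof1 h
    rw [h1]
    cases hi : x.item <;> simp_all [Item.free, gradBits]
  dof2 := by
    intro h
    have h1 := x.dof2 h
    rw [h1]
    cases hi : x.item <;> simp_all [Item.free, gradBits]

@[simp] theorem Core.flip_item (u : N → Bool) (x : S.Core) : (x.flip u).item = x.item := rfl

theorem Core.flip_flip (u : N → Bool) (x : S.Core) : (x.flip u).flip u = x := by
  apply Core.ext'
  · rfl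
  · simp [Core.flip]
  · simp [Core.flip]

theorem Core.flip_congr {u u' : N → Bool} (x : S.Core)
    (h : ∀ d ∈ x.item.vars, xor (u' d.1) (u' d.2) = xor (u d.1) (u d.2)) :
    x.flip u' = x.flip u := by
  apply Core.ext'
  · rfl
  · simp only [Core.flip]
    congr 1
    cases hi : x.item with
    | ev a b => rw [hi] at h; exact h (a, b) rfl
    | vv a b => rw [hi] at h; exact h (a, b) rfl
    | tl a p q => rw [hi] at h; exact h (a, p) (Or.inl rfl)
    | tr p q b => rw [hi] at h; exact h (p, b) (Or.inl rfl)
    | un a b => rfl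
  · simp only [Core.flip]
    congr 1
    cases hi : x.item with
    | ev a b => rfl
    | vv a b => rfl
    | tl a p q => rw [hi] at h; exact h (a, q) (Or.inr (Or.inl rfl))
    | tr p q b => rw [hi] at h; exact h (q, b) (Or.inr (Or.inl rfl))
    | un a b => rfl

/-- The action of the potential on all vertices. -/
def Vtx.flip (u : N → Bool) (v : S.Vtx) : S.Vtx :=
  ⟨(v.1.1.flip u, v.1.2), by simpa using v.2⟩

@[simp] theorem Vtx.flip_fst (u : N → Bool) (v : S.Vtx) : (Vtx.flip u v).1.1 = v.1.1.flip u := rfl
@[simp] theorem Vtx.flip_snd (u : N → Bool) (v : S.Vtx) : (Vtx.flip u v).1.2 = v.1.2 := rfl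

theorem Vtx.flip_flip (u : N → Bool) (v : S.Vtx) : Vtx.flip u (Vtx.flip u v) = v := by
  apply Subtype.ext
  apply Prod.ext
  · exact Core.flip_flip u v.1.1
  · rfl

theorem Vtx.flip_inj (u : N → Bool) {v w : S.Vtx} (h : Vtx.flip u v = Vtx.flip u w) : v = w := by
  rw [← Vtx.flip_flip u v, h, Vtx.flip_flip]

theorem Vtx.flip_congr {u u' : N → Bool} (v : S.Vtx)
    (h : ∀ d ∈ v.1.1.item.vars, xor (u' d.1) (u' d.2) = xor (u d.1) (u d.2)) :
    Vtx.flip u' v = Vtx.flip u v := by
  apply Subtype.ext
  apply Prod.ext
  · exact Core.flip_congr v.1.1 h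
  · rfl

/-- The class of a vertex. -/
def Vtx.cls (v : S.Vtx) : Item N := v.1.1.item

@[simp] theorem Vtx.flip_cls (u : N → Bool) (v : S.Vtx) : (Vtx.flip u v).cls = v.cls := rfl

namespace Nice

variable (hS : S.Nice pos lab T0)
include hS

theorem ne_of_E {a b : N} (h : S.E a b) : a ≠ b := by
  intro e
  have := hS.E_pos h
  rw [← e] at this
  omega

/-- The value of a variable after the action of a potential. -/
theorem val_flip (u : N → Bool) (tw : Bool) (x : S.Core)
    (hx : ∀ a b, x.item = .un a b → False) {d : N × N} (hd : d ∈ x.item.vars) :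
    (x.flip u).val tw d = xor (x.val tw d) (xor (u d.1) (u d.2)) := by
  obtain ⟨it, b1, b2, ok, dof1, dof2⟩ := x
  cases it with
  | ev a b =>
    have e : d = (a, b) := hd
    subst e
    simp [Core.val, Core.flip, gradBits]
  | vv a b =>
    have e : d = (a, b) := hd
    subst e
    simp [Core.val, Core.flip, gradBits]
  | tl a p q =>
    obtain ⟨h1, h2, h3⟩ := ok
    have hpq := hS.V_ne h3
    have hap := hS.ne_of_E h1
    have haq := hS.ne_of_E h2
    have e1 : (a, q) ≠ (a, p) := by simp [hpq.symm]
    have e2 : (p, q) ≠ (a, p) := by simp [hap.symm]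
    have e3 : (p, q) ≠ (a, q) := by simp [hap.symm]
    rcases hd with rfl | rfl | rfl
    · simp [Core.val, Core.flip, gradBits]
    · simp [Core.val, Core.flip, gradBits, e1]
    · simp only [Core.val, Core.flip, gradBits, e2, e3, if_false]
      exact xor_aux6 _ _ _ _ _
  | tr p q b =>
    obtain ⟨h1, h2, h3⟩ := ok
    have hpq := hS.V_ne h3
    have hap := hS.ne_of_E h1
    have haq := hS.ne_of_E h2
    have e1 : (q, b) ≠ (p, b) := by simp [hpq.symm]
    have e2 : (p, q) ≠ (p, b) := by
      intro e
      simp only [Prod.mk.injEq, true_and] at e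
      exact haq e
    have e3 : (p, q) ≠ (q, b) := by
      intro e
      simp only [Prod.mk.injEq] at e
      exact hpq e.1
    rcases hd with rfl | rfl | rfl
    · simp [Core.val, Core.flip, gradBits]
    · simp [Core.val, Core.flip, gradBits, e1]
    · simp only [Core.val, Core.flip, gradBits, e2, e3, if_false]
      exact xor_aux7 _ _ _ _ _
  | un a b => exact (hx a b rfl).elim

theorem bw_word (τ : Bool) : S.IsWord (S.bw τ) := by
  cases τ
  · exact hS.s_word
  · exact hS.t_word

/-- On an admissible potential, the unary equations hold. -/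
theorem adm_un {T : Finset (Item N)} (hT : ∀ c ∈ T, S.valid c) {u : N → Bool} (hu : S.Adm T u)
    {a b : N} (hmem : Item.un a b ∈ T) : xor (u a) (u b) = decide ((a, b) = S.star) := by
  have hm := hS.m_ge
  have hv : (a, b) ∈ (Item.un a b).vars := rfl
  have hstne : S.s 1 ≠ S.t 1 := by
    intro e
    have h1 := hS.lab_s 1 (by omega) (by omega)
    have h2 := hS.lab_t 1 (by omega) (by omega)
    have h3 := hS.T_big
    rw [e] at h1
    omega
  have key : ∀ τ i, i < S.m → a = S.bw τ i → b = S.bw τ (i + 1) →
      xor (u a) (u b) = decide ((a, b) = S.star) := by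
    intro τ i hi ha hb
    have hw := hS.bw_word τ
    have hblank : ∀ j, 0 < j → j < S.m → S.Blank τ (S.bw τ j) := fun j h0 h1 => ⟨j, h0, h1, rfl⟩
    rcases Nat.eq_zero_or_pos i with h0 | h0
    · subst h0
      have e1 : a = S.lo := by rw [ha, hw.1]
      have hb' : S.Blank τ b := by
        rw [hb]
        exact hblank 1 (by omega) (by omega)
      have h2 := hu.blank_lo τ b b hb' (Rel_refl T b) ⟨_, hmem, by rw [← e1]; exact hv⟩
      rw [e1, hu.lo0, h2]
      cases τ
      · have e2 : b = S.s 1 := hb
        have e3 : (S.lo, b) ≠ S.star := by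
          intro e
          have : b = S.t 1 := (Prod.mk.inj e).2
          exact hstne (e2.symm.trans this)
        rw [decide_eq_false e3]
        rfl
      · have e2 : b = S.t 1 := hb
        have e3 : (S.lo, b) = S.star := by
          rw [e2]
          rfl
        rw [decide_eq_true e3]
        rfl
    · have hane : a ≠ S.lo := by
        rw [ha]
        exact hS.word_ne_lo hw h0 hi.le
      have e3 : (a, b) ≠ S.star := by
        intro e
        exact hane (Prod.mk.inj e).1
      rw [decide_eq_false e3]
      have ha' : S.Blank τ a := by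
        rw [ha]
        exact hblank i h0 hi
      have iab : S.E a b := by
        rw [ha, hb]
        exact hw.2.2 i hi
      rcases Nat.lt_or_ge (i + 1) S.m with h1 | h1
      · have hb' : S.Blank τ b := by
          rw [hb]
          exact hblank (i + 1) (by omega) h1
        have h2 := hu.blank_eq τ a b ha' hb'
          (ReflTransGen.single ⟨_, hmem, hS.Blank_inner ha', hS.Blank_inner hb', Or.inl hv⟩)
        rw [h2]
        simp
      · have e4 : i + 1 = S.m := by omega
        have e5 : b = S.hi := by rw [hb, e4, hw.2.1]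
        have h2 := hu.blank_hi τ a a ha' (Rel_refl T a) ⟨_, hmem, by rw [← e5]; exact hv⟩
        rw [h2, e5]
        simp
  obtain ⟨i, hi, h | h⟩ := hT _ hmem
  · simp only [Prod.mk.injEq] at h
    exact key false i hi h.1 h.2
  · simp only [Prod.mk.injEq] at h
    exact key true i hi h.1 h.2

/-- Under an admissible potential the action sends the homogeneous graph to the twisted one, on the
classes of `T`. -/
theorem coreAdj_flip {T : Finset (Item N)} (hT : ∀ c ∈ T, S.valid c) {u : N → Bool}
    (hu : S.Adm T u) {x y : S.Core} (hx : x.item ∈ T) (hy : y.item ∈ T) :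
    S.coreAdj false x y ↔ S.coreAdj true (x.flip u) (y.flip u) := by
  have key : ∀ z : S.Core, z.item ∈ T → ∀ d ∈ z.item.vars,
      (z.flip u).val true d = xor (z.val false d) (xor (u d.1) (u d.2)) := by
    intro z hz d hd
    by_cases hun : ∃ a b, z.item = .un a b
    · obtain ⟨a, b, hab⟩ := hun
      have hd' : d = (a, b) := by
        rw [hab] at hd
        exact hd
      subst hd'
      have h1 := hS.adm_un hT hu (hab ▸ hz)
      simp only [Core.val, Core.flip]
      rw [hab]
      simp only [Bool.true_and, Bool.false_and, Bool.false_bne]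
      exact h1.symm
    · push_neg at hun
      have h1 := hS.val_flip u true z (fun a b h => hun a b h) hd
      rw [h1]
      congr 1
      cases hi : z.item with
      | ev a b => simp [Core.val, hi]
      | vv a b => simp [Core.val, hi]
      | tl a p q => simp [Core.val, hi]
      | tr p q b => simp [Core.val, hi]
      | un a b => exact (hun a b hi).elim
  unfold coreAdj
  rw [Core.flip_item, Core.flip_item]
  apply and_congr_right
  intro _
  apply forall_congr'
  intro d
  apply imp_congr_right
  intro h1
  apply imp_congr_right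
  intro h2
  rw [key x hx d h1, key y hy d h2]
  generalize x.val false d = a
  generalize y.val false d = b
  generalize xor (u d.1) (u d.2) = c
  revert a b c
  decide

end Nice

/-- The set of classes of a tuple. -/
noncomputable def classes {m : ℕ} (x : Fin m → S.Vtx) : Finset (Item N) :=
  Finset.univ.image (fun i => (x i).cls)

theorem mem_classes {m : ℕ} (x : Fin m → S.Vtx) (i : Fin m) : (x i).cls ∈ classes x :=
  Finset.mem_image.2 ⟨i, Finset.mem_univ i, rfl⟩

theorem classes_valid {m : ℕ} (x : Fin m → S.Vtx) : ∀ c ∈ classes x, S.valid c := by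
  intro c hc
  obtain ⟨i, _, rfl⟩ := Finset.mem_image.1 hc
  exact (x i).1.1.ok

theorem classes_card {m : ℕ} (x : Fin m → S.Vtx) : (classes x).card ≤ m := by
  have := Finset.card_image_le (s := (Finset.univ : Finset (Fin m))) (f := fun i => (x i).cls)
  simpa [classes] using this

/-- Positions of the Duplicator: the second tuple comes from the first by an admissible potential. -/
def Safe {m : ℕ} (x y : Fin m → S.Vtx) : Prop :=
  ∃ u, S.Adm (classes x) u ∧ ∀ i, y i = Vtx.flip u (x i)

namespace Nice

variable (hS : S.Nice pos lab T0)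
include hS

theorem adj_flip {T : Finset (Item N)} (hT : ∀ c ∈ T, S.valid c) {u : N → Bool} (hu : S.Adm T u)
    {v w : S.Vtx} (hv : v.cls ∈ T) (hw : w.cls ∈ T) :
    (S.graph false).Adj v w ↔ (S.graph true).Adj (Vtx.flip u v) (Vtx.flip u w) := by
  have h1 := hS.coreAdj_flip hT hu hv hw
  have h2 : v.1.1 = w.1.1 ↔ v.1.1.flip u = w.1.1.flip u := by
    constructor
    · intro h
      rw [h]
    · intro h
      rw [← Core.flip_flip u v.1.1, h, Core.flip_flip]
  constructor
  · rintro (⟨a, b, c⟩ | ⟨a, b⟩)
    · exact Or.inl ⟨a, b, h1.1 c⟩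
    · exact Or.inr ⟨h2.1 a, b⟩
  · rintro (⟨a, b, c⟩ | ⟨a, b⟩)
    · exact Or.inl ⟨a, b, h1.2 c⟩
    · exact Or.inr ⟨h2.2 a, b⟩

theorem safe_color {m : ℕ} (hst : ¬ S.Conn S.s S.t) (hmT : m = S.m) [Finite N] :
    ∀ (r : ℕ) (x y : Fin m → S.Vtx), Safe x y →
      wlColor (S.graph false) r x = wlColor (S.graph true) r y := by
  intro r
  induction r with
  | zero =>
    rintro x y ⟨u, hu, hy⟩
    funext i j
    apply Prod.ext
    · simp only [wlColor]
      apply propext
      rw [hy i, hy j]
      exact ⟨fun h => by rw [h], fun h => Vtx.flip_inj u h⟩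
    · simp only [wlColor]
      apply propext
      rw [hy i, hy j]
      exact hS.adj_flip (classes_valid x) hu (mem_classes x i) (mem_classes x j)
  | succ r ih =>
    rintro x y ⟨u, hu, hy⟩
    have hext : ∀ c, S.valid c → ∃ u', S.Adm (insert c (classes x)) u' ∧
        ∀ c0 ∈ classes x, ∀ d ∈ c0.vars, xor (u' d.1) (u' d.2) = xor (u d.1) (u d.2) := by
      intro c hc
      exact hS.extend hst (classes_valid x) (hmT ▸ classes_card x) hu hc
    choose! E hE1 hE2 using hext
    let f : S.Vtx → S.Vtx := fun v => Vtx.flip (E v.cls) v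
    have hfinv : ∀ v, f (f v) = v := by
      intro v
      simp only [f, Vtx.flip_cls]
      exact Vtx.flip_flip _ _
    let σ : S.Vtx ≃ S.Vtx := ⟨f, f, hfinv, hfinv⟩
    have hsafe : ∀ v i, Safe (update x i v) (update y i (f v)) := by
      intro v i
      have hv : S.valid v.cls := v.1.1.ok
      refine ⟨E v.cls, (hE1 _ hv).mono ?_, ?_⟩
      · intro c hc
        obtain ⟨j, _, rfl⟩ := Finset.mem_image.1 hc
        by_cases hj : j = i
        · subst hj
          simp
        · simp only [update_of_ne hj]
          exact Finset.mem_insert_of_mem (mem_classes x j)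
      · intro j
        by_cases hj : j = i
        · subst hj
          simp [f]
        · simp only [update_of_ne hj]
          rw [hy j]
          exact (Vtx.flip_congr (x j) (hE2 _ hv _ (mem_classes x j))).symm
    simp only [wlColor]
    apply Prod.ext
    · exact ih x y ⟨u, hu, hy⟩
    · simp only
      have e : ∀ v : S.Vtx, (fun i => wlColor (S.graph false) r (update x i v)) =
          (fun i => wlColor (S.graph true) r (update y i (σ v))) := by
        intro v
        funext i
        exact ih _ _ (hsafe v i)
      rw [Multiset.map_congr rfl (fun v _ => e v)]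
      have h3 : (Finset.univ : Finset S.Vtx).val =
          Multiset.map σ (Finset.univ : Finset S.Vtx).val := by
        have := Finset.map_univ_equiv σ
        have h4 := congrArg Finset.val this
        rw [Finset.map_val] at h4
        exact h4.symm
      conv_rhs => rw [h3]
      rw [Multiset.map_map]
      rfl

end Nice

/-- The classes of the first `j` entries. -/
noncomputable def TT {m : ℕ} (x : Fin m → S.Vtx) (j : ℕ) : Finset (Item N) :=
  (Finset.univ.filter (fun i : Fin m => i.val < j)).image (fun i => (x i).cls)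

/-- The potential chosen after the first `j` entries. -/
noncomputable def UU {m : ℕ} (Ex : Finset (Item N) → (N → Bool) → Item N → (N → Bool))
    (x : Fin m → S.Vtx) : ℕ → (N → Bool)
  | 0 => fun _ => false
  | j + 1 => if h : j < m then Ex (TT x j) (UU Ex x j) (x ⟨j, h⟩).cls else UU Ex x j

theorem TT_zero {m : ℕ} (x : Fin m → S.Vtx) : TT x 0 = ∅ := by
  simp [TT]

theorem TT_succ {m : ℕ} (x : Fin m → S.Vtx) {j : ℕ} (h : j < m) :
    TT x (j + 1) = insert (x ⟨j, h⟩).cls (TT x j) := by
  ext c
  simp only [TT, Finset.mem_image, Finset.mem_filter, Finset.mem_univ, true_and, Finset.mem_insert]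
  constructor
  · rintro ⟨i, hi, rfl⟩
    by_cases e : i.val = j
    · left
      have : i = ⟨j, h⟩ := Fin.ext e
      rw [this]
    · right
      exact ⟨i, by omega, rfl⟩
  · rintro (rfl | ⟨i, hi, rfl⟩)
    · exact ⟨⟨j, h⟩, by simp, rfl⟩
    · exact ⟨i, by omega, rfl⟩

theorem TT_m {m : ℕ} (x : Fin m → S.Vtx) : TT x m = classes x := by
  ext c
  simp [TT, classes]

theorem TT_card {m : ℕ} (x : Fin m → S.Vtx) : ∀ j, j ≤ m → (TT x j).card ≤ j := by
  intro j
  induction j with
  | zero =>
    intro _
    simp [TT_zero]
  | succ j ih =>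
    intro h
    rw [TT_succ x (by omega)]
    exact (Finset.card_insert_le _ _).trans (by have := ih (by omega); omega)

theorem TT_valid {m : ℕ} (x : Fin m → S.Vtx) (j : ℕ) : ∀ c ∈ TT x j, S.valid c := by
  intro c hc
  obtain ⟨i, _, rfl⟩ := Finset.mem_image.1 hc
  exact (x i).1.1.ok

theorem TT_congr {m : ℕ} {x x' : Fin m → S.Vtx} {j : ℕ} (h : ∀ i : Fin m, i.val < j → x i = x' i) :
    TT x j = TT x' j := by
  ext c
  simp only [TT, Finset.mem_image, Finset.mem_filter, Finset.mem_univ, true_and]
  constructor
  · rintro ⟨i, hi, rfl⟩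
    exact ⟨i, hi, by rw [h i hi]⟩
  · rintro ⟨i, hi, rfl⟩
    exact ⟨i, hi, by rw [h i hi]⟩

theorem UU_congr {m : ℕ} (Ex : Finset (Item N) → (N → Bool) → Item N → (N → Bool))
    {x x' : Fin m → S.Vtx} : ∀ j, (∀ i : Fin m, i.val < j → x i = x' i) →
    UU Ex x j = UU Ex x' j := by
  intro j
  induction j with
  | zero =>
    intro _
    rfl
  | succ j ih =>
    intro h
    have h1 := ih (fun i hi => h i (by omega))
    have h2 : TT x j = TT x' j := TT_congr (fun i hi => h i (by omega))
    simp only [UU]
    by_cases hj : j < m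
    · rw [dif_pos hj, dif_pos hj, h1, h2, h ⟨j, hj⟩ (by simp)]
    · rw [dif_neg hj, dif_neg hj, h1]

theorem map_univ_equiv' {α β : Type} [Fintype α] (σ : α ≃ α) (F : α → β) :
    Multiset.map (fun a => F (σ a)) (Finset.univ : Finset α).val =
      Multiset.map F (Finset.univ : Finset α).val := by
  have h3 : (Finset.univ : Finset α).val = Multiset.map σ (Finset.univ : Finset α).val := by
    have := Finset.map_univ_equiv σ
    have h4 := congrArg Finset.val this
    rw [Finset.map_val] at h4
    exact h4.symm
  conv_rhs => rw [h3]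
  rw [Multiset.map_map]
  rfl

namespace Nice

variable (hS : S.Nice pos lab T0)
include hS

/-- The Duplicator direction: if `s` and `t` are not connected, the graphs are equivalent. -/
theorem dup_equiv [Finite N] (hst : ¬ S.Conn S.s S.t) :
    WLEquiv (S.graph false) (S.graph true) S.m := by
  have hext : ∀ (T : Finset (Item N)) (u : N → Bool) (c : Item N), ∃ u' : N → Bool,
      (∀ c0 ∈ T, S.valid c0) → T.card ≤ S.m → S.Adm T u → S.valid c →
        S.Adm (insert c T) u' ∧ ∀ c0 ∈ T, ∀ d ∈ c0.vars,
          xor (u' d.1) (u' d.2) = xor (u d.1) (u d.2) := by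
    intro T u c
    by_cases h : (∀ c0 ∈ T, S.valid c0) ∧ T.card ≤ S.m ∧ S.Adm T u ∧ S.valid c
    · obtain ⟨u', h1, h2⟩ := hS.extend hst h.1 h.2.1 h.2.2.1 h.2.2.2
      exact ⟨u', fun _ _ _ _ => ⟨h1, h2⟩⟩
    · refine ⟨u, fun h1 h2 h3 h4 => (h ⟨h1, h2, h3, h4⟩).elim⟩
  choose Ex hEx using hext
  -- admissibility along the tuple
  have hU : ∀ (x : Fin S.m → S.Vtx) (j : ℕ), j ≤ S.m → S.Adm (TT x j) (UU Ex x j) := by
    intro x j
    induction j with
    | zero =>
      intro _
      rw [TT_zero]
      refine ⟨rfl, ?_, ?_, ?_, ?_⟩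
      · intro τ a b _ _ h
        have : a = b := by
          induction h with
          | refl => rfl
          | tail _ h2 _ =>
            obtain ⟨c, hc, _⟩ := h2
            simp at hc
        rw [this]
      · rintro τ a b _ _ ⟨c, hc, _⟩
        simp at hc
      · rintro τ a b _ _ ⟨c, hc, _⟩
        simp at hc
      · intro w hw
        obtain ⟨c, hc, _⟩ := hw.2 0 (by have := hS.m_ge; omega)
        simp at hc
    | succ j ih =>
      intro hj
      have hj' : j < S.m := by omega
      rw [TT_succ x hj']
      simp only [UU]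
      rw [dif_pos hj']
      exact (hEx _ _ _ (TT_valid x j) ((TT_card x j hj'.le).trans hj'.le) (ih hj'.le)
        (x ⟨j, hj'⟩).1.1.ok).1
  have hagree : ∀ (x : Fin S.m → S.Vtx) (j j' : ℕ), j ≤ j' → j' ≤ S.m → ∀ c0 ∈ TT x j,
      ∀ d ∈ c0.vars, xor (UU Ex x j' d.1) (UU Ex x j' d.2) = xor (UU Ex x j d.1) (UU Ex x j d.2) := by
    intro x j j' hjj' 
    induction j', hjj' using Nat.le_induction with
    | base => intros; rfl
    | succ j' hle ih =>
      intro hj' c0 hc0 d hd
      have hj'' : j' < S.m := by omega
      have h1 := ih hj''.le c0 hc0 d hd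
      rw [← h1]
      simp only [UU]
      rw [dif_pos hj'']
      have hsub : TT x j ⊆ TT x j' := by
        intro c hc
        obtain ⟨i, hi, rfl⟩ := Finset.mem_image.1 hc
        refine Finset.mem_image.2 ⟨i, ?_, rfl⟩
        rw [Finset.mem_filter] at hi ⊢
        exact ⟨hi.1, by omega⟩
      exact (hEx _ _ _ (TT_valid x j') ((TT_card x j' hj''.le).trans hj''.le) (hU x j' hj''.le)
        (x ⟨j', hj''⟩).1.1.ok).2 c0 (hsub hc0) d hd
  let Φ : (Fin S.m → S.Vtx) → (Fin S.m → S.Vtx) := fun x i => Vtx.flip (UU Ex x (i.val + 1)) (x i)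
  have hsafe : ∀ x, Safe x (Φ x) := by
    intro x
    refine ⟨UU Ex x S.m, ?_, ?_⟩
    · rw [← TT_m]
      exact hU x S.m le_rfl
    · intro i
      apply (Vtx.flip_congr (x i) _).symm
      refine hagree x (i.val + 1) S.m (by omega) le_rfl _ ?_
      rw [TT_succ x i.isLt]
      exact Finset.mem_insert_self _ _
  have hinj : Injective Φ := by
    intro x x' h
    have key : ∀ n, ∀ i : Fin S.m, i.val < n → x i = x' i := by
      intro n
      induction n with
      | zero =>
        intro i hi
        omega
      | succ n ih =>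
        intro i hi
        by_cases hin : i.val < n
        · exact ih i hin
        have e : i.val = n := by omega
        subst e
        have h1 : Φ x i = Φ x' i := congrFun h i
        have h2 : (x i).cls = (x' i).cls := by
          have := congrArg Vtx.cls h1
          simpa [Φ] using this
        have h3 : UU Ex x (i.val + 1) = UU Ex x' (i.val + 1) := by
          simp only [UU]
          rw [dif_pos i.isLt, dif_pos i.isLt, TT_congr (fun i' hi' => ih i' hi'),
            UU_congr Ex i.val (fun i' hi' => ih i' hi')]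
          simp only [Fin.eta]
          rw [h2]
        simp only [Φ] at h1
        rw [h3] at h1
        exact Vtx.flip_inj _ h1
    funext i
    exact key _ i (Nat.lt_succ_self _)
  intro r
  let σ : (Fin S.m → S.Vtx) ≃ (Fin S.m → S.Vtx) :=
    Equiv.ofBijective Φ (Finite.injective_iff_bijective.1 hinj)
  have e : ∀ x, wlColor (S.graph false) r x = wlColor (S.graph true) r (σ x) := fun x =>
    hS.safe_color hst rfl r x (Φ x) (hsafe x)
  rw [Multiset.map_congr rfl (fun x _ => e x)]
  exact map_univ_equiv' σ _

end Nice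

end Layered

end Vale.Agent.P310h2
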