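import Vale.Agent.P310h2.Combo2

namespace Vale.Agent.P310h2

open Function Relation

open scoped Classical

theorem xor_aux1 (a b η c1 c2 : Bool) :
    xor (xor (xor c1 (η && a)) b) (xor (xor c2 (η && a)) b) = xor c1 c2 := by
  revert a b η c1 c2; decide

theorem xor_aux2 (a η b : Bool) (h : ¬ a = b) : xor (xor a (η && false)) true = b := by
  revert a η b; decide

theorem xor_aux3 (a b c : Bool) (h : xor a b = xor c c) : a = b := by
  revert a b c; decide

theorem xor_aux4 (x y z : Bool) : xor (xor x z) (xor y z) = xor x y := by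
  revert x y z; decide

theorem xor_aux5 (a b : Bool) : xor a (xor b a) = b := by
  revert a b; decide

theorem Item.has_pair {N : Type} {c : Item N} {z z' : N} (hz : c.Has z) (hz' : c.Has z') :
    z = z' ∨ (z, z') ∈ c.vars ∨ (z', z) ∈ c.vars := by
  obtain ⟨d, hd, h⟩ := hz
  obtain ⟨d', hd', h'⟩ := hz'
  cases c with
  | ev a b =>
    have e1 : d = (a, b) := hd
    have e2 : d' = (a, b) := hd'
    subst e1; subst e2
    rcases h with rfl | rfl <;> rcases h' with rfl | rfl
    · exact Or.inl rfl
    · exact Or.inr (Or.inl rfl)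
    · exact Or.inr (Or.inr rfl)
    · exact Or.inl rfl
  | vv a b =>
    have e1 : d = (a, b) := hd
    have e2 : d' = (a, b) := hd'
    subst e1; subst e2
    rcases h with rfl | rfl <;> rcases h' with rfl | rfl
    · exact Or.inl rfl
    · exact Or.inr (Or.inl rfl)
    · exact Or.inr (Or.inr rfl)
    · exact Or.inl rfl
  | un a b =>
    have e1 : d = (a, b) := hd
    have e2 : d' = (a, b) := hd'
    subst e1; subst e2
    rcases h with rfl | rfl <;> rcases h' with rfl | rfl
    · exact Or.inl rfl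
    · exact Or.inr (Or.inl rfl)
    · exact Or.inr (Or.inr rfl)
    · exact Or.inl rfl
  | tl a p q =>
    have hz1 : z = a ∨ z = p ∨ z = q := by
      rcases hd with rfl | rfl | rfl <;> rcases h with rfl | rfl <;> simp
    have hz2 : z' = a ∨ z' = p ∨ z' = q := by
      rcases hd' with rfl | rfl | rfl <;> rcases h' with rfl | rfl <;> simp
    have v1 : (a, p) ∈ (Item.tl a p q).vars := Or.inl rfl
    have v2 : (a, q) ∈ (Item.tl a p q).vars := Or.inr (Or.inl rfl)
    have v3 : (p, q) ∈ (Item.tl a p q).vars := Or.inr (Or.inr rfl)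
    rcases hz1 with rfl | rfl | rfl <;> rcases hz2 with rfl | rfl | rfl
    · exact Or.inl rfl
    · exact Or.inr (Or.inl v1)
    · exact Or.inr (Or.inl v2)
    · exact Or.inr (Or.inr v1)
    · exact Or.inl rfl
    · exact Or.inr (Or.inl v3)
    · exact Or.inr (Or.inr v2)
    · exact Or.inr (Or.inr v3)
    · exact Or.inl rfl
  | tr p q b =>
    have hz1 : z = p ∨ z = q ∨ z = b := by
      rcases hd with rfl | rfl | rfl <;> rcases h with rfl | rfl <;> simp
    have hz2 : z' = p ∨ z' = q ∨ z' = b := by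
      rcases hd' with rfl | rfl | rfl <;> rcases h' with rfl | rfl <;> simp
    have v1 : (p, b) ∈ (Item.tr p q b).vars := Or.inl rfl
    have v2 : (q, b) ∈ (Item.tr p q b).vars := Or.inr (Or.inl rfl)
    have v3 : (p, q) ∈ (Item.tr p q b).vars := Or.inr (Or.inr rfl)
    rcases hz1 with rfl | rfl | rfl <;> rcases hz2 with rfl | rfl | rfl
    · exact Or.inl rfl
    · exact Or.inr (Or.inl v3)
    · exact Or.inr (Or.inl v1)
    · exact Or.inr (Or.inr v3)
    · exact Or.inl rfl
    · exact Or.inr (Or.inl v2)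
    · exact Or.inr (Or.inr v1)
    · exact Or.inr (Or.inr v2)
    · exact Or.inl rfl

namespace Layered

variable {N : Type} {S : Layered N} {pos lab : N → ℕ} {T0 : ℕ}

/-- The admissible potentials on a set `T` of classes. -/
structure Adm (S : Layered N) (T : Finset (Item N)) (u : N → Bool) : Prop where
  lo0 : u S.lo = false
  blank_eq : ∀ τ x y, S.Blank τ x → S.Blank τ y → S.Rel T x y → u x = u y
  blank_lo : ∀ τ x y, S.Blank τ x → S.Rel T x y → S.AttL T y → u x = τ
  blank_hi : ∀ τ x y, S.Blank τ x → S.Rel T x y → S.AttR T y → u x = u S.hi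
  word : ∀ w, S.WordIn T w → (u S.hi = true ↔ S.Conn w S.t)

theorem Adm.mono {T T' : Finset (Item N)} (h : T ⊆ T') {u : N → Bool} (hu : S.Adm T' u) :
    S.Adm T u where
  lo0 := hu.lo0
  blank_eq := fun τ x y h1 h2 h3 => hu.blank_eq τ x y h1 h2 (Rel_mono h h3)
  blank_lo := fun τ x y h1 h2 h3 => hu.blank_lo τ x y h1 (Rel_mono h h2) (AttL_mono h h3)
  blank_hi := fun τ x y h1 h2 h3 => hu.blank_hi τ x y h1 (Rel_mono h h2) (AttR_mono h h3)
  word := fun w hw => hu.word w (WordIn_mono h hw)

namespace Nice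

variable (hS : S.Nice pos lab T0)
include hS

theorem step_of_has {T : Finset (Item N)} {c : Item N} (hc : c ∈ T) {z z' : N} (hz : c.Has z)
    (hz' : c.Has z') (iz : S.Inner z) (iz' : S.Inner z') : S.Rel T z z' := by
  rcases Item.has_pair hz hz' with rfl | h | h
  · exact Rel_refl T z
  · exact ReflTransGen.single ⟨c, hc, iz, iz', Or.inl h⟩
  · exact ReflTransGen.single ⟨c, hc, iz, iz', Or.inr h⟩

/-- The extension property. -/
theorem extend (hst : ¬ S.Conn S.s S.t) {T : Finset (Item N)} (hT : ∀ c ∈ T, S.valid c)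
    (hcard : T.card ≤ S.m) {u : N → Bool} (hu : S.Adm T u) {c : Item N} (hc : S.valid c) :
    ∃ u', S.Adm (insert c T) u' ∧ ∀ c0 ∈ T, ∀ d ∈ c0.vars,
      xor (u' d.1) (u' d.2) = xor (u d.1) (u d.2) := by
  have hm := hS.m_ge
  set T' := insert c T with hT'
  have hsub : T ⊆ T' := Finset.subset_insert c T
  have hcT' : c ∈ T' := Finset.mem_insert_self c T
  have hT'val : ∀ c0 ∈ T', S.valid c0 := by
    intro c0 h0
    rcases Finset.mem_insert.1 h0 with rfl | h0
    · exact hc
    · exact hT c0 h0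
  have hcard' : T'.card ≤ S.m + 1 := (Finset.card_insert_le c T).trans (by omega)
  -- the sets of nodes
  let InC : N → Prop := fun z => S.Inner z ∧ c.Has z
  let Q : N → Prop := fun z => ∃ y, InC y ∧ S.Rel T z y
  let AL : N → Prop := fun z => ∃ y, S.Rel T z y ∧ S.AttL T y
  let AR : N → Prop := fun z => ∃ y, S.Rel T z y ∧ S.AttR T y
  let QL : Prop := ∃ y, Q y ∧ S.AttL T' y
  let QR : Prop := ∃ y, Q y ∧ S.AttR T' y
  let BQ : Bool → Prop := fun τ => ∃ x, S.Blank τ x ∧ Q x
  have hQcl : ∀ {z z' : N}, S.Rel T z z' → Q z → Q z' := by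
    rintro z z' h ⟨y, h1, h2⟩
    exact ⟨y, h1, Rel_trans (Rel_symm T h) h2⟩
  have hALcl : ∀ {z z' : N}, S.Rel T z z' → AL z → AL z' := by
    rintro z z' h ⟨y, h1, h2⟩
    exact ⟨y, Rel_trans (Rel_symm T h) h1, h2⟩
  have hARcl : ∀ {z z' : N}, S.Rel T z z' → AR z → AR z' := by
    rintro z z' h ⟨y, h1, h2⟩
    exact ⟨y, Rel_trans (Rel_symm T h) h1, h2⟩
  have hQrel : ∀ {x y : N}, Q x → Q y → S.Rel T' x y := by
    rintro x y ⟨x', ⟨i1, h1⟩, h2⟩ ⟨y', ⟨i2, h3⟩, h4⟩
    exact Rel_trans (Rel_mono hsub h2)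
      (Rel_trans (hS.step_of_has hcT' h1 h3 i1 i2) (Rel_mono hsub (Rel_symm T h4)))
  -- decomposition of the new relation
  have hdec : ∀ {x y : N}, S.Rel T' x y → S.Rel T x y ∨ (Q x ∧ Q y) := by
    intro x y h
    induction h with
    | refl => exact Or.inl (Rel_refl T x)
    | @tail b d _ h2 ih =>
      obtain ⟨c0, hc0, hs⟩ := h2
      rcases Finset.mem_insert.1 hc0 with rfl | hc0
      · have hb : Q b := ⟨b, ⟨hs.1, hs.has.1⟩, Rel_refl T b⟩
        have hd : Q d := ⟨d, ⟨hs.2.1, hs.has.2⟩, Rel_refl T d⟩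
        rcases ih with ih | ih
        · exact Or.inr ⟨hQcl (Rel_symm T ih) hb, hd⟩
        · exact Or.inr ⟨ih.1, hd⟩
      · have hst' : S.Rel T b d := ReflTransGen.single ⟨c0, hc0, hs⟩
        rcases ih with ih | ih
        · exact Or.inl (Rel_trans ih hst')
        · exact Or.inr ⟨ih.1, hQcl hst' ih.2⟩
  -- at most one type of blanks
  have hBQ2 : BQ false → BQ true → False := by
    rintro ⟨x, hx, hqx⟩ ⟨y, hy, hqy⟩
    exact hS.no_two_blanks hT'val hcard' hx hy (hQrel hqx hqy)
  obtain ⟨tauQ, htauQ⟩ : ∃ tauQ : Bool, tauQ = decide (BQ true) := ⟨_, rfl⟩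
  have htau : ∀ τ, BQ τ → τ = tauQ := by
    intro τ h
    cases τ
    · have : ¬ BQ true := fun h' => hBQ2 h h'
      rw [htauQ, decide_eq_false this]
    · rw [htauQ, decide_eq_true h]
  -- word connected to a blank fixes the value
  have hwordblank : ∀ {w : ℕ → N} {τ : Bool} {x : N} {i : ℕ}, S.WordIn T' w → S.Blank τ x → Q x →
      0 < i → i < S.m → Q (w i) → (S.Conn w S.t ↔ τ = true) := by
    intro w τ x i hw hx hqx hi0 hi1 hqw
    have h1 := hS.blank_word hT'val hcard' hw hx hi0 hi1 (hQrel hqx hqw)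
    cases τ
    · have h2 : S.Conn w S.s := h1
      constructor
      · intro h3
        exact (hst (Conn_trans (hS.Conn_symm h2) h3)).elim
      · intro h3
        simp at h3
    · have h2 : S.Conn w S.t := h1
      simp [h2]
  set ε := u S.hi with hε
  have hε' : ∃ ε' : Bool, (∀ w, S.WordIn T' w → (ε' = true ↔ S.Conn w S.t)) ∧
      (QL → QR → ∀ τ, BQ τ → ε' = τ) ∧ (ε' ≠ ε → ¬ ∃ z, AL z ∧ AR z) := by
    by_cases hWT : ∃ w0, S.WordIn T w0
    · -- a word is already there
      obtain ⟨w0, hw0⟩ := hWT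
      have hw0' : S.WordIn T' w0 := WordIn_mono hsub hw0
      refine ⟨ε, ?_, ?_, fun h => (h rfl).elim⟩
      · intro w hw
        have h1 : S.Conn w w0 := hS.words_conn hT'val hcard' _ w w0 hw hw0' le_rfl
        rw [hu.word w0 hw0]
        exact ⟨fun h => Conn_trans h1 h, fun h => Conn_trans (hS.Conn_symm h1) h⟩
      · rintro ⟨y1, hq1, hat1⟩ ⟨y2, hq2, hat2⟩ τ ⟨x, hx, hqx⟩
        have hgapw : ∀ c' ∈ T, ∀ a b, (a, b) ∈ c'.vars → S.E a b →
            (a, b) ∉ c'.vars ∨ ∃ g, g < S.m ∧ (w0 g, w0 (g + 1)) ∈ c'.vars ∧ g = pos a := by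
          intro c' hc' a b hv hE
          right
          obtain ⟨g, hg, hgv⟩ := hS.item_meets_word hT hw0 hcard hc'
          refine ⟨g, hg, hgv, ?_⟩
          have e1 := hS.gap_eq (hT c' hc') hv hE
          have e2 := hS.gap_eq (hT c' hc') hgv (hw0.1.2.2 g hg)
          rw [hS.word_pos hw0.1 g hg.le] at e2
          omega
        have hE1 : ∀ c' ∈ T', (S.lo, y1) ∈ c'.vars → S.E S.lo y1 := by
          intro c' hc' hv
          rcases hS.var_cases (hT'val c' hc') hv with h | h
          · exact h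
          · exact (hS.V_lo h rfl).elim
        have hE2 : ∀ c' ∈ T', (y2, S.hi) ∈ c'.vars → S.E y2 S.hi := by
          intro c' hc' hv
          rcases hS.var_cases (hT'val c' hc') hv with h | h
          · exact h
          · exact (hS.V_hi (hS.V_symm h) rfl).elim
        -- find a word node in `Q`
        have hfind : ∃ i, 0 < i ∧ i < S.m ∧ Q (w0 i) := by
          obtain ⟨c1, hc1, hv1⟩ := hat1
          obtain ⟨c2, hc2, hv2⟩ := hat2
          by_cases h1T : c1 ∈ T
          · rcases hgapw c1 h1T _ _ hv1 (hE1 c1 hc1 hv1) with h | ⟨g, hg, hgv, e⟩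
            · exact (h hv1).elim
            rw [hS.pos_lo] at e
            subst e
            have hw01 : S.Inner (w0 1) := hS.word_inner hw0.1 (by omega) (by omega)
            have hy1 : S.Inner y1 := hS.E_lo_inner (hE1 c1 hc1 hv1)
            refine ⟨1, by omega, by omega, hQcl ?_ hq1⟩
            refine hS.step_of_has h1T ⟨_, hv1, Or.inr rfl⟩ ⟨_, hgv, Or.inr rfl⟩ hy1 hw01
          by_cases h2T : c2 ∈ T
          · rcases hgapw c2 h2T _ _ hv2 (hE2 c2 hc2 hv2) with h | ⟨g, hg, hgv, e⟩
            · exact (h hv2).elim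
            have hy2 : S.Inner y2 := hS.E_hi_inner (hE2 c2 hc2 hv2)
            have e2 := hS.E_pos (hE2 c2 hc2 hv2)
            rw [hS.pos_hi] at e2
            have eg : g = S.m - 1 := by omega
            subst eg
            have hw01 : S.Inner (w0 (S.m - 1)) := hS.word_inner hw0.1 (by omega) (by omega)
            refine ⟨S.m - 1, by omega, by omega, hQcl ?_ hq2⟩
            refine hS.step_of_has h2T ⟨_, hv2, Or.inl rfl⟩ ⟨_, hgv, Or.inl rfl⟩ hy2 hw01
          · -- both through `c`
            have e1 : c1 = c := by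
              rcases Finset.mem_insert.1 hc1 with h | h
              · exact h
              · exact (h1T h).elim
            have e2 : c2 = c := by
              rcases Finset.mem_insert.1 hc2 with h | h
              · exact h
              · exact (h2T h).elim
            subst e1
            subst e2
            have g1 := hS.gap_eq hc hv1 (hE1 _ hcT' hv1)
            have g2 := hS.gap_eq hc hv2 (hE2 _ hcT' hv2)
            have e3 := hS.E_pos (hE2 _ hcT' hv2)
            rw [hS.pos_hi] at e3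
            rw [hS.pos_lo] at g1
            omega
        obtain ⟨i, hi0, hi1, hqw⟩ := hfind
        have h3 := hwordblank hw0' hx hqx hi0 hi1 hqw
        have h4 := hu.word w0 hw0
        rw [← hε] at h4
        cases τ
        · have h5 : ¬ S.Conn w0 S.t := fun h => by simpa using h3.1 h
          have h6 : ¬ ε = true := fun h => h5 (h4.1 h)
          simpa using h6
        · exact h4.2 (h3.2 rfl)
    · have hNoBoth : ¬ ∃ z, AL z ∧ AR z := by
        rintro ⟨z, ⟨y1, h1, h2⟩, ⟨y2, h3, h4⟩⟩
        exact hWT (hS.word_of_att hT hcard (Rel_trans (Rel_symm T h1) h3) h2 h4)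
      by_cases hWT' : ∃ w1, S.WordIn T' w1
      · obtain ⟨w1, hw1⟩ := hWT'
        refine ⟨decide (S.Conn w1 S.t), ?_, ?_, fun _ => hNoBoth⟩
        · intro w hw
          have h1 : S.Conn w w1 := hS.words_conn hT'val hcard' _ w w1 hw hw1 le_rfl
          rw [decide_eq_true_iff]
          exact ⟨fun h => Conn_trans h1 h, fun h => Conn_trans (hS.Conn_symm h1) h⟩
        · rintro _ _ τ ⟨x, hx, hqx⟩
          -- some edge of the word is only in `c`
          have hex : ∃ g, g < S.m ∧ (w1 g, w1 (g + 1)) ∈ c.vars := by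
            by_contra hno
            push_neg at hno
            apply hWT
            refine ⟨w1, hw1.1, ?_⟩
            intro i hi
            obtain ⟨c0, hc0, hv⟩ := hw1.2 i hi
            rcases Finset.mem_insert.1 hc0 with rfl | h
            · exact (hno i hi hv).elim
            · exact ⟨c0, h, hv⟩
          obtain ⟨g, hg, hv⟩ := hex
          obtain ⟨i, hi0, hi1, hig⟩ := hS.word_edge_inner hw1.1 hg
          have hqw : Q (w1 i) := by
            refine ⟨w1 i, ⟨hS.word_inner hw1.1 hi0 hi1, ?_⟩, Rel_refl T _⟩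
            rcases hig with rfl | rfl
            · exact ⟨_, hv, Or.inl rfl⟩
            · exact ⟨_, hv, Or.inr rfl⟩
          have h3 := hwordblank hw1 hx hqx hi0 hi1 hqw
          cases τ
          · simp only [Bool.false_eq_true, iff_false] at h3
            simp [h3]
          · simp only [iff_true] at h3
            simp [h3]
      · refine ⟨if QL ∧ QR ∧ ∃ τ, BQ τ then tauQ else ε, ?_, ?_, fun _ => hNoBoth⟩
        · intro w hw
          exact (hWT' ⟨w, hw⟩).elim
        · intro h1 h2 τ h3
          rw [if_pos ⟨h1, h2, τ, h3⟩]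
          exact (htau τ h3).symm
  obtain ⟨ε', hE2, hE3, hE4⟩ := hε'
  -- the new potential
  obtain ⟨η, hηd⟩ : ∃ η : Bool, η = xor ε' ε := ⟨_, rfl⟩
  obtain ⟨β, hβ⟩ : ∃ β : Bool, β = if QR then ε' else tauQ := ⟨_, rfl⟩
  let F : N → Prop := fun z => ¬ AL z ∧ ¬ AR z ∧ Q z ∧ ∃ x τ, S.Blank τ x ∧ S.Rel T z x ∧ u x ≠ β
  let v : N → Bool := fun z => xor (xor (u z) (η && decide (AR z))) (decide (F z))
  let u' : N → Bool := fun z => if z = S.lo then false else if z = S.hi then ε' else v z
  have hlohi := hS.lo_ne_hi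
  have u'lo : u' S.lo = false := by simp [u']
  have u'hi : u' S.hi = ε' := by
    simp [u', hlohi.symm]
  have u'in : ∀ {z : N}, S.Inner z → u' z = v z := by
    intro z hz
    simp only [u']
    rw [if_neg hz.1, if_neg hz.2]
  have hFcl : ∀ {z z' : N}, S.Rel T z z' → F z → F z' := by
    rintro z z' h ⟨h1, h2, h3, x, τ, h4, h5, h6⟩
    refine ⟨fun h' => h1 (hALcl (Rel_symm T h) h'), fun h' => h2 (hARcl (Rel_symm T h) h'),
      hQcl h h3, x, τ, h4, Rel_trans (Rel_symm T h) h5, h6⟩
  have hvcl : ∀ {z z' : N}, S.Rel T z z' → xor (v z) (v z') = xor (u z) (u z') := by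
    intro z z' h
    have h1 : AR z ↔ AR z' := ⟨hARcl h, hARcl (Rel_symm T h)⟩
    have h2 : F z ↔ F z' := ⟨hFcl h, hFcl (Rel_symm T h)⟩
    simp only [v]
    have e1 : decide (AR z) = decide (AR z') := by simp [h1]
    have e2 : decide (F z) = decide (F z') := by simp [h2]
    rw [e1, e2]
    exact xor_aux1 _ _ _ _ _
  -- values of blanks in the different situations
  have hη : ∀ {z : N}, AL z → AR z → η = false := by
    intro z h1 h2
    have : ε' = ε := by
      by_contra hne
      exact hE4 hne ⟨z, h1, h2⟩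
    rw [hηd, this]
    simp
  have vAL : ∀ {z : N}, AL z → v z = u z := by
    intro z h
    have hF : ¬ F z := fun h' => h'.1 h
    simp only [v]
    rw [decide_eq_false hF]
    by_cases h2 : AR z
    · rw [hη h h2]
      simp
    · rw [decide_eq_false h2]
      simp
  have vAR : ∀ {z : N}, AR z → v z = xor (u z) η := by
    intro z h
    have hF : ¬ F z := fun h' => h'.2.1 h
    simp only [v]
    rw [decide_eq_false hF, decide_eq_true h]
    simp
  have hηε : xor ε η = ε' := by
    rw [hηd]
    exact xor_aux5 _ _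
  have hblankQ : ∀ {τ : Bool} {x : N}, S.Blank τ x → Q x → v x = β := by
    intro τ x hx hq
    have hBτ : BQ τ := ⟨x, hx, hq⟩
    by_cases h1 : AL x
    · obtain ⟨y, hy1, hy2⟩ := h1
      have hAL : AL x := ⟨y, hy1, hy2⟩
      rw [vAL hAL, hu.blank_lo τ x y hx hy1 hy2]
      have hQL : QL := ⟨y, hQcl hy1 hq, AttL_mono hsub hy2⟩
      rw [hβ]
      by_cases hqr : QR
      · rw [if_pos hqr]
        exact (hE3 hQL hqr τ hBτ).symm
      · rw [if_neg hqr]
        exact htau τ hBτ
    by_cases h2 : AR x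
    · obtain ⟨y, hy1, hy2⟩ := h2
      have hAR : AR x := ⟨y, hy1, hy2⟩
      rw [vAR hAR, hu.blank_hi τ x y hx hy1 hy2, hηε]
      have hQR : QR := ⟨y, hQcl hy1 hq, AttR_mono hsub hy2⟩
      rw [hβ, if_pos hQR]
    · -- free component
      simp only [v]
      rw [decide_eq_false h2]
      by_cases hub : u x = β
      · have hF : ¬ F x := by
          rintro ⟨_, _, _, x', τ', h4, h5, h6⟩
          have : τ' = τ := by
            rw [htau τ hBτ, htau τ' ⟨x', h4, hQcl h5 hq⟩]
          subst this
          apply h6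
          rw [← hu.blank_eq τ' x x' hx h4 h5]
          exact hub
        rw [decide_eq_false hF]
        simpa using hub
      · have hF : F x := ⟨h1, h2, hq, x, τ, hx, Rel_refl T x, hub⟩
        rw [decide_eq_true hF]
        exact xor_aux2 _ _ _ hub
  refine ⟨u', ?_, ?_⟩
  · refine ⟨u'lo, ?_, ?_, ?_, ?_⟩
    · -- blanks of one type in one component
      intro τ x y hx hy hr
      rw [u'in (hS.Blank_inner hx), u'in (hS.Blank_inner hy)]
      rcases hdec hr with h | ⟨h1, h2⟩
      · have h1 := hvcl h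
        have h2 := hu.blank_eq τ x y hx hy h
        rw [h2] at h1
        exact xor_aux3 _ _ _ h1
      · rw [hblankQ hx h1, hblankQ hy h2]
    · -- blanks attached to `lo`
      intro τ x y hx hr hy
      rw [u'in (hS.Blank_inner hx)]
      have hQLcase : Q x → QL → v x = τ := by
        intro hq hql
        rw [hblankQ hx hq, hβ]
        by_cases hqr : QR
        · rw [if_pos hqr]
          exact hE3 hql hqr τ ⟨x, hx, hq⟩
        · rw [if_neg hqr]
          exact (htau τ ⟨x, hx, hq⟩).symm
      rcases hdec hr with h | ⟨h1, h2⟩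
      · obtain ⟨c1, hc1, hv1⟩ := hy
        rcases Finset.mem_insert.1 hc1 with rfl | hc1T
        · have hEy : S.E S.lo y := by
            rcases hS.var_cases hc hv1 with h' | h'
            · exact h'
            · exact (hS.V_lo h' rfl).elim
          have hqy : Q y := ⟨y, ⟨hS.E_lo_inner hEy, _, hv1, Or.inr rfl⟩, Rel_refl T y⟩
          exact hQLcase (hQcl (Rel_symm T h) hqy) ⟨y, hqy, c1, hc1, hv1⟩
        · have hAL : AL x := ⟨y, h, c1, hc1T, hv1⟩
          rw [vAL hAL]
          exact hu.blank_lo τ x y hx h ⟨c1, hc1T, hv1⟩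
      · exact hQLcase h1 ⟨y, h2, hy⟩
    · -- blanks attached to `hi`
      intro τ x y hx hr hy
      rw [u'in (hS.Blank_inner hx), u'hi]
      have hQRcase : Q x → QR → v x = ε' := by
        intro hq hqr
        rw [hblankQ hx hq, hβ, if_pos hqr]
      rcases hdec hr with h | ⟨h1, h2⟩
      · obtain ⟨c1, hc1, hv1⟩ := hy
        rcases Finset.mem_insert.1 hc1 with rfl | hc1T
        · have hEy : S.E y S.hi := by
            rcases hS.var_cases hc hv1 with h' | h'
            · exact h'
            · exact (hS.V_hi (hS.V_symm h') rfl).elim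
          have hqy : Q y := ⟨y, ⟨hS.E_hi_inner hEy, _, hv1, Or.inl rfl⟩, Rel_refl T y⟩
          exact hQRcase (hQcl (Rel_symm T h) hqy) ⟨y, hqy, c1, hc1, hv1⟩
        · have hAR : AR x := ⟨y, h, c1, hc1T, hv1⟩
          rw [vAR hAR, hu.blank_hi τ x y hx h ⟨c1, hc1T, hv1⟩, hηε]
      · exact hQRcase h1 ⟨y, h2, hy⟩
    · -- words
      intro w hw
      rw [u'hi]
      exact hE2 w hw
  · -- agreement on the old classes
    intro c0 hc0 d hd
    obtain ⟨a, b⟩ := d
    simp only
    rcases hS.var_cases (hT c0 hc0) hd with h | h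
    · simp only at h
      by_cases ha : a = S.lo
      · subst ha
        have hib : S.Inner b := hS.E_lo_inner h
        rw [u'lo, u'in hib, hu.lo0]
        have hAL : AL b := ⟨b, Rel_refl T b, c0, hc0, hd⟩
        rw [vAL hAL]
      · by_cases hb : b = S.hi
        · subst hb
          have hia : S.Inner a := hS.E_hi_inner h
          rw [u'hi, u'in hia]
          have hAR : AR a := ⟨a, Rel_refl T a, c0, hc0, hd⟩
          rw [vAR hAR, ← hηε]
          exact xor_aux4 _ _ _
        · have hia : S.Inner a := ⟨ha, hS.E_ne_hi h⟩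
          have hib : S.Inner b := ⟨hS.E_ne_lo h, hb⟩
          rw [u'in hia, u'in hib]
          exact hvcl (ReflTransGen.single ⟨c0, hc0, hia, hib, Or.inl hd⟩)
    · simp only at h
      have hia : S.Inner a := ⟨hS.V_lo h, hS.V_hi h⟩
      have hib : S.Inner b := ⟨hS.V_lo (hS.V_symm h), hS.V_hi (hS.V_symm h)⟩
      rw [u'in hia, u'in hib]
      exact hvcl (ReflTransGen.single ⟨c0, hc0, hia, hib, Or.inl hd⟩)

end Nice

end Layered

end Vale.Agent.P310h2
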