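import Vale.Agent.P310h2.Spoil

namespace Vale.Agent.P310h2

open Function Relation

variable {n k : ℕ} {X : SimpleGraph (Fin n)}

/-! ### Numeric facts about the values -/

theorem valOk_unit {j l : ℕ} {c d : Option (Fin n)} (h : valOk X k j l c d)
    (hl : l ≤ 4 ∨ 2 * k + 7 ≤ l) : c = none ∧ d = none := by
  rcases h with ⟨_, h1, h2⟩ | ⟨h1, h2, _⟩
  · exact ⟨h1, h2⟩
  · omega

theorem valOk_some {j l : ℕ} {c d : Option (Fin n)} (h : valOk X k j l c d)
    (h1 : 5 ≤ l) (h2 : l < 2 * k + 7) : ∃ v, c = some v := by
  rcases h with ⟨h3, _, _⟩ | ⟨_, _, v, h3, _⟩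
  · omega
  · exact ⟨v, h3⟩

theorem valOk_lab_of_some {j l : ℕ} {c d : Option (Fin n)} {v : Fin n} (h : valOk X k j l c d)
    (hc : c = some v) : 5 ≤ l ∧ l < 2 * k + 7 := by
  rcases h with ⟨_, h3, _⟩ | ⟨h1, h2, _⟩
  · rw [hc] at h3
    cases h3
  · exact ⟨h1, h2⟩

theorem valOk_noncarry {j l : ℕ} {c d : Option (Fin n)} (h : valOk X k j l c d)
    (hn : ¬ (isCarry k l ∧ (l - 7) / 2 < j / 2)) : d = none := by
  rcases h with ⟨_, _, h3⟩ | ⟨_, _, v, _, ⟨h4, h5, _⟩ | ⟨_, h4⟩⟩
  · exact h3
  · exact (hn ⟨h4, h5⟩).elim
  · exact h4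

theorem valOk_carry {j l : ℕ} {c d : Option (Fin n)} (h : valOk X k j l c d)
    (hn : isCarry k l) (hn2 : (l - 7) / 2 < j / 2) :
    ∃ v w, c = some v ∧ d = some w ∧ X.Adj w v := by
  obtain ⟨h1, h2, h3⟩ := hn
  rcases h with ⟨h4, _, _⟩ | ⟨_, _, v, h4, ⟨_, _, w, h5, h6⟩ | ⟨h5, _⟩⟩
  · omega
  · exact ⟨v, w, h4, h5, h6⟩
  · exact (h5 ⟨⟨h1, h2, h3⟩, hn2⟩).elim

theorem carry_det {j0 l : ℕ} {ac ad c d c' d' : Option (Fin n)}
    (h : stepOk k j0 l ac ad l c d) (h' : stepOk k j0 l ac ad l c' d')
    (hc : isCarry k l) (hr : (l - 7) / 2 < (j0 + 1) / 2) : d = d' := by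
  obtain ⟨_, _, h1⟩ := h
  obtain ⟨_, _, h2⟩ := h'
  have h3 := h1 rfl hc hr
  have h4 := h2 rfl hc hr
  by_cases e : j0 + 1 = 2 * ((l - 7) / 2) + 2
  · rw [h3.1 e, h4.1 e]
  · rw [h3.2 e, h4.2 e]

theorem labOk_win {l r : ℕ} (h : labOk l r) : l ≤ r + 1 ∧ r ≤ l + 1 := by
  rcases h with h | h | h <;> omega

theorem labOk_even_left {l r : ℕ} (h : labOk l r) (he : l % 2 = 0) : r = l := by
  rcases h with h | h | h <;> omega

theorem labOk_odd_right {l r : ℕ} (h : labOk l r) (he : r % 2 = 1) : l = r := by
  rcases h with h | h | h <;> omega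

/-- The data carried by a vertical pair at cell `j`, in terms of numbers. -/
structure VData (X : SimpleGraph (Fin n)) (k j l : ℕ) (c d : Option (Fin n)) (l' : ℕ)
    (c' d' : Option (Fin n)) : Prop where
  left : j = 0 ∨ ∃ j0 al ac ad, j = j0 + 1 ∧ valOk X k j0 al ac ad ∧ stepOk k j0 al ac ad l c d ∧
    stepOk k j0 al ac ad l' c' d'
  right : j + 1 = 2 * k ∨ ∃ bl be bg, valOk X k (j + 1) bl be bg ∧ stepOk k j l c d bl be bg ∧
    stepOk k j l' c' d' bl be bg
  win1 : l ≤ l' + 1
  win2 : l' ≤ l + 1
  ne : ¬ (l = l' ∧ c = c' ∧ d = d')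
  ok : valOk X k j l c d
  ok' : valOk X k j l' c' d'
  hj : j < 2 * k

theorem VData.symm {j l l' : ℕ} {c d c' d' : Option (Fin n)} (h : VData X k j l c d l' c' d') :
    VData X k j l' c' d' l c d where
  left := by
    rcases h.left with h1 | ⟨j0, al, ac, ad, h1, h2, h3, h4⟩
    · exact Or.inl h1
    · exact Or.inr ⟨j0, al, ac, ad, h1, h2, h4, h3⟩
  right := by
    rcases h.right with h1 | ⟨bl, be, bg, h1, h2, h3⟩
    · exact Or.inl h1
    · exact Or.inr ⟨bl, be, bg, h1, h3, h2⟩
  win1 := h.win2
  win2 := h.win1
  ne := fun ⟨a, b, c⟩ => h.ne ⟨a.symm, b.symm, c.symm⟩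
  ok := h.ok'
  ok' := h.ok
  hj := h.hj

/-- A vertical pair with equal labels. -/
theorem VData.same {j l : ℕ} {c d c' d' : Option (Fin n)} (h : VData X k j l c d l c' d') :
    c ≠ c' ∧ ((l = 5 ∧ j % 2 = 0) ∨ (l = 2 * k + 6 ∧ j % 2 = 1)) := by
  have hok := h.ok
  have hok' := h.ok'
  -- equal carries
  have hdd : d = d' := by
    by_cases hc : isCarry k l ∧ (l - 7) / 2 < j / 2
    · rcases h.left with h1 | ⟨j0, al, ac, ad, h1, _, h3, h4⟩
      · subst h1
        simp at hc
      · subst h1
        have hal : al = l := labOk_odd_right h3.1 hc.1.2.2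
        subst hal
        exact carry_det h3 h4 hc.1 hc.2
    · rw [valOk_noncarry hok hc, valOk_noncarry hok' hc]
  have hcc : c ≠ c' := fun e => h.ne ⟨rfl, e, hdd⟩
  refine ⟨hcc, ?_⟩
  -- the label is a content label
  have hlab : 5 ≤ l ∧ l < 2 * k + 7 := by
    by_contra hno
    have h1 : l ≤ 4 ∨ 2 * k + 7 ≤ l := by omega
    exact hcc ((valOk_unit hok h1).1.trans (valOk_unit hok' h1).1.symm)
  obtain ⟨v, hv⟩ := valOk_some hok hlab.1 hlab.2
  obtain ⟨v', hv'⟩ := valOk_some hok' hlab.1 hlab.2
  subst hv hv'
  have hvv : v ≠ v' := fun e => hcc (by rw [e])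
  rcases Nat.mod_two_eq_zero_or_one j with hj | hj
  · left
    refine ⟨?_, hj⟩
    rcases h.right with h1 | ⟨bl, be, bg, h1, h2, h3⟩
    · have := h.hj
      omega
    · have hbe : be = none := by
        rcases h2.2.1 hj with h4 | h4 | h4
        · cases h4
        · exact h4
        · rcases h3.2.1 hj with h5 | h5 | h5
          · cases h5
          · exact h5
          · rw [← h5] at h4
            exact (hvv (Option.some.inj h4)).elim
      have hbu : bl ≤ 4 ∨ 2 * k + 7 ≤ bl := by
        by_contra hno
        obtain ⟨x, hx⟩ := valOk_some h1 (by omega) (by omega)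
        rw [hbe] at hx
        cases hx
      have h6 := h2.1
      rcases h6 with h6 | h6 | h6 <;> omega
  · right
    refine ⟨?_, hj⟩
    rcases h.left with h1 | ⟨j0, al, ac, ad, h1, h2, h3, h4⟩
    · subst h1
      simp at hj
    · have hj0 : j0 % 2 = 0 := by omega
      have hac : ac = none := by
        rcases h3.2.1 hj0 with h5 | h5 | h5
        · exact h5
        · cases h5
        · rcases h4.2.1 hj0 with h6 | h6 | h6
          · exact h6
          · cases h6
          · rw [h5] at h6
            exact (hvv (Option.some.inj h6)).elim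
      have hau : al ≤ 4 ∨ 2 * k + 7 ≤ al := by
        by_contra hno
        obtain ⟨x, hx⟩ := valOk_some h2 (by omega) (by omega)
        rw [hac] at hx
        cases hx
      have h6 := h3.1
      rcases h6 with h6 | h6 | h6 <;> omega

/-- A vertical pair with different labels keeps the content. -/
theorem VData.diff {j l l' : ℕ} {c d c' d' : Option (Fin n)} (h : VData X k j l c d l' c' d')
    (hne : l ≠ l') {v v' : Fin n} (hv : c = some v) (hv' : c' = some v') : v = v' := by
  subst hv hv'
  have hl := valOk_lab_of_some h.ok rfl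
  have hl' := valOk_lab_of_some h.ok' rfl
  have hw1 := h.win1
  have hw2 := h.win2
  rcases Nat.mod_two_eq_zero_or_one j with hj | hj
  · rcases h.right with h1 | ⟨bl, be, bg, h1, h2, h3⟩
    · have := h.hj
      omega
    · have hbl : bl = l ∨ bl = l' := by
        have e1 : l % 2 = 0 ∨ l' % 2 = 0 := by omega
        rcases e1 with e1 | e1
        · exact Or.inl (labOk_even_left h2.1 e1)
        · exact Or.inr (labOk_even_left h3.1 e1)
      obtain ⟨x, hx⟩ := valOk_some h1 (by omega) (by omega)
      subst hx
      have e2 : some v = some x := by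
        rcases h2.2.1 hj with h4 | h4 | h4
        · cases h4
        · cases h4
        · exact h4
      have e3 : some v' = some x := by
        rcases h3.2.1 hj with h4 | h4 | h4
        · cases h4
        · cases h4
        · exact h4
      exact Option.some.inj (e2.trans e3.symm)
  · rcases h.left with h1 | ⟨j0, al, ac, ad, h1, h2, h3, h4⟩
    · subst h1
      simp at hj
    · have hj0 : j0 % 2 = 0 := by omega
      have hal : al = l ∨ al = l' := by
        have e1 : l % 2 = 1 ∨ l' % 2 = 1 := by omega
        rcases e1 with e1 | e1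
        · exact Or.inl (labOk_odd_right h3.1 e1)
        · exact Or.inr (labOk_odd_right h4.1 e1)
      obtain ⟨x, hx⟩ := valOk_some h2 (by omega) (by omega)
      subst hx
      have e2 : some x = some v := by
        rcases h3.2.1 hj0 with h5 | h5 | h5
        · cases h5
        · cases h5
        · exact h5
      have e3 : some x = some v' := by
        rcases h4.2.1 hj0 with h5 | h5 | h5
        · cases h5
        · cases h5
        · exact h5
      exact Option.some.inj (e2.symm.trans e3)

/-- The numeric form of the second separation property, the case of one-step labels. -/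
theorem sep_labels {j l l' r r' : ℕ} {c d c' d' e g e' g' : Option (Fin n)}
    (hk : 1 ≤ k)
    (hp : VData X k j l c d l' c' d') (hq : VData X k (j + 1) r e g r' e' g')
    (h1 : stepOk k j l c d r e g) (h2 : stepOk k j l' c' d' r' e' g') (hl : l' = l + 1)
    (hrr : r' = r + 1 ∨ r' + 1 = r) :
    stepOk k j l' c' d' r e g ∨ stepOk k j l c d r' e' g' := by
  have hL1 := h1.1
  have hL2 := h2.1
  have hlr : l = r ∧ r' = r + 1 := by
    rcases hL1 with a | a | a <;> rcases hL2 with b | b | b <;> omega
  obtain ⟨rfl, hr'⟩ := hlr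
  subst hl hr'
  have hlab1 := hp.ok
  have hlab2 := hp.ok'
  have hlab3 := hq.ok
  have hlab4 := hq.ok'
  rcases Nat.mod_two_eq_zero_or_one l with hpar | hpar
  · -- `l` even: the pair `(p', q)`
    left
    refine ⟨Or.inr (Or.inl ⟨rfl, by omega⟩), ?_, fun e => by omega⟩
    intro hj
    cases hc' : c' with
    | none => exact Or.inl rfl
    | some v' =>
      cases he : e with
      | none => exact Or.inr (Or.inl rfl)
      | some x =>
        right; right
        have hl1 := valOk_lab_of_some hlab2 hc'
        have hl2 := valOk_lab_of_some hlab3 he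
        obtain ⟨v, hv⟩ := valOk_some hlab1 hl2.1 hl2.2
        have e1 : some v = some x := by
          rcases h1.2.1 hj with h3 | h3 | h3
          · rw [hv] at h3; cases h3
          · rw [he] at h3; cases h3
          · rw [← hv, ← he]; exact h3
        have e2 := hp.diff (by omega) hv hc'
        rw [← e2]
        exact e1
  · -- `l` odd: the pair `(p, q')`
    right
    refine ⟨Or.inr (Or.inr ⟨rfl, by omega⟩), ?_, fun e => by omega⟩
    intro hj
    cases hc : c with
    | none => exact Or.inl rfl
    | some v =>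
      cases he' : e' with
      | none => exact Or.inr (Or.inl rfl)
      | some x' =>
        right; right
        have hl1 := valOk_lab_of_some hlab1 hc
        obtain ⟨x, hx⟩ := valOk_some hlab3 hl1.1 hl1.2
        have e1 : some v = some x := by
          rcases h1.2.1 hj with h3 | h3 | h3
          · rw [hc] at h3; cases h3
          · rw [hx] at h3; cases h3
          · rw [← hc, ← hx]; exact h3
        have e2 := hq.diff (by omega) hx he'
        rw [← e2]
        exact e1

/-- The numeric form of the second separation property. -/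
theorem sep_numeric {j l l' r r' : ℕ} {c d c' d' e g e' g' : Option (Fin n)}
    (hk : 1 ≤ k)
    (hp : VData X k j l c d l' c' d') (hq : VData X k (j + 1) r e g r' e' g')
    (h1 : stepOk k j l c d r e g) (h2 : stepOk k j l' c' d' r' e' g') :
    stepOk k j l' c' d' r e g ∨ stepOk k j l c d r' e' g' := by
  by_cases hll : l = l'
  · subst hll
    obtain ⟨hcc, hcase⟩ := hp.same
    rcases hcase with ⟨h5, hj⟩ | ⟨hE, hj⟩
    · subst h5
      by_cases hr : r = 4
      · subst hr
        have he := (valOk_unit hq.ok (Or.inl (le_refl _))).1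
        left
        exact ⟨Or.inr (Or.inl ⟨rfl, by norm_num⟩), fun _ => Or.inr (Or.inl he), fun e => by omega⟩
      by_cases hr' : r' = 4
      · subst hr'
        have he := (valOk_unit hq.ok' (Or.inl (le_refl _))).1
        right
        exact ⟨Or.inr (Or.inl ⟨rfl, by norm_num⟩), fun _ => Or.inr (Or.inl he), fun e => by omega⟩
      exfalso
      have hrr : 5 ≤ r ∧ r ≤ 6 := by
        have := h1.1
        rcases this with h3 | h3 | h3 <;> omega
      have hrr' : 5 ≤ r' ∧ r' ≤ 6 := by
        have := h2.1
        rcases this with h3 | h3 | h3 <;> omega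
      obtain ⟨x, hx⟩ := valOk_some hq.ok (by omega) (by omega)
      obtain ⟨x', hx'⟩ := valOk_some hq.ok' (by omega) (by omega)
      obtain ⟨v, hv⟩ := valOk_some hp.ok (by omega) (by omega)
      obtain ⟨v', hv'⟩ := valOk_some hp.ok' (by omega) (by omega)
      have e1 : some v = some x := by
        rcases h1.2.1 hj with h3 | h3 | h3
        · rw [hv] at h3; cases h3
        · rw [hx] at h3; cases h3
        · rw [← hv, ← hx]; exact h3
      have e2 : some v' = some x' := by
        rcases h2.2.1 hj with h3 | h3 | h3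
        · rw [hv'] at h3; cases h3
        · rw [hx'] at h3; cases h3
        · rw [← hv', ← hx']; exact h3
      by_cases hrr2 : r = r'
      · subst hrr2
        obtain ⟨_, h4⟩ := hq.same
        rcases h4 with h4 | h4 <;> omega
      · have e3 := hq.diff hrr2 hx hx'
        apply hcc
        rw [hv, hv', Option.some.inj e1, Option.some.inj e2, e3]
    · left
      have hr : r = l := labOk_even_left h1.1 (by omega)
      subst hr
      exact ⟨Or.inl rfl, fun hj' => by omega, fun _ hc => by have := hc.2.2; omega⟩
  · by_cases hrr : r = r'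
    · subst hrr
      obtain ⟨hee, hcase⟩ := hq.same
      rcases hcase with ⟨h5, hj⟩ | ⟨hE, hj⟩
      · exfalso
        have e1 := labOk_odd_right h1.1 (by omega)
        have e2 := labOk_odd_right h2.1 (by omega)
        omega
      · have hj0 : j % 2 = 0 := by omega
        by_cases hlE : l = 2 * k + 7
        · right
          have hc := (valOk_unit hp.ok (Or.inr (by omega))).1
          exact ⟨Or.inr (Or.inl ⟨by omega, by omega⟩), fun _ => Or.inl hc, fun e => by omega⟩
        by_cases hlE' : l' = 2 * k + 7
        · left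
          have hc := (valOk_unit hp.ok' (Or.inr (by omega))).1
          exact ⟨Or.inr (Or.inl ⟨by omega, by omega⟩), fun _ => Or.inl hc, fun e => by omega⟩
        exfalso
        have hl1 : 2 * k + 5 ≤ l ∧ l ≤ 2 * k + 6 := by
          have := h1.1
          rcases this with h3 | h3 | h3 <;> omega
        have hl2 : 2 * k + 5 ≤ l' ∧ l' ≤ 2 * k + 6 := by
          have := h2.1
          rcases this with h3 | h3 | h3 <;> omega
        obtain ⟨v, hv⟩ := valOk_some hp.ok (by omega) (by omega)
        obtain ⟨v', hv'⟩ := valOk_some hp.ok' (by omega) (by omega)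
        obtain ⟨x, hx⟩ := valOk_some hq.ok (by omega) (by omega)
        obtain ⟨x', hx'⟩ := valOk_some hq.ok' (by omega) (by omega)
        have e1 : some v = some x := by
          rcases h1.2.1 hj0 with h3 | h3 | h3
          · rw [hv] at h3; cases h3
          · rw [hx] at h3; cases h3
          · rw [← hv, ← hx]; exact h3
        have e2 : some v' = some x' := by
          rcases h2.2.1 hj0 with h3 | h3 | h3
          · rw [hv'] at h3; cases h3
          · rw [hx'] at h3; cases h3
          · rw [← hv', ← hx']; exact h3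
        have e3 := hp.diff hll hv hv'
        apply hee
        rw [hx, hx', ← Option.some.inj e1, ← Option.some.inj e2, e3]
    · have w1 := hp.win1
      have w2 := hp.win2
      have w3 := hq.win1
      have w4 := hq.win2
      rcases Nat.lt_or_ge l l' with h3 | h3
      · exact sep_labels hk hp hq h1 h2 (by omega) (by omega)
      · have := sep_labels hk hp.symm hq.symm h2 h1 (by omega) (by omega)
        exact this.symm

end Vale.Agent.P310h2
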