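import Vale.Agent.P310h2.Mach1

namespace Vale.Agent.P310h2

open Function Relation

variable {n k : ℕ} {X : SimpleGraph (Fin n)}

/-- The position of a node. -/
def mPos : MNode n k → ℕ
  | .lo => 0
  | .hi => 2 * k + 1
  | .cell j _ _ _ => j.val + 1

/-- The content of a node. -/
def mCon : MNode n k → Option (Fin n)
  | .lo => none
  | .hi => none
  | .cell _ _ c _ => c

/-- The carried vertex of a node. -/
def mCar : MNode n k → Option (Fin n)
  | .lo => none
  | .hi => none
  | .cell _ _ _ d => d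

theorem mE_pos {a b : MNode n k} (h : mE X k a b) : mPos b = mPos a + 1 := by
  cases a <;> cases b <;> simp only [mE] at h
  · simp [mPos, h.1]
  · simp only [mPos]; omega
  · simp only [mPos]; omega

theorem mE_le {a b : MNode n k} (h : mE X k a b) : mPos b ≤ 2 * k + 1 := by
  cases a <;> cases b <;> simp only [mE] at h
  · simp only [mPos]; have := h.1; omega
  · simp [mPos]
  · simp only [mPos]
    have := h.1
    rename_i j' _ _ _
    have := j'.isLt
    omega

theorem not_mE_lo (a : MNode n k) : ¬ mE X k a .lo := by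
  cases a <;> simp [mE]

theorem not_mE_hi (b : MNode n k) : ¬ mE X k .hi b := by
  cases b <;> simp [mE]

theorem mVert_inner {p q : MNode n k} (h : mVert X k p q) : p ≠ .lo ∧ p ≠ .hi := by
  obtain ⟨_, _, _, ⟨a, h1, _⟩, ⟨b, h2, _⟩⟩ := h
  constructor
  · rintro rfl
    exact not_mE_lo a h1
  · rintro rfl
    exact not_mE_hi b h2

theorem mVert_symm {p q : MNode n k} (h : mVert X k p q) : mVert X k q p := by
  obtain ⟨h1, h2, h3, ⟨a, h4, h5⟩, ⟨b, h6, h7⟩⟩ := h
  exact ⟨h1.symm, h3, h2, ⟨a, h5, h4⟩, ⟨b, h7, h6⟩⟩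

theorem mVert_pos {p q : MNode n k} (h : mVert X k p q) : mPos p = mPos q := by
  obtain ⟨_, _, _, ⟨a, h1, h2⟩, _⟩ := h
  rw [mE_pos h1, mE_pos h2]

theorem mVert_data {j j1 : Fin (2 * k)} {l l1 : Fin (2 * k + 11)} {c d c1 d1 : Option (Fin n)}
    (h : mVert X k (.cell j l c d) (.cell j1 l1 c1 d1)) :
    j = j1 ∧ VData X k j l c d l1 c1 d1 := by
  have hpos := mVert_pos h
  simp only [mPos, add_left_inj] at hpos
  have hj : j = j1 := Fin.ext hpos
  subst hj
  refine ⟨rfl, ?_⟩
  obtain ⟨h1, h2, h3, ⟨a, h4, h5⟩, ⟨b, h6, h7⟩⟩ := h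
  have hok : valOk X k j l c d ∧ valOk X k j l1 c1 d1 := by
    cases a <;> simp only [mE] at h4 h5
    · exact ⟨h4.2, h5.2⟩
    · exact ⟨h4.2.2.1, h5.2.2.1⟩
  refine ⟨?_, ?_, h2, h3, ?_, hok.1, hok.2, j.isLt⟩
  · cases a <;> simp only [mE] at h4 h5
    · exact Or.inl h4.1
    · rename_i j0 al ac ad
      exact Or.inr ⟨j0, al, ac, ad, h4.1, h4.2.1, h4.2.2.2, h5.2.2.2⟩
  · cases b <;> simp only [mE] at h6 h7
    · exact Or.inl h6.1
    · rename_i j2 bl be bg
      have e : j2.val = j.val + 1 := h6.1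
      rw [← e]
      exact Or.inr ⟨bl, be, bg, h6.2.2.1, h6.2.2.2, h7.2.2.2⟩
  · rintro ⟨e1, e2, e3⟩
    apply h1
    have : l = l1 := Fin.ext e1
    rw [this, e2, e3]

theorem msep2 (hk : 1 ≤ k) {p p' q q' : MNode n k} (h1 : mVert X k p p') (h2 : mVert X k q q')
    (h3 : mE X k p q) (h4 : mE X k p' q') : mE X k p' q ∨ mE X k p q' := by
  have ip := mVert_inner h1
  have ip' := mVert_inner (mVert_symm h1)
  have iq := mVert_inner h2
  have iq' := mVert_inner (mVert_symm h2)
  cases p with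
  | lo => exact (ip.1 rfl).elim
  | hi => exact (ip.2 rfl).elim
  | cell j l c d =>
  cases p' with
  | lo => exact (ip'.1 rfl).elim
  | hi => exact (ip'.2 rfl).elim
  | cell j1 l1 c1 d1 =>
  cases q with
  | lo => exact (iq.1 rfl).elim
  | hi => exact (iq.2 rfl).elim
  | cell i r e g =>
  cases q' with
  | lo => exact (iq'.1 rfl).elim
  | hi => exact (iq'.2 rfl).elim
  | cell i1 r1 e1 g1 =>
  obtain ⟨rfl, hd⟩ := mVert_data h1
  obtain ⟨rfl, hd2⟩ := mVert_data h2
  simp only [mE] at h3 h4 ⊢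
  rw [h3.1] at hd2
  rcases sep_numeric hk hd hd2 h3.2.2.2 h4.2.2.2 with h5 | h5
  · exact Or.inl ⟨h3.1, hd.ok', h3.2.2.1, h5⟩
  · exact Or.inr ⟨h3.1, h3.2.1, h4.2.2.1, h5⟩

/-! ### Words of the machine -/

theorem machine_m : (machine X k).m = 2 * k + 1 := rfl

theorem mword_pos {w : ℕ → MNode n k} (hw : (machine X k).IsWord w) :
    ∀ i, i ≤ 2 * k + 1 → mPos (w i) = i := by
  intro i
  induction i with
  | zero =>
    intro _
    rw [hw.1]
    rfl
  | succ i ih =>
    intro hi
    have h1 := mE_pos (hw.2.2 i (by exact hi))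
    rw [h1, ih (by omega)]

/-- Inner positions of a word are cells. -/
theorem mword_cell {w : ℕ → MNode n k} (hw : (machine X k).IsWord w) {j : ℕ} (hj : j < 2 * k) :
    ∃ (j' : Fin (2 * k)) (l : Fin (2 * k + 11)) (c d : Option (Fin n)), w (j + 1) = .cell j' l c d ∧
      j'.val = j := by
  have h1 := mword_pos hw (j + 1) (by omega)
  cases e : w (j + 1) with
  | lo =>
    rw [e] at h1
    simp [mPos] at h1
  | hi =>
    rw [e] at h1
    simp only [mPos] at h1
    omega
  | cell j' l c d =>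
    rw [e] at h1
    simp only [mPos, add_left_inj] at h1
    exact ⟨j', l, c, d, rfl, h1⟩

theorem mword_valOk {w : ℕ → MNode n k} (hw : (machine X k).IsWord w) {j : ℕ} (hj : j < 2 * k) :
    valOk X k j (mLab (w (j + 1))) (mCon (w (j + 1))) (mCar (w (j + 1))) := by
  obtain ⟨j', l, c, d, h1, h2⟩ := mword_cell hw hj
  have h3 : mE X k (w j) (w (j + 1)) := hw.2.2 j (by show j < 2 * k + 1; omega)
  rw [h1] at h3 ⊢
  simp only [mLab, mCon, mCar]
  rw [← h2]
  cases e : w j with
  | lo =>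
    rw [e] at h3
    exact h3.2
  | hi =>
    rw [e] at h3
    exact (not_mE_hi _ h3).elim
  | cell j0 l0 c0 d0 =>
    rw [e] at h3
    exact h3.2.2.1

theorem mword_stepOk {w : ℕ → MNode n k} (hw : (machine X k).IsWord w) {j : ℕ} (hj : j + 1 < 2 * k) :
    stepOk k j (mLab (w (j + 1))) (mCon (w (j + 1))) (mCar (w (j + 1)))
      (mLab (w (j + 2))) (mCon (w (j + 2))) (mCar (w (j + 2))) := by
  obtain ⟨j', l, c, d, h1, h2⟩ := mword_cell hw (j := j) (by omega)
  obtain ⟨j2, l2, c2, d2, h3, h4⟩ := mword_cell hw (j := j + 1) hj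
  have h5 : mE X k (w (j + 1)) (w (j + 2)) := hw.2.2 (j + 1) (by show j + 1 < 2 * k + 1; omega)
  rw [h1, show j + 2 = j + 1 + 1 from rfl, h3] at h5 ⊢
  simp only [mLab, mCon, mCar]
  have h6 := h5.2.2.2
  rw [h2] at h6
  exact h6

theorem mword_labOk {w : ℕ → MNode n k} (hw : (machine X k).IsWord w) {j : ℕ} (hj : j + 1 < 2 * k) :
    labOk (mLab (w (j + 1))) (mLab (w (j + 2))) := (mword_stepOk hw hj).1

/-- The relation between the labels of two positions of a word. -/
theorem mword_rel {w : ℕ → MNode n k} (hw : (machine X k).IsWord w) {j j' : ℕ} (hjj : j ≤ j')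
    (hj' : j' < 2 * k) :
    mLab (w (j' + 1)) = mLab (w (j + 1)) ∨
      (mLab (w (j + 1)) % 2 = 1 ∧ mLab (w (j' + 1)) % 2 = 0 ∧
        (mLab (w (j' + 1)) = mLab (w (j + 1)) + 1 ∨ mLab (w (j + 1)) = mLab (w (j' + 1)) + 1)) := by
  induction j', hjj using Nat.le_induction with
  | base => exact Or.inl rfl
  | succ j' _ ih =>
    have h1 := ih (by omega)
    have h2 := mword_labOk hw (j := j') hj'
    rw [show j' + 1 + 1 = j' + 2 from rfl]
    rcases h1 with h1 | ⟨h1, h3, h4⟩ <;> rcases h2 with h2 | h2 | h2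
    · left; omega
    · right; omega
    · right; omega
    · right; omega
    · omega
    · omega

theorem mword_win {w : ℕ → MNode n k} (hw : (machine X k).IsWord w) {j j' : ℕ} (hj : j < 2 * k)
    (hj' : j' < 2 * k) : mLab (w (j + 1)) ≤ mLab (w (j' + 1)) + 1 := by
  rcases Nat.le_total j j' with h | h
  · rcases mword_rel hw h hj' with h1 | ⟨_, _, h1⟩ <;> omega
  · rcases mword_rel hw h hj with h1 | ⟨_, _, h1⟩ <;> omega

theorem mLab_lt (x : MNode n k) : mLab x < 2 * k + 11 := by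
  cases x <;> simp only [mLab] <;> first | omega | exact Fin.isLt _

theorem optCode_inj : Injective (optCode (n := n)) := by
  intro a b h
  cases a <;> cases b <;> simp only [optCode] at h
  · rfl
  · omega
  · omega
  · congr 1
    exact Fin.ext (by omega)

theorem mCode_inj : Injective (mCode (n := n) (k := k)) := by
  intro a b h
  cases a <;> cases b <;> simp only [mCode] at h <;> try omega
  · rfl
  · rfl
  · have h1 : Nat.pair _ _ = Nat.pair _ _ := Nat.add_left_cancel h
    simp only [Nat.pair_eq_pair] at h1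
    obtain ⟨h2, h3, h4, h5⟩ := h1
    rw [Fin.ext h2, Fin.ext h3, optCode_inj h4, optCode_inj h5]

end Vale.Agent.P310h2
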