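import Vale.Agent.P310h2.Mach2

namespace Vale.Agent.P310h2

open Function Relation

open scoped Classical

variable {n k : ℕ} {X : SimpleGraph (Fin n)}

/-- The canonical content at cell `j` and label `l`. -/
noncomputable def ccon (k : ℕ) (v : ℕ → Option (Fin n)) (j l : ℕ) : Option (Fin n) :=
  if l ≤ 4 ∨ 2 * k + 7 ≤ l then none else v (j / 2)

/-- The canonical carried vertex at cell `j` and label `l`. -/
noncomputable def ccar (k : ℕ) (v : ℕ → Option (Fin n)) (j l : ℕ) : Option (Fin n) :=
  if isCarry k l ∧ (l - 7) / 2 < j / 2 then v ((l - 7) / 2) else none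

/-- The canonical value. -/
noncomputable def cval (k : ℕ) (v : ℕ → Option (Fin n)) (j l : ℕ) : MNode n k :=
  if h : j < 2 * k ∧ l < 2 * k + 11 then .cell ⟨j, h.1⟩ ⟨l, h.2⟩ (ccon k v j l) (ccar k v j l)
  else .lo

theorem cval_eq (v : ℕ → Option (Fin n)) {j l : ℕ} (h1 : j < 2 * k) (h2 : l < 2 * k + 11) :
    cval k v j l = .cell ⟨j, h1⟩ ⟨l, h2⟩ (ccon k v j l) (ccar k v j l) := by
  simp [cval, h1, h2]

/-- A family of contents forming a clique. -/
def CA (X : SimpleGraph (Fin n)) (k : ℕ) (v : ℕ → Option (Fin n)) : Prop :=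
  (∀ i, i < k → ∃ u, v i = some u) ∧
    ∀ r i, r < i → i < k → ∃ ur ui, v r = some ur ∧ v i = some ui ∧ X.Adj ur ui

/-- A label whose canonical values are fine. -/
def Usable (X : SimpleGraph (Fin n)) (k : ℕ) (v : ℕ → Option (Fin n)) (l : ℕ) : Prop :=
  l < 2 * k + 11 ∧ ((l ≤ 4 ∨ 2 * k + 7 ≤ l) ∨ CA X k v)

theorem cval_valOk {v : ℕ → Option (Fin n)} {j l : ℕ} (hj : j < 2 * k) (hu : Usable X k v l) :
    valOk X k j l (ccon k v j l) (ccar k v j l) := by
  by_cases hun : l ≤ 4 ∨ 2 * k + 7 ≤ l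
  · left
    refine ⟨hun, ?_, ?_⟩
    · simp [ccon, hun]
    · have : ¬ (isCarry k l ∧ (l - 7) / 2 < j / 2) := by
        rintro ⟨⟨h1, h2, _⟩, _⟩
        omega
      simp [ccar, this]
  · have hca : CA X k v := by
      rcases hu.2 with h | h
      · exact (hun h).elim
      · exact h
    right
    refine ⟨by omega, by omega, ?_⟩
    obtain ⟨u, hu'⟩ := hca.1 (j / 2) (by omega)
    refine ⟨u, ?_, ?_⟩
    · simp [ccon, hun, hu']
    · by_cases hc : isCarry k l ∧ (l - 7) / 2 < j / 2
      · left
        obtain ⟨ur, ui, h1, h2, h3⟩ := hca.2 _ _ hc.2 (by omega)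
        refine ⟨hc.1, hc.2, ur, ?_, ?_⟩
        · simp [ccar, hc, h1]
        · rw [hu'] at h2
          have := Option.some.inj h2
          rw [this]
          exact h3
      · right
        exact ⟨hc, by simp [ccar, hc]⟩

theorem cval_stepOk {v : ℕ → Option (Fin n)} {j l l' : ℕ} (hl : labOk l l') :
    stepOk k j l (ccon k v j l) (ccar k v j l) l' (ccon k v (j + 1) l') (ccar k v (j + 1) l') := by
  refine ⟨hl, ?_, ?_⟩
  · intro hj
    by_cases h1 : l ≤ 4 ∨ 2 * k + 7 ≤ l
    · left
      simp [ccon, h1]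
    by_cases h2 : l' ≤ 4 ∨ 2 * k + 7 ≤ l'
    · right; left
      simp [ccon, h2]
    right; right
    simp only [ccon, h1, h2, if_false]
    congr 1
    omega
  · rintro rfl hc hr
    have hc' := hc
    obtain ⟨h1, h2, h3⟩ := hc
    have hn : ¬ (l ≤ 4 ∨ 2 * k + 7 ≤ l) := by omega
    constructor
    · intro e
      have e2 : (l - 7) / 2 = j / 2 := by omega
      have e3 : isCarry k l ∧ (l - 7) / 2 < (j + 1) / 2 := ⟨hc', hr⟩
      simp only [ccar, e3, ccon, hn, and_self, if_true, if_false]
      rw [e2]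
    · intro e
      have e3 : isCarry k l ∧ (l - 7) / 2 < (j + 1) / 2 := ⟨hc', hr⟩
      have e4 : isCarry k l ∧ (l - 7) / 2 < j / 2 := ⟨hc', by omega⟩
      simp only [ccar, e3, e4, and_self, if_true]

/-- The word of the sweep: cells before `q` have label `a`, the others label `b`. -/
noncomputable def sw (k : ℕ) (v : ℕ → Option (Fin n)) (a b q : ℕ) (i : ℕ) : MNode n k :=
  if i = 0 then .lo else if i ≤ 2 * k then cval k v (i - 1) (if i - 1 < q then a else b) else .hi

theorem sw_zero (v : ℕ → Option (Fin n)) (a b q : ℕ) : sw k v a b q 0 = .lo := by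
  simp [sw]

theorem sw_last (v : ℕ → Option (Fin n)) (a b q : ℕ) : sw k v a b q (2 * k + 1) = .hi := by
  simp [sw]

theorem sw_cell (v : ℕ → Option (Fin n)) (a b q : ℕ) {j : ℕ} (hj : j < 2 * k) :
    sw k v a b q (j + 1) = cval k v j (if j < q then a else b) := by
  have : j + 1 ≤ 2 * k := hj
  simp [sw, this]

theorem sw_word (v : ℕ → Option (Fin n)) {a b : ℕ} (q : ℕ) (hk : 1 ≤ k) (hab : labOk a b)
    (ha : Usable X k v a) (hb : Usable X k v b) : (machine X k).IsWord (sw k v a b q) := by
  have hx : ∀ j, Usable X k v (if j < q then a else b) := by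
    intro j
    split_ifs
    · exact ha
    · exact hb
  refine ⟨sw_zero v a b q, sw_last v a b q, ?_⟩
  intro i hi
  have hi' : i < 2 * k + 1 := hi
  show mE X k (sw k v a b q i) (sw k v a b q (i + 1))
  rcases Nat.eq_zero_or_pos i with h0 | h0
  · subst h0
    rw [sw_zero, sw_cell v a b q (by omega), cval_eq v (by omega) (hx 0).1]
    exact ⟨rfl, cval_valOk (by omega) (hx 0)⟩
  obtain ⟨j, rfl⟩ : ∃ j, i = j + 1 := ⟨i - 1, by omega⟩
  rcases Nat.lt_or_ge (j + 1) (2 * k) with h1 | h1
  · rw [sw_cell v a b q (by omega), sw_cell v a b q h1, cval_eq v (by omega) (hx j).1,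
      cval_eq v h1 (hx (j + 1)).1]
    refine ⟨rfl, cval_valOk (by omega) (hx j), cval_valOk h1 (hx (j + 1)), cval_stepOk ?_⟩
    by_cases e1 : j < q <;> by_cases e2 : j + 1 < q <;> simp only [e1, e2, if_true, if_false]
    · exact Or.inl rfl
    · exact hab
    · omega
    · exact Or.inl rfl
  · have e : j + 1 = 2 * k := by omega
    rw [sw_cell v a b q (by omega), e, sw_last, cval_eq v (by omega) (hx j).1]
    exact ⟨by simpa using e, cval_valOk (by omega) (hx j)⟩

theorem sw_lab (v : ℕ → Option (Fin n)) (a b q : ℕ) {j : ℕ} (hj : j < 2 * k)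
    (hx : (if j < q then a else b) < 2 * k + 11) :
    mLab (sw k v a b q (j + 1)) = if j < q then a else b := by
  rw [sw_cell v a b q hj, cval_eq v hj hx]
  rfl

/-- One step of a sweep. -/
theorem sw_move (v : ℕ → Option (Fin n)) {a b : ℕ} {q : ℕ} (hk : 1 ≤ k) (hab : labOk a b)
    (ha : Usable X k v a) (hb : Usable X k v b) (hq : q < 2 * k) :
    (machine X k).Move (sw k v a b q) (sw k v a b (q + 1)) := by
  have hw := sw_word (X := X) v q hk hab ha hb
  have hw' := sw_word (X := X) v (q + 1) hk hab ha hb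
  have hagree : ∀ i, i ≠ q + 1 → sw k v a b q i = sw k v a b (q + 1) i := by
    intro i hi
    simp only [sw]
    by_cases h0 : i = 0
    · simp [h0]
    by_cases h1 : i ≤ 2 * k
    · simp only [h0, h1, if_false, if_true]
      have : (i - 1 < q) ↔ (i - 1 < q + 1) := by omega
      simp only [this]
    · simp [h0, h1]
  refine ⟨hw, hw', q + 1, fun i _ hi => hagree i hi, ?_⟩
  by_cases he : sw k v a b q (q + 1) = sw k v a b (q + 1) (q + 1)
  · exact Or.inl he
  right
  have hl1 : mLab (sw k v a b q (q + 1)) = b := by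
    rw [sw_lab v a b q hq (by simpa using hb.1)]
    simp
  have hl2 : mLab (sw k v a b (q + 1) (q + 1)) = a := by
    rw [sw_lab v a b (q + 1) hq (by simpa using ha.1)]
    simp
  have hw2 := labOk_win hab
  refine ⟨he, by rw [hl1, hl2]; omega, by rw [hl1, hl2]; omega, ⟨sw k v a b q q, ?_, ?_⟩,
    ⟨sw k v a b q (q + 2), ?_, ?_⟩⟩
  · exact hw.2.2 q (by show q < 2 * k + 1; omega)
  · rw [hagree q (by omega)]
    exact hw'.2.2 q (by show q < 2 * k + 1; omega)
  · exact hw.2.2 (q + 1) (by show q + 1 < 2 * k + 1; omega)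
  · rw [hagree (q + 2) (by omega)]
    exact hw'.2.2 (q + 1) (by show q + 1 < 2 * k + 1; omega)

theorem mMove_symm {w w' : ℕ → MNode n k} (h : (machine X k).Move w w') :
    (machine X k).Move w' w := by
  obtain ⟨h1, h2, j, h3, h4⟩ := h
  refine ⟨h2, h1, j, fun i hi hj => (h3 i hi hj).symm, ?_⟩
  rcases h4 with h4 | h4
  · exact Or.inl h4.symm
  · exact Or.inr (mVert_symm h4)

theorem mConn_symm {w w' : ℕ → MNode n k} (h : (machine X k).Conn w w') :
    (machine X k).Conn w' w := by
  induction h with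
  | refl => exact ReflTransGen.refl
  | tail _ h2 ih => exact ReflTransGen.head (mMove_symm h2) ih

theorem sw_conn (v : ℕ → Option (Fin n)) {a b : ℕ} (hk : 1 ≤ k) (hab : labOk a b)
    (ha : Usable X k v a) (hb : Usable X k v b) :
    ∀ q, q ≤ 2 * k → (machine X k).Conn (sw k v a b 0) (sw k v a b q) := by
  intro q
  induction q with
  | zero =>
    intro _
    exact ReflTransGen.refl
  | succ q ih =>
    intro hq
    exact ReflTransGen.tail (ih (by omega)) (sw_move v hk hab ha hb (by omega))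

/-- The word with all cells of label `l`. -/
noncomputable def fullw (k : ℕ) (v : ℕ → Option (Fin n)) (l : ℕ) : ℕ → MNode n k := sw k v l l 0

theorem sw_start (v : ℕ → Option (Fin n)) (a b : ℕ) : sw k v a b 0 = fullw k v b := by
  funext i
  simp [sw, fullw]

theorem sw_end (v : ℕ → Option (Fin n)) (a b : ℕ) : sw k v a b (2 * k) = fullw k v a := by
  funext i
  simp only [sw, fullw]
  by_cases h0 : i = 0
  · simp [h0]
  by_cases h1 : i ≤ 2 * k
  · have : i - 1 < 2 * k := by omega
    simp [h0, h1, this]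
  · simp [h0, h1]

/-- Neighbouring labels can be reached from each other. -/
theorem full_step (v : ℕ → Option (Fin n)) {l : ℕ} (hk : 1 ≤ k) (h1 : Usable X k v l)
    (h2 : Usable X k v (l + 1)) : (machine X k).Conn (fullw k v l) (fullw k v (l + 1)) := by
  rcases Nat.mod_two_eq_zero_or_one l with hp | hp
  · have hab : labOk (l + 1) l := Or.inr (Or.inl ⟨rfl, by omega⟩)
    have := sw_conn v hk hab h2 h1 (2 * k) le_rfl
    rw [sw_start, sw_end] at this
    exact this
  · have hab : labOk l (l + 1) := Or.inr (Or.inr ⟨rfl, by omega⟩)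
    have := sw_conn v hk hab h1 h2 (2 * k) le_rfl
    rw [sw_start, sw_end] at this
    exact mConn_symm this

theorem full_range (v : ℕ → Option (Fin n)) (hk : 1 ≤ k) {l l' : ℕ} (hle : l ≤ l')
    (h : ∀ x, l ≤ x → x ≤ l' → Usable X k v x) :
    (machine X k).Conn (fullw k v l) (fullw k v l') := by
  induction l', hle using Nat.le_induction with
  | base => exact ReflTransGen.refl
  | succ l' hl ih =>
    have h1 := ih (fun x hx hx' => h x hx (by omega))
    exact ReflTransGen.trans h1 (full_step v hk (h l' hl (by omega)) (h (l' + 1) (by omega) le_rfl))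

end Vale.Agent.P310h2
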