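import Vale.Agent.P310h2.Mach3

namespace Vale.Agent.P310h2

open Function Relation

open scoped Classical

variable {n k : ℕ} {X : SimpleGraph (Fin n)}

theorem mUnit_eq_full (v : ℕ → Option (Fin n)) (l : Fin (2 * k + 11))
    (hu : l.val ≤ 4 ∨ 2 * k + 7 ≤ l.val) : mUnit k l = fullw (n := n) k v l.val := by
  funext i
  simp only [mUnit, fullw, sw]
  by_cases h0 : i = 0
  · simp [h0]
  by_cases h1 : i ≤ 2 * k
  · have h2 : i - 1 < 2 * k := by omega
    simp only [h0, h1, h2, if_false, if_true, dite_true, Nat.not_lt_zero]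
    rw [cval_eq v h2 l.isLt]
    have e1 : ccon k v (i - 1) l.val = none := by simp [ccon, hu]
    have e2 : ccar k v (i - 1) l.val = none := by
      have : ¬ (isCarry k l.val ∧ (l.val - 7) / 2 < (i - 1) / 2) := by
        rintro ⟨⟨h3, h4, _⟩, _⟩
        omega
      simp [ccar, this]
    rw [e1, e2]
  · have h2 : ¬ (i - 1 < 2 * k) := by omega
    simp [h0, h1, h2]

theorem word_eq_cval {w : ℕ → MNode n k} (hw : (machine X k).IsWord w) (v : ℕ → Option (Fin n))
    {j : ℕ} (hj : j < 2 * k) (hu : mLab (w (j + 1)) ≤ 4 ∨ 2 * k + 7 ≤ mLab (w (j + 1))) :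
    w (j + 1) = cval k v j (mLab (w (j + 1))) := by
  have h1 := valOk_unit (mword_valOk hw hj) hu
  obtain ⟨j', l, c, d, h2, h3⟩ := mword_cell hw hj
  rw [h2] at h1 hu ⊢
  simp only [mCon, mCar, mLab] at h1 hu ⊢
  rw [cval_eq v hj l.isLt]
  have e1 : ccon k v j l.val = none := by simp [ccon, hu]
  have e2 : ccar k v j l.val = none := by
    have : ¬ (isCarry k l.val ∧ (l.val - 7) / 2 < j / 2) := by
      rintro ⟨⟨h3, h4, _⟩, _⟩
      omega
    simp [ccar, this]
  rw [e1, e2, h1.1, h1.2]
  congr 1
  exact Fin.ext h3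

/-- The labels of a word: a block of one label followed by a block of another. -/
theorem word_pattern {w : ℕ → MNode n k} (hw : (machine X k).IsWord w) (hk : 1 ≤ k) :
    ∃ a b q, q ≤ 2 * k ∧ labOk a b ∧ a = mLab (w (0 + 1)) ∧ b = mLab (w (2 * k - 1 + 1)) ∧
      (∀ j, j < 2 * k → mLab (w (j + 1)) = if j < q then a else b) := by
  have hlast : 2 * k - 1 < 2 * k := by omega
  set a := mLab (w (0 + 1)) with ha
  set b := mLab (w (2 * k - 1 + 1)) with hb
  have hab := mword_rel hw (Nat.zero_le _) hlast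
  rw [← ha, ← hb] at hab
  by_cases heq : a = b
  · refine ⟨a, b, 0, by omega, Or.inl heq, ha, hb, ?_⟩
    intro j hj
    simp only [Nat.not_lt_zero, if_false]
    have h1 := mword_rel hw (Nat.zero_le j) hj
    have h2 := mword_rel hw (show j ≤ 2 * k - 1 by omega) hlast
    rw [← ha] at h1
    rw [← hb] at h2
    omega
  · have hab2 : a % 2 = 1 ∧ b % 2 = 0 ∧ (b = a + 1 ∨ a = b + 1) := by
      rcases hab with h | h
      · omega
      · exact h
    have hex : ∃ j, j < 2 * k ∧ mLab (w (j + 1)) = b := ⟨_, hlast, rfl⟩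
    refine ⟨a, b, Nat.find hex, (Nat.find_spec hex).1.le, ?_, ha, hb, ?_⟩
    · rcases hab2.2.2 with h | h
      · exact Or.inr (Or.inr ⟨h, hab2.2.1⟩)
      · exact Or.inr (Or.inl ⟨h, hab2.1⟩)
    · intro j hj
      by_cases hq : j < Nat.find hex
      · rw [if_pos hq]
        have h3 : mLab (w (j + 1)) ≠ b := fun e => Nat.find_min hex hq ⟨hj, e⟩
        have h1 := mword_rel hw (Nat.zero_le j) hj
        have h2 := mword_rel hw (show j ≤ 2 * k - 1 by omega) hlast
        rw [← ha] at h1
        rw [← hb] at h2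
        omega
      · rw [if_neg hq]
        have hq' : Nat.find hex ≤ j := by omega
        have h1 := mword_rel hw hq' hj
        rw [(Nat.find_spec hex).2] at h1
        omega

theorem conn_of_agree {w w' : ℕ → MNode n k} (hw : (machine X k).IsWord w)
    (hw' : (machine X k).IsWord w') (h : ∀ i, i ≤ 2 * k + 1 → w i = w' i) :
    (machine X k).Conn w w' :=
  ReflTransGen.single ⟨hw, hw', 0, fun i hi _ => h i hi, Or.inl (h 0 (by omega))⟩

/-- A word all of whose labels are units is connected to the full word of its last label. -/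
theorem unit_word_conn {w : ℕ → MNode n k} (hw : (machine X k).IsWord w) (hk : 1 ≤ k)
    (hu : ∀ j, j < 2 * k → mLab (w (j + 1)) ≤ 4 ∨ 2 * k + 7 ≤ mLab (w (j + 1))) :
    (machine X k).Conn w (fullw k (fun _ => none) (mLab (w (2 * k - 1 + 1)))) := by
  obtain ⟨a, b, q, hq, hab, ha, hb, hp⟩ := word_pattern hw hk
  let v : ℕ → Option (Fin n) := fun _ => none
  have hlast : 2 * k - 1 < 2 * k := by omega
  have huse : ∀ l, (l ≤ 4 ∨ 2 * k + 7 ≤ l) → l < 2 * k + 11 → Usable X k v l :=
    fun l h1 h2 => ⟨h2, Or.inl h1⟩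
  have hua : Usable X k v a := by
    rw [ha]
    exact huse _ (hu 0 (by omega)) (mLab_lt _)
  have hub : Usable X k v b := by
    rw [hb]
    exact huse _ (hu _ hlast) (mLab_lt _)
  have hw1 : (machine X k).IsWord (sw k v a b q) := sw_word v q hk hab hua hub
  have h1 : (machine X k).Conn w (sw k v a b q) := by
    apply conn_of_agree hw hw1
    intro i hi
    rcases Nat.eq_zero_or_pos i with h0 | h0
    · subst h0
      exact hw.1.trans (sw_zero v a b q).symm
    rcases Nat.lt_or_ge i (2 * k + 1) with h2 | h2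
    · obtain ⟨j, rfl⟩ : ∃ j, i = j + 1 := ⟨i - 1, by omega⟩
      have hj : j < 2 * k := by omega
      rw [word_eq_cval hw v hj (hu j hj), sw_cell v a b q hj, hp j hj]
    · have e : i = 2 * k + 1 := by omega
      subst e
      exact hw.2.1.trans (sw_last v a b q).symm
  have h2 := mConn_symm (sw_conn v hk hab hua hub q hq)
  rw [sw_start] at h2
  rw [← hb]
  exact ReflTransGen.trans h1 h2

/-- The machine satisfies the hypotheses of the abstract theorem. -/
theorem machine_nice (hk : 1 ≤ k) : (machine X k).Nice mPos mLab (2 * k + 10) where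
  m_ge := by show 2 ≤ 2 * k + 1; omega
  pos_lo := rfl
  pos_hi := rfl
  E_pos := mE_pos
  E_le := mE_le
  V_pos := mVert_pos
  V_ne := fun h => h.1
  V_lo := fun h => (mVert_inner h).1
  V_hi := fun h => (mVert_inner h).2
  V_symm := mVert_symm
  win_E := by
    intro a b h h1 h2
    cases a with
    | lo => exact (h1 rfl).elim
    | hi => exact (not_mE_hi (X := X) b h).elim
    | cell j l c d =>
      cases b with
      | lo =>
        have h' : mE X k (MNode.cell j l c d) MNode.lo := h
        exact (not_mE_lo _ h').elim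
      | hi => exact (h2 rfl).elim
      | cell j' l' c' d' => exact labOk_win h.2.2.2.1
  win_V := fun h => h.2.1
  win_word := by
    intro w hw i j h0 h1 h2 h3
    obtain ⟨i', rfl⟩ : ∃ i', i = i' + 1 := ⟨i - 1, by omega⟩
    obtain ⟨j', rfl⟩ : ∃ j', j = j' + 1 := ⟨j - 1, by omega⟩
    have h1' : i' + 1 < 2 * k + 1 := h1
    have h3' : j' + 1 < 2 * k + 1 := h3
    exact mword_win hw (by omega) (by omega)
  sep2 := msep2 hk
  s_word := by
    have e : (machine X k).s = fullw k (fun _ => none) 0 :=
      mUnit_eq_full (fun _ => none) ⟨0, by omega⟩ (Or.inl (by simp))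
    rw [e]
    exact sw_word _ 0 hk (Or.inl rfl) ⟨by omega, Or.inl (Or.inl (by omega))⟩
      ⟨by omega, Or.inl (Or.inl (by omega))⟩
  t_word := by
    have e : (machine X k).t = fullw k (fun _ => none) (2 * k + 10) :=
      mUnit_eq_full (fun _ => none) ⟨2 * k + 10, by omega⟩ (Or.inr (by simp))
    rw [e]
    exact sw_word _ 0 hk (Or.inl rfl) ⟨by omega, Or.inl (Or.inr (by omega))⟩
      ⟨by omega, Or.inl (Or.inr (by omega))⟩
  lab_s := by
    intro i h0 h1
    have h1' : i < 2 * k + 1 := h1
    have h2 : i - 1 < 2 * k := by omega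
    have h3 : i ≠ 0 := by omega
    show mLab (mUnit k ⟨0, by omega⟩ i) = 0
    simp [mUnit, h3, h2, mLab]
  lab_t := by
    intro i h0 h1
    have h1' : i < 2 * k + 1 := h1
    have h2 : i - 1 < 2 * k := by omega
    have h3 : i ≠ 0 := by omega
    show mLab (mUnit k ⟨2 * k + 10, by omega⟩ i) = 2 * k + 10
    simp [mUnit, h3, h2, mLab]
  lab_le := fun x => by have := mLab_lt x; omega
  T_big := by show 2 * k + 1 + 2 ≤ 2 * k + 10; omega
  low := by
    intro w hw hl
    have hlast : 2 * k - 1 < 2 * k := by omega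
    have hl' : ∀ j, j < 2 * k → mLab (w (j + 1)) ≤ 3 :=
      fun j hj => hl (j + 1) (by omega) (by show j + 1 < 2 * k + 1; omega)
    have h1 := unit_word_conn hw hk (fun j hj => Or.inl (by have := hl' j hj; omega))
    have e : (machine X k).s = fullw k (fun _ => none) 0 :=
      mUnit_eq_full (fun _ => none) ⟨0, by omega⟩ (Or.inl (by simp))
    rw [e]
    refine ReflTransGen.trans h1 (mConn_symm (full_range _ hk (Nat.zero_le _) ?_))
    intro x _ hx
    have := hl' _ hlast
    exact ⟨by omega, Or.inl (Or.inl (by omega))⟩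
  high := by
    intro w hw hl
    have hlast : 2 * k - 1 < 2 * k := by omega
    have hl' : ∀ j, j < 2 * k → 2 * k + 10 ≤ mLab (w (j + 1)) + 3 :=
      fun j hj => hl (j + 1) (by omega) (by show j + 1 < 2 * k + 1; omega)
    have h1 := unit_word_conn hw hk (fun j hj => Or.inr (by have := hl' j hj; omega))
    have e : (machine X k).t = fullw k (fun _ => none) (2 * k + 10) :=
      mUnit_eq_full (fun _ => none) ⟨2 * k + 10, by omega⟩ (Or.inr (by simp))
    rw [e]
    have hlab := mLab_lt (w (2 * k - 1 + 1))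
    refine ReflTransGen.trans h1 (full_range _ hk (by omega) ?_)
    intro x hx hx2
    have := hl' _ hlast
    exact ⟨by omega, Or.inl (Or.inr (by omega))⟩
  code_inj := mCode_inj

end Vale.Agent.P310h2
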