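import Vale.Agent.P310h2.Mach4

namespace Vale.Agent.P310h2

open Function Relation

open scoped Classical

variable {n k : ℕ} {X : SimpleGraph (Fin n)}

/-- The invariant of the words reachable from `s`: the last labels are not reached, and a row
`i` whose label has reached the sweep of row `r < i` has a content adjacent to that of row `r`. -/
def GoodW (X : SimpleGraph (Fin n)) (k : ℕ) (w : ℕ → MNode n k) : Prop :=
  (∀ j, j < 2 * k → mLab (w (j + 1)) < 2 * k + 7) ∧
    ∀ r i, r < i → i < k → 7 + 2 * r ≤ mLab (w (2 * i + 1)) →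
      ∃ ur ui, mCon (w (2 * r + 1)) = some ur ∧ mCon (w (2 * i + 1)) = some ui ∧ X.Adj ur ui

/-- In a word, a carry label is preceded by the same label, and the carried vertex comes from the
row of the sweep. -/
theorem carry_chain {w : ℕ → MNode n k} (hw : (machine X k).IsWord w) {r : ℕ} (hr : r < k) :
    ∀ j, 2 * r + 2 ≤ j → j < 2 * k → mLab (w (j + 1)) = 7 + 2 * r →
      mCar (w (j + 1)) = mCon (w (2 * r + 2)) ∧ mLab (w (2 * r + 2)) = 7 + 2 * r := by
  intro j hj
  have hcar : isCarry k (7 + 2 * r) := ⟨by omega, by omega, by omega⟩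
  have he : (7 + 2 * r - 7) / 2 = r := by omega
  induction j, hj using Nat.le_induction with
  | base =>
    intro h1 h2
    have hs := mword_stepOk hw (j := 2 * r + 1) (by omega)
    have hl : mLab (w (2 * r + 1 + 1)) = 7 + 2 * r := by
      have := labOk_odd_right hs.1 (by
        rw [show 2 * r + 1 + 2 = 2 * r + 2 + 1 from rfl, h2]
        omega)
      rw [show 2 * r + 1 + 2 = 2 * r + 2 + 1 from rfl, h2] at this
      exact this
    have h3 := hs.2.2
    rw [show 2 * r + 1 + 2 = 2 * r + 2 + 1 from rfl, hl, h2] at h3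
    have h4 := h3 rfl hcar
    rw [he] at h4
    exact ⟨(h4 (by omega)).1 (by omega), hl⟩
  | succ j hj ih =>
    intro h1 h2
    have hs := mword_stepOk hw (j := j) (by omega)
    have hl : mLab (w (j + 1)) = 7 + 2 * r := by
      have := labOk_odd_right hs.1 (by
        rw [show j + 2 = j + 1 + 1 from rfl, h2]
        omega)
      rw [show j + 2 = j + 1 + 1 from rfl, h2] at this
      exact this
    obtain ⟨h5, h6⟩ := ih (by omega) hl
    refine ⟨?_, h6⟩
    have h3 := hs.2.2
    rw [show j + 2 = j + 1 + 1 from rfl, hl, h2] at h3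
    have h4 := h3 rfl hcar
    rw [he] at h4
    rw [(h4 (by omega)).2 (by omega), h5]

/-- A carry label at row `i > r` gives the adjacency of the contents of the rows `r` and `i`. -/
theorem carry_adj {w : ℕ → MNode n k} (hw : (machine X k).IsWord w) {r i : ℕ} (hr : r < i)
    (hi : i < k) (hl : mLab (w (2 * i + 1)) = 7 + 2 * r) :
    ∃ ur ui, mCon (w (2 * r + 1)) = some ur ∧ mCon (w (2 * i + 1)) = some ui ∧ X.Adj ur ui := by
  have hcar : isCarry k (7 + 2 * r) := ⟨by omega, by omega, by omega⟩
  have he : (7 + 2 * r - 7) / 2 = r := by omega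
  obtain ⟨h1, h2⟩ := carry_chain hw (r := r) (by omega) (2 * i) (by omega) (by omega) hl
  have hv := mword_valOk hw (j := 2 * i) (by omega)
  rw [hl] at hv
  obtain ⟨v, x, h3, h4, h5⟩ := valOk_carry hv hcar (by rw [he]; omega)
  have hs := mword_stepOk hw (j := 2 * r) (by omega)
  have h6 : mLab (w (2 * r + 1)) = 7 + 2 * r := by
    have := labOk_odd_right hs.1 (by
      rw [h2]
      omega)
    rw [h2] at this
    exact this
  have hv0 := mword_valOk hw (j := 2 * r) (by omega)
  rw [h6] at hv0
  have hv1 := mword_valOk hw (j := 2 * r + 1) (by omega)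
  rw [show 2 * r + 1 + 1 = 2 * r + 2 from rfl, h2] at hv1
  obtain ⟨a, ha⟩ := valOk_some hv0 (by omega) (by omega)
  obtain ⟨b, hb⟩ := valOk_some hv1 (by omega) (by omega)
  have hab : a = b := by
    rcases hs.2.1 (by omega) with h7 | h7 | h7
    · rw [ha] at h7; cases h7
    · rw [hb] at h7; cases h7
    · rw [ha, hb] at h7
      exact Option.some.inj h7
  rw [h1, hb] at h4
  have hbx : b = x := Option.some.inj h4
  refine ⟨a, v, ha, h3, ?_⟩
  rw [hab, hbx]
  exact h5

/-- Extraction of the clique from a word all of whose labels are the last content label. -/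
theorem clique_of_good {w : ℕ → MNode n k} (hw : (machine X k).IsWord w) (hg : GoodW X k w)
    (hall : ∀ j, j < 2 * k → mLab (w (j + 1)) = 2 * k + 6) :
    ∃ S : Finset (Fin n), X.IsNClique k S := by
  have hex : ∀ i : Fin k, ∃ u, mCon (w (2 * i.val + 1)) = some u := by
    intro i
    have h1 := mword_valOk hw (j := 2 * i.val) (by omega)
    rw [hall _ (by omega)] at h1
    exact valOk_some h1 (by omega) (by omega)
  choose f hf using hex
  have hadj : ∀ a b : Fin k, a.val < b.val → X.Adj (f a) (f b) := by
    intro a b hab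
    obtain ⟨ur, ui, h1, h2, h3⟩ := hg.2 a.val b.val hab b.isLt (by
      rw [hall _ (by omega)]
      omega)
    rw [hf a] at h1
    rw [hf b] at h2
    rw [Option.some.inj h1, Option.some.inj h2]
    exact h3
  have hinj : Injective f := by
    intro a b h
    rcases Nat.lt_trichotomy a.val b.val with h1 | h1 | h1
    · have := hadj a b h1
      rw [h] at this
      exact (X.loopless.irrefl _ this).elim
    · exact Fin.ext h1
    · have := hadj b a h1
      rw [h] at this
      exact (X.loopless.irrefl _ this).elim
  refine ⟨Finset.univ.image f, ?_⟩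
  rw [SimpleGraph.isNClique_iff]
  constructor
  · intro x hx y hy hxy
    simp only [Finset.coe_image, Finset.coe_univ, Set.image_univ, Set.mem_range] at hx hy
    obtain ⟨a, rfl⟩ := hx
    obtain ⟨b, rfl⟩ := hy
    rcases Nat.lt_trichotomy a.val b.val with h1 | h1 | h1
    · exact hadj a b h1
    · exact (hxy (by rw [Fin.ext h1])).elim
    · exact (hadj b a h1).symm
  · rw [Finset.card_image_of_injective _ hinj]
    simp

/-- Even cells keep their content along a vertical pair, once the labels are large. -/
theorem con_same {p p1 : MNode n k} (hV : mVert X k p p1) {j : ℕ} (hj : mPos p = j + 1)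
    (hev : j % 2 = 0) (hl : 6 ≤ mLab p) (hl2 : mLab p < 2 * k + 7) (hl3 : mLab p1 < 2 * k + 7) :
    mCon p1 = mCon p ∧ ∃ v, mCon p = some v := by
  have hi := mVert_inner hV
  have hi1 := mVert_inner (mVert_symm hV)
  cases p with
  | lo => exact (hi.1 rfl).elim
  | hi => exact (hi.2 rfl).elim
  | cell j0 l c d =>
  cases p1 with
  | lo => exact (hi1.1 rfl).elim
  | hi => exact (hi1.2 rfl).elim
  | cell j1 l1 c1 d1 =>
  obtain ⟨rfl, hd⟩ := mVert_data hV
  simp only [mPos, add_left_inj] at hj
  simp only [mLab, mCon] at hl hl2 hl3 ⊢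
  have hw1 := hd.win1
  have hw2 := hd.win2
  obtain ⟨v, hv⟩ := valOk_some hd.ok (by omega) (by omega)
  obtain ⟨v1, hv1⟩ := valOk_some hd.ok' (by omega) (by omega)
  refine ⟨?_, v, hv⟩
  rw [hv, hv1]
  by_cases e : l.val = l1.val
  · exfalso
    have hd' := hd
    rw [← e] at hd'
    obtain ⟨_, h1⟩ := hd'.same
    rcases h1 with h1 | h1
    · omega
    · omega
  · rw [hd.diff e hv hv1]

/-- One move keeps the invariant, or gives a clique. -/
theorem good_step (hk : 1 ≤ k) {w w1 : ℕ → MNode n k} (hg : GoodW X k w)
    (hm : (machine X k).Move w w1) :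
    GoodW X k w1 ∨ ∃ S : Finset (Fin n), X.IsNClique k S := by
  obtain ⟨hw, hw1, c0, hag, hc0⟩ := hm
  have hag' : ∀ i, i ≤ 2 * k + 1 → i ≠ c0 → w i = w1 i := hag
  by_cases hall : ∀ i, i ≤ 2 * k + 1 → w i = w1 i
  · left
    refine ⟨?_, ?_⟩
    · intro j hj
      rw [← hall (j + 1) (by omega)]
      exact hg.1 j hj
    · intro r i h1 h2 h3
      rw [← hall (2 * i + 1) (by omega)] at h3 ⊢
      rw [← hall (2 * r + 1) (by omega)]
      exact hg.2 r i h1 h2 h3
  push_neg at hall
  obtain ⟨i0, hi0, hne⟩ := hall
  have hi0c : i0 = c0 := by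
    by_contra h
    exact hne (hag' i0 hi0 h)
  subst hi0c
  have hV : mVert X k (w i0) (w1 i0) := by
    rcases hc0 with h | h
    · exact (hne h).elim
    · exact h
  have hpos0 : i0 ≠ 0 := by
    rintro rfl
    exact hne (hw.1.trans hw1.1.symm)
  have hposm : i0 ≠ 2 * k + 1 := by
    rintro rfl
    exact hne (hw.2.1.trans hw1.2.1.symm)
  obtain ⟨c, rfl⟩ : ∃ c, i0 = c + 1 := ⟨i0 - 1, by omega⟩
  have hc : c < 2 * k := by omega
  have hwin1 := hV.2.1
  have hwin2 := hV.2.2.1
  have hold := hg.1 c hc
  by_cases hbig : mLab (w1 (c + 1)) < 2 * k + 7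
  · -- no last label reached
    left
    refine ⟨?_, ?_⟩
    · intro j hj
      by_cases e : j = c
      · subst e
        exact hbig
      · rw [← hag' (j + 1) (by omega) (by omega)]
        exact hg.1 j hj
    · intro r i h1 h2 h3
      have hpe : mPos (w (c + 1)) = c + 1 := mword_pos hw (c + 1) (by omega)
      by_cases e2 : 2 * i + 1 = c + 1
      · -- the row `i` has changed
        have hr1 : 2 * r + 1 ≠ c + 1 := by omega
        rw [← hag' (2 * r + 1) (by omega) hr1]
        rw [e2] at h3 ⊢
        by_cases hlo : 7 + 2 * r ≤ mLab (w (c + 1))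
        · have h4 := hg.2 r i h1 h2 (by rw [e2]; exact hlo)
          rw [e2] at h4
          obtain ⟨ur, ui, h5, h6, h7⟩ := h4
          have h8 := con_same hV hpe (by omega) (by omega) hold hbig
          exact ⟨ur, ui, h5, by rw [h8.1, h6], h7⟩
        · have hl : mLab (w1 (2 * i + 1)) = 7 + 2 * r := by
            rw [e2]
            omega
          obtain ⟨ur, ui, h5, h6, h7⟩ := carry_adj hw1 h1 h2 hl
          rw [e2] at h6
          rw [← hag' (2 * r + 1) (by omega) hr1] at h5
          exact ⟨ur, ui, h5, h6, h7⟩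
      · have hli : mLab (w (2 * i + 1)) = mLab (w1 (2 * i + 1)) := by
          rw [hag' (2 * i + 1) (by omega) e2]
        rw [← hli] at h3
        obtain ⟨ur, ui, h5, h6, h7⟩ := hg.2 r i h1 h2 h3
        rw [hag' (2 * i + 1) (by omega) e2] at h6
        by_cases e3 : 2 * r + 1 = c + 1
        · -- the row `r` has changed
          have h8 := mword_win hw (j := 2 * i) (j' := c) (by omega) hc
          rw [e3] at h5 ⊢
          have h9 := con_same hV hpe (by omega) (by omega) hold hbig
          exact ⟨ur, ui, by rw [h9.1, h5], h6, h7⟩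
        · rw [hag' (2 * r + 1) (by omega) e3] at h5
          exact ⟨ur, ui, h5, h6, h7⟩
  · -- the first cell takes the first label after the contents
    right
    have hE : mLab (w1 (c + 1)) = 2 * k + 7 := by omega
    have hc0' : c = 0 := by
      by_contra hne0
      obtain ⟨c', rfl⟩ : ∃ c', c = c' + 1 := ⟨c - 1, by omega⟩
      have h1 := mword_labOk hw1 (j := c') (by omega)
      rw [show c' + 2 = c' + 1 + 1 from rfl, hE] at h1
      have h2 := labOk_odd_right h1 (by omega)
      have h3 := hg.1 c' (by omega)
      rw [hag' (c' + 1) (by omega) (by omega)] at h3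
      omega
    subst hc0'
    refine clique_of_good hw hg ?_
    intro j hj
    have h1 := mword_rel hw (Nat.zero_le j) hj
    have h2 : mLab (w (0 + 1)) = 2 * k + 6 := by omega
    rw [h2] at h1
    omega

/-- The reduction: connectivity of the words is the existence of a clique. -/
theorem conn_iff_clique (hk : 1 ≤ k) :
    (machine X k).Conn (machine X k).s (machine X k).t ↔ ∃ S : Finset (Fin n), X.IsNClique k S := by
  have hNice := machine_nice (X := X) hk
  constructor
  · intro h
    have key : ∀ w, (machine X k).Conn (machine X k).s w →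
        GoodW X k w ∨ ∃ S : Finset (Fin n), X.IsNClique k S := by
      intro w hw
      induction hw with
      | refl =>
        left
        refine ⟨?_, ?_⟩
        · intro j hj
          rw [hNice.lab_s (j + 1) (by omega) (by show j + 1 < 2 * k + 1; omega)]
          omega
        · intro r i h1 h2 h3
          rw [hNice.lab_s (2 * i + 1) (by omega) (by show 2 * i + 1 < 2 * k + 1; omega)] at h3
          omega
      | tail _ h2 ih =>
        rcases ih with ih | ih
        · exact good_step hk ih h2
        · exact Or.inr ih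
    rcases key _ h with h1 | h1
    · exfalso
      have h2 := h1.1 0 (by omega)
      rw [hNice.lab_t (0 + 1) (by omega) (by show 0 + 1 < 2 * k + 1; omega)] at h2
      omega
    · exact h1
  · rintro ⟨S, hS⟩
    rw [SimpleGraph.isNClique_iff] at hS
    obtain ⟨hcl, hcard⟩ := hS
    let e : Fin k ≃ S := (Fintype.equivFinOfCardEq (by simpa using hcard)).symm
    let v : ℕ → Option (Fin n) := fun i => if h : i < k then some (e ⟨i, h⟩).1 else none
    have hv : ∀ i (h : i < k), v i = some (e ⟨i, h⟩).1 := by
      intro i h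
      simp [v, h]
    have hca : CA X k v := by
      refine ⟨fun i h => ⟨_, hv i h⟩, ?_⟩
      intro r i h1 h2
      refine ⟨_, _, hv r (by omega), hv i h2, ?_⟩
      apply hcl (e ⟨r, by omega⟩).2 (e ⟨i, h2⟩).2
      intro h3
      have h4 := e.injective (Subtype.ext h3)
      have := congrArg Fin.val h4
      simp at this
      omega
    have e1 : (machine X k).s = fullw k v 0 :=
      mUnit_eq_full v ⟨0, by omega⟩ (Or.inl (by simp))
    have e2 : (machine X k).t = fullw k v (2 * k + 10) :=
      mUnit_eq_full v ⟨2 * k + 10, by omega⟩ (Or.inr (by simp))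
    rw [e1, e2]
    exact full_range v hk (by omega) (fun x _ hx => ⟨by omega, Or.inr hca⟩)

end Vale.Agent.P310h2
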