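import Vale.Agent.P310h2.Mach5

namespace Vale.Agent.P310h2

open Function

open scoped Classical

variable {n k : ℕ}

theorem pair_lt' {a b C : ℕ} (ha : a < C) (hb : b < C) : Nat.pair a b < C ^ 2 := by
  have h1 := Nat.pair_lt_max_add_one_sq a b
  refine lt_of_lt_of_le h1 ?_
  exact Nat.pow_le_pow_left (by have := max_lt ha hb; omega) 2

theorem optCode_lt (c : Option (Fin n)) : optCode c < n + 1 := by
  cases c with
  | none => simp [optCode]
  | some v =>
    have := v.isLt
    simp only [optCode]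
    omega

/-- The base of all the bounds. -/
def baseA (n k : ℕ) : ℕ := n + 2 * k + 11

theorem baseA_ge (n k : ℕ) : 11 ≤ baseA n k := by
  unfold baseA
  omega

theorem lt_pow_of_lt {a A : ℕ} (h : a < A) (hA : 1 ≤ A) (e : ℕ) (he : 1 ≤ e) : a < A ^ e := by
  calc a < A := h
    _ = A ^ 1 := (pow_one A).symm
    _ ≤ A ^ e := Nat.pow_le_pow_right hA he

theorem mCode_lt (x : MNode n k) : mCode x < baseA n k ^ 9 := by
  have hA := baseA_ge n k
  have hA1 : 1 ≤ baseA n k := by omega
  cases x with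
  | lo =>
    simp only [mCode]
    exact lt_pow_of_lt (by omega) hA1 9 (by omega)
  | hi =>
    simp only [mCode]
    exact lt_pow_of_lt (by omega) hA1 9 (by omega)
  | cell j l c d =>
    simp only [mCode]
    have h1 : optCode c < baseA n k := by
      have := optCode_lt c
      unfold baseA
      omega
    have h2 : optCode d < baseA n k := by
      have := optCode_lt d
      unfold baseA
      omega
    have h3 : l.val < baseA n k := by
      have := l.isLt
      unfold baseA
      omega
    have h4 : j.val < baseA n k := by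
      have := j.isLt
      unfold baseA
      omega
    have e1 := pair_lt' h1 h2
    have e2 := pair_lt' (C := baseA n k ^ 2) (lt_pow_of_lt h3 hA1 2 (by omega)) e1
    have e3 := pair_lt' (C := (baseA n k ^ 2) ^ 2) (lt_pow_of_lt h4 hA1 4 (by omega) |>.trans_eq
      (by ring)) e2
    have e4 : ((baseA n k ^ 2) ^ 2) ^ 2 = baseA n k ^ 8 := by ring
    rw [e4] at e3
    have e5 : baseA n k ^ 9 = baseA n k * baseA n k ^ 8 := by ring
    have e6 : 1 ≤ baseA n k ^ 8 := Nat.one_le_pow _ _ (by omega)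
    rw [e5]
    nlinarith

theorem icode_lt {N : Type} {c : N → ℕ} {B : ℕ} (hB : 5 ≤ B) (hc : ∀ x, c x < B) (it : Item N) :
    Item.icode c it < B ^ 8 := by
  have hB1 : 1 ≤ B := by omega
  have e0 : ∀ y, y < B ^ 2 → ∀ a b : ℕ, a < B → b < B ^ 4 → b = Nat.pair a y → b < B ^ 4 := by
    intro _ _ _ _ _ h _
    exact h
  have k0 : ∀ a y z, a < B → y < B → z < B →
      Nat.pair a (Nat.pair y z) < B ^ 4 := by
    intro a y z h1 h2 h3
    have e1 := pair_lt' h2 h3
    have e2 := pair_lt' (C := B ^ 2) (lt_pow_of_lt h1 hB1 2 (by omega)) e1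
    have e3 : (B ^ 2) ^ 2 = B ^ 4 := by ring
    rwa [e3] at e2
  have k1 : ∀ t y, t < B → y < B ^ 4 → Nat.pair t y < B ^ 8 := by
    intro t y h1 h2
    have e2 := pair_lt' (C := B ^ 4) (lt_pow_of_lt h1 hB1 4 (by omega)) h2
    have e3 : (B ^ 4) ^ 2 = B ^ 8 := by ring
    rwa [e3] at e2
  cases it with
  | ev a b => exact k1 _ _ (by omega) (k0 _ _ _ (hc a) (hc b) (by omega))
  | vv a b => exact k1 _ _ (by omega) (k0 _ _ _ (hc a) (hc b) (by omega))
  | tl a p q => exact k1 _ _ (by omega) (k0 _ _ _ (hc a) (hc p) (hc q))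
  | tr p q b => exact k1 _ _ (by omega) (k0 _ _ _ (hc p) (hc q) (hc b))
  | un a b => exact k1 _ _ (by omega) (k0 _ _ _ (hc a) (hc b) (by omega))

theorem card_MNode : Nat.card (MNode n k) ≤ baseA n k ^ 5 := by
  have hA := baseA_ge n k
  let g : MNode n k → Option (Option (Fin (2 * k) × Fin (2 * k + 11) × Option (Fin n) × Option (Fin n))) :=
    fun x => match x with
      | .lo => none
      | .hi => some none
      | .cell j l c d => some (some (j, l, c, d))
  have hg : Injective g := by
    intro x y h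
    cases x <;> cases y <;> simp_all [g]
  have h1 := Nat.card_le_card_of_injective g hg
  simp only [Nat.card_eq_fintype_card, Fintype.card_option, Fintype.card_prod, Fintype.card_fin]
    at h1
  refine le_trans h1 ?_
  have h2 : 2 * k ≤ baseA n k := by unfold baseA; omega
  have h3 : 2 * k + 11 ≤ baseA n k := by unfold baseA; omega
  have h4 : n + 1 ≤ baseA n k := by unfold baseA; omega
  have h5 : 2 * k * ((2 * k + 11) * ((n + 1) * (n + 1))) ≤
      baseA n k * (baseA n k * (baseA n k * baseA n k)) :=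
    Nat.mul_le_mul h2 (Nat.mul_le_mul h3 (Nat.mul_le_mul h4 h4))
  have h6 : baseA n k ^ 5 = baseA n k * (baseA n k * (baseA n k * (baseA n k * baseA n k))) := by
    ring
  rw [h6]
  have h7 : 11 ≤ baseA n k * (baseA n k * baseA n k) := by nlinarith
  nlinarith

section

variable {N : Type} [Finite N] (S : Layered N)

theorem card_Item : Nat.card (Item N) ≤ 5 * Nat.card N ^ 3 := by
  let g : Item N → Fin 5 × N × N × N := fun c => match c with
    | .ev a b => ((0 : Fin 5), a, b, b)
    | .vv p q => ((1 : Fin 5), p, q, q)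
    | .tl a p q => ((2 : Fin 5), a, p, q)
    | .tr p q b => ((3 : Fin 5), p, q, b)
    | .un a b => ((4 : Fin 5), a, b, b)
  have hg : Injective g := by
    intro c c' h
    cases c <;> cases c' <;> simp_all [g]
  have h1 := Nat.card_le_card_of_injective g hg
  simp only [Nat.card_prod, Nat.card_eq_fintype_card (α := Fin 5), Fintype.card_fin] at h1
  refine le_trans h1 (le_of_eq ?_)
  ring

theorem card_Core : Nat.card S.Core ≤ 4 * Nat.card (Item N) := by
  let g : S.Core → Item N × Bool × Bool := fun x => (x.item, x.b1, x.b2)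
  have hg : Injective g := by
    intro x y h
    cases x; cases y; simp_all [g]
  have h1 := Nat.card_le_card_of_injective g hg
  simp only [Nat.card_prod, Nat.card_eq_fintype_card (α := Bool), Fintype.card_bool] at h1
  refine le_trans h1 (le_of_eq ?_)
  ring

theorem card_Vtx {W : ℕ} (hW : ∀ c, S.weight c ≤ W) : Nat.card S.Vtx ≤ Nat.card S.Core * (W + 1) := by
  let g : S.Vtx → S.Core × Fin (W + 1) := fun v =>
    (v.1.1, ⟨v.1.2, Nat.lt_succ_of_le (le_trans v.2 (hW _))⟩)
  have hg : Injective g := by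
    rintro ⟨⟨x, i⟩, hi⟩ ⟨⟨y, j⟩, hj⟩ h
    simp only [g, Prod.mk.injEq, Fin.mk.injEq] at h
    obtain ⟨rfl, rfl⟩ := h
    rfl
  have h1 := Nat.card_le_card_of_injective g hg
  simpa [Nat.card_prod] using h1

end

theorem machine_card (X : SimpleGraph (Fin n)) :
    Nat.card (machine X k).Vtx ≤ baseA n k ^ 110 := by
  have hA := baseA_ge n k
  set A := baseA n k with hAdef
  have hA1 : 1 ≤ A := by omega
  have hN : Nat.card (MNode n k) ≤ A ^ 5 := card_MNode
  have hI : Nat.card (Item (MNode n k)) ≤ 5 * (A ^ 5) ^ 3 :=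
    le_trans (card_Item (N := MNode n k)) (Nat.mul_le_mul_left _ (Nat.pow_le_pow_left hN 3))
  have hC : Nat.card (machine X k).Core ≤ A ^ 17 := by
    refine le_trans (card_Core _) ?_
    have h1 : 4 * Nat.card (Item (MNode n k)) ≤ 4 * (5 * (A ^ 5) ^ 3) := Nat.mul_le_mul_left _ hI
    refine le_trans h1 ?_
    have e : A ^ 17 = A * A * (A ^ 5) ^ 3 := by ring
    rw [e]
    have h2 : 20 ≤ A * A := by nlinarith
    have h3 : 4 * (5 * (A ^ 5) ^ 3) = 20 * (A ^ 5) ^ 3 := by ring
    rw [h3]
    exact Nat.mul_le_mul_right _ h2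
  have hicode : ∀ c : Item (MNode n k), Item.icode (machine X k).code c + 1 ≤ A ^ 72 := by
    intro c
    have h1 : Item.icode (machine X k).code c < (A ^ 9) ^ 8 :=
      icode_lt (B := A ^ 9) (lt_pow_of_lt (by omega) hA1 9 (by omega) |>.le) (fun x => mCode_lt x) c
    have e : (A ^ 9) ^ 8 = A ^ 72 := by ring
    rw [e] at h1
    omega
  have hAp : 2 ≤ A ^ 17 := le_trans (by omega) (Nat.le_self_pow (by omega) A)
  have hC2 : Nat.card (machine X k).Core + 2 ≤ A ^ 18 := by
    have e : A ^ 18 = A * A ^ 17 := by ring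
    rw [e]
    nlinarith
  have hW : ∀ c, (machine X k).weight c ≤ A ^ 18 * A ^ 72 := by
    intro c
    exact Nat.mul_le_mul hC2 (hicode c)
  have h1 := card_Vtx (machine X k) hW
  refine le_trans h1 ?_
  have e1 : A ^ 18 * A ^ 72 + 1 ≤ A ^ 91 := by
    have e : A ^ 91 = A * (A ^ 18 * A ^ 72) := by ring
    rw [e]
    have h3 : 1 ≤ A ^ 18 * A ^ 72 := Nat.mul_pos (Nat.pow_pos (by omega)) (Nat.pow_pos (by omega))
    nlinarith
  have e2 : A ^ 110 = A ^ 2 * (A ^ 17 * A ^ 91) := by ring
  rw [e2]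
  have h4 : Nat.card (machine X k).Core * (A ^ 18 * A ^ 72 + 1) ≤ A ^ 17 * A ^ 91 :=
    Nat.mul_le_mul hC e1
  have h5 : 1 ≤ A ^ 2 := Nat.one_le_pow _ _ (by omega)
  nlinarith

/-- The main theorem. -/
theorem main_theorem (X : SimpleGraph (Fin n)) (k : ℕ) (hk : 1 ≤ k) :
    ((∃ S : Finset (Fin n), X.IsNClique k S) ↔
      ¬ WLEquiv ((machine X k).graph false) ((machine X k).graph true) (2 * k + 1)) ∧
    Nat.card (machine X k).Vtx ≤ (n + 2 * k + 11) ^ 110 := by
  refine ⟨?_, machine_card X⟩
  rw [← conn_iff_clique hk]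
  exact (machine_nice hk).main_equiv (machine_nice hk)

end Vale.Agent.P310h2
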