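import Vale.Agent.P310h2.Defs

namespace Vale.Agent.P310h2

open Function

open scoped Classical

/-- Equal multisets of values give a bijection. -/
theorem exists_equiv_of_map_eq {α β γ : Type} [Fintype α] [Fintype β] (F : α → γ) (F' : β → γ)
    (h : Multiset.map F (Finset.univ : Finset α).val = Multiset.map F' (Finset.univ : Finset β).val) :
    ∃ σ : α ≃ β, ∀ a, F a = F' (σ a) := by
  have hcard : ∀ c : γ, Fintype.card {a // F a = c} = Fintype.card {b // F' b = c} := by
    intro c
    have h1 := congrArg (Multiset.count c) h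
    rw [Multiset.count_map, Multiset.count_map] at h1
    rw [Fintype.card_subtype, Fintype.card_subtype]
    simp only [Finset.card, Finset.filter_val]
    have e1 : Multiset.filter (fun a => F a = c) (Finset.univ : Finset α).val =
        Multiset.filter (fun a => c = F a) (Finset.univ : Finset α).val :=
      Multiset.filter_congr (fun _ _ => eq_comm)
    have e2 : Multiset.filter (fun a => F' a = c) (Finset.univ : Finset β).val =
        Multiset.filter (fun a => c = F' a) (Finset.univ : Finset β).val :=
      Multiset.filter_congr (fun _ _ => eq_comm)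
    rw [e1, e2]
    exact h1
  let τ : (Σ c, {a // F a = c}) ≃ (Σ c, {b // F' b = c}) :=
    Equiv.sigmaCongrRight (fun c => Fintype.equivOfCardEq (hcard c))
  refine ⟨(Equiv.sigmaFiberEquiv F).symm.trans (τ.trans (Equiv.sigmaFiberEquiv F')), ?_⟩
  intro a
  have h2 := (τ ⟨F a, ⟨a, rfl⟩⟩).2.2
  have h3 : (τ ⟨F a, ⟨a, rfl⟩⟩).1 = F a := rfl
  simp only [Equiv.trans_apply]
  change F a = F' ((τ ⟨F a, ⟨a, rfl⟩⟩).2.1)
  rw [h2, h3]

/-- A single bijection works in all rounds, when the colours refine each other. -/
theorem exists_stable_equiv {α β : Type} [Fintype α] [Fintype β] {C : ℕ → Type}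
    (F : (r : ℕ) → α → C r) (F' : (r : ℕ) → β → C r)
    (hmono : ∀ r a b, F (r + 1) a = F' (r + 1) b → F r a = F' r b)
    (h : ∀ r, Multiset.map (F r) (Finset.univ : Finset α).val =
      Multiset.map (F' r) (Finset.univ : Finset β).val) :
    ∃ σ : α ≃ β, ∀ r a, F r a = F' r (σ a) := by
  choose f hf using fun r => exists_equiv_of_map_eq (F r) (F' r) (h r)
  obtain ⟨σ, hσ⟩ := Finite.exists_infinite_fiber f
  have hinf : (f ⁻¹' {σ}).Infinite := Set.infinite_coe_iff.1 hσ
  refine ⟨σ, ?_⟩
  have hdown : ∀ r' r a b, r ≤ r' → F r' a = F' r' b → F r a = F' r b := by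
    intro r' r a b hle
    induction r', hle using Nat.le_induction with
    | base => exact id
    | succ n _ ih => exact fun h2 => ih (hmono n a b h2)
  intro r a
  obtain ⟨r', hr', hlt⟩ := hinf.exists_gt r
  have e : f r' = σ := hr'
  have := hf r' a
  rw [e] at this
  exact hdown r' r a (σ a) hlt.le this

section

variable {V W : Type} [Fintype V] [Fintype W] {G : SimpleGraph V} {H : SimpleGraph W} {m : ℕ}

/-- Two tuples have equal colours in all rounds. -/
def EqvAll (G : SimpleGraph V) (H : SimpleGraph W) (x : Fin m → V) (y : Fin m → W) : Prop :=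
  ∀ r, wlColor G r x = wlColor H r y

theorem wlColor_succ_fst {r : ℕ} {x : Fin m → V} {y : Fin m → W}
    (h : wlColor G (r + 1) x = wlColor H (r + 1) y) : wlColor G r x = wlColor H r y :=
  congrArg Prod.fst h

/-- All tuples can be matched. -/
theorem exists_tuple_equiv (h : WLEquiv G H m) :
    ∃ σ : (Fin m → V) ≃ (Fin m → W), ∀ x, EqvAll G H x (σ x) := by
  obtain ⟨σ, hσ⟩ := exists_stable_equiv (fun r => wlColor G (m := m) r)
    (fun r => wlColor H (m := m) r) (fun r a b h2 => wlColor_succ_fst h2) h
  exact ⟨σ, fun x r => hσ r x⟩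

/-- The bijective step of the pebble game. -/
theorem EqvAll.step {x : Fin m → V} {y : Fin m → W} (h : EqvAll G H x y) :
    ∃ f : V ≃ W, ∀ v i, EqvAll G H (update x i v) (update y i (f v)) := by
  obtain ⟨σ, hσ⟩ := exists_stable_equiv
    (fun r (v : V) => fun i => wlColor G r (update x i v))
    (fun r (v : W) => fun i => wlColor H r (update y i v))
    (by
      intro r a b h2
      funext i
      exact wlColor_succ_fst (congrFun h2 i))
    (by
      intro r
      exact congrArg Prod.snd (h (r + 1)))
  exact ⟨σ, fun v i r => congrFun (hσ r v) i⟩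

theorem EqvAll.eq_iff {x : Fin m → V} {y : Fin m → W} (h : EqvAll G H x y) (i j : Fin m) :
    x i = x j ↔ y i = y j := by
  have := congrFun (congrFun (h 0) i) j
  have h2 := congrArg Prod.fst this
  simp only [wlColor] at h2
  exact iff_of_eq h2

theorem EqvAll.adj_iff {x : Fin m → V} {y : Fin m → W} (h : EqvAll G H x y) (i j : Fin m) :
    G.Adj (x i) (x j) ↔ H.Adj (y i) (y j) := by
  have := congrFun (congrFun (h 0) i) j
  have h2 := congrArg Prod.snd this
  simp only [wlColor] at h2
  exact iff_of_eq h2

/-- The degree of a vertex. -/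
noncomputable def dg (G : SimpleGraph V) (v : V) : ℕ := Nat.card {w // G.Adj v w}

/-- Placing a new pair with the step: adjacency to all old entries is preserved, the degree too. -/
theorem EqvAll.place (hm : 2 ≤ m) {x : Fin m → V} {y : Fin m → W} (h : EqvAll G H x y)
    (i : Fin m) (v : V) : ∃ v' : W, EqvAll G H (update x i v) (update y i v') ∧
      (∀ j, G.Adj v (x j) ↔ H.Adj v' (y j)) ∧ dg G v = dg H v' := by
  obtain ⟨f, hf⟩ := h.step
  have hother : ∀ j : Fin m, ∃ j' : Fin m, j' ≠ j := by
    intro j
    by_cases e : j.val = 0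
    · exact ⟨⟨1, by omega⟩, fun h' => by have := congrArg Fin.val h'; simp at this; omega⟩
    · exact ⟨⟨0, by omega⟩, fun h' => by have := congrArg Fin.val h'; simp at this; omega⟩
  refine ⟨f v, hf v i, ?_, ?_⟩
  · intro j
    obtain ⟨j', hj'⟩ := hother j
    have := (hf v j').adj_iff j' j
    simpa [update_of_ne hj'.symm] using this
  · obtain ⟨f2, hf2⟩ := (hf v i).step
    obtain ⟨i', hi'⟩ := hother i
    have key : ∀ w, G.Adj v w ↔ H.Adj (f v) (f2 w) := by
      intro w
      have := (hf2 w i').adj_iff i i'
      simpa [update_of_ne hi'.symm, update_of_ne hi', update_self] using this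
    exact Nat.card_congr (Equiv.subtypeEquiv f2 key)

theorem EqvAll.dg_eq (hm : 2 ≤ m) {x : Fin m → V} {y : Fin m → W} (h : EqvAll G H x y)
    (i : Fin m) : dg G (x i) = dg H (y i) := by
  obtain ⟨f2, hf2⟩ := h.step
  have hother : ∃ j' : Fin m, j' ≠ i := by
    by_cases e : i.val = 0
    · exact ⟨⟨1, by omega⟩, fun h' => by have := congrArg Fin.val h'; simp at this; omega⟩
    · exact ⟨⟨0, by omega⟩, fun h' => by have := congrArg Fin.val h'; simp at this; omega⟩
  obtain ⟨i', hi'⟩ := hother
  have key : ∀ w, G.Adj (x i) w ↔ H.Adj (y i) (f2 w) := by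
    intro w
    have := (hf2 w i').adj_iff i i'
    simpa [update_of_ne hi'.symm, update_self] using this
  exact Nat.card_congr (Equiv.subtypeEquiv f2 key)

end

end Vale.Agent.P310h2
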