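import Vale.Agent.P310h2.Dup
import Vale.Agent.P310h2.WLGen

namespace Vale.Agent.P310h2

open Function Relation

open scoped Classical

theorem xor_aux8 (a b c d : Bool) (h : xor c d = xor a b) : xor b d = xor a c := by
  revert a b c d; decide

namespace Item

variable {N : Type}

theorem icode_inj {c : N → ℕ} (hc : Injective c) : Injective (icode c) := by
  intro x y h
  cases x <;> cases y <;> simp only [icode, Nat.pair_eq_pair] at h <;>
    first
    | omega
    | (obtain ⟨_, h1, h2, h3⟩ := h
       first
       | (rw [hc h1, hc h2, hc h3])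
       | (rw [hc h1, hc h2]))

end Item

namespace Layered

variable {N : Type} {S : Layered N} {pos lab : N → ℕ} {T0 : ℕ}

section degrees

variable [Finite N]

/-- A solution seen as a vertex. -/
def mkV (x : S.Core) : S.Vtx := ⟨(x, 0), Nat.zero_le _⟩

omit [Finite N] in
theorem mkV_adj (tw : Bool) (x y : S.Core) :
    (S.graph tw).Adj (mkV x) (mkV y) ↔ S.coreAdj tw x y := by
  constructor
  · rintro (⟨_, _, h⟩ | ⟨_, h | h⟩)
    · exact h
    · exact (h.2 rfl).elim
    · exact (h.1 rfl).elim
  · intro h
    exact Or.inl ⟨rfl, rfl, h⟩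

theorem weight_ge (c : Item N) : 2 ≤ S.weight c := by
  unfold weight
  nlinarith [Nat.zero_le (Nat.card S.Core), Nat.zero_le (Item.icode S.code c)]

/-- Degree bounds of solutions. -/
theorem dg_core_ge (tw : Bool) (x : S.Core) : S.weight x.item ≤ dg (S.graph tw) (mkV x) := by
  unfold dg
  let g : Fin (S.weight x.item) → {w // (S.graph tw).Adj (mkV x) w} := fun i =>
    ⟨⟨(x, i.val + 1), by exact i.isLt⟩, Or.inr ⟨rfl, Or.inl ⟨rfl, by simp⟩⟩⟩
  have hg : Injective g := by
    intro i j h
    have h1 := congrArg (fun w => w.1.1.2) h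
    simp only [g] at h1
    exact Fin.ext (by omega)
  have := Nat.card_le_card_of_injective g hg
  simpa using this

theorem dg_core_lt (tw : Bool) (x : S.Core) :
    dg (S.graph tw) (mkV x) < S.weight x.item + (Nat.card S.Core + 2) := by
  unfold dg
  let g : {w // (S.graph tw).Adj (mkV x) w} → Fin (S.weight x.item) ⊕ S.Core := fun w =>
    if h : w.1.1.2 = 0 then Sum.inr w.1.1.1
    else Sum.inl ⟨w.1.1.2 - 1, by
      have h1 := w.1.2
      rcases w.2 with ⟨_, h2, _⟩ | ⟨h2, _⟩
      · exact (h h2).elim
      · have h3 : x = w.1.1.1 := h2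
        rw [← h3] at h1
        omega⟩
  have hg : Injective g := by
    rintro ⟨w, hw⟩ ⟨w', hw'⟩ h
    apply Subtype.ext
    apply Subtype.ext
    simp only [g] at h
    by_cases h1 : w.1.2 = 0 <;> by_cases h2 : w'.1.2 = 0
    · rw [dif_pos h1, dif_pos h2] at h
      apply Prod.ext
      · exact Sum.inr.inj h
      · rw [h1, h2]
    · rw [dif_pos h1, dif_neg h2] at h
      exact (Sum.inr_ne_inl h).elim
    · rw [dif_neg h1, dif_pos h2] at h
      exact (Sum.inl_ne_inr h).elim
    · rw [dif_neg h1, dif_neg h2] at h
      have h3 : w.1.2 - 1 = w'.1.2 - 1 := congrArg Fin.val (Sum.inl.inj h)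
      apply Prod.ext
      · rcases hw with ⟨_, h4, _⟩ | ⟨h4, _⟩
        · exact (h1 h4).elim
        rcases hw' with ⟨_, h5, _⟩ | ⟨h5, _⟩
        · exact (h2 h5).elim
        exact (h4.symm.trans h5)
      · show w.1.2 = w'.1.2
        omega
  have h1 := Nat.card_le_card_of_injective g hg
  rw [Nat.card_sum] at h1
  simp only [Nat.card_eq_fintype_card, Fintype.card_fin] at h1
  simp only [Nat.card_eq_fintype_card] at h1 ⊢
  omega

theorem dg_leaf_le (tw : Bool) (v : S.Vtx) (hv : v.1.2 ≠ 0) : dg (S.graph tw) v ≤ 1 := by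
  unfold dg
  rw [Finite.card_le_one_iff_subsingleton]
  constructor
  rintro ⟨w, hw⟩ ⟨w', hw'⟩
  apply Subtype.ext
  apply Subtype.ext
  rcases hw with ⟨h, _⟩ | ⟨h1, h2 | h2⟩
  · exact (hv h).elim
  · exact (hv h2.1).elim
  rcases hw' with ⟨h, _⟩ | ⟨h1', h2' | h2'⟩
  · exact (hv h).elim
  · exact (hv h2'.1).elim
  apply Prod.ext
  · exact h1.symm.trans h1'
  · rw [h2.2, h2'.2]

/-- Equal degree forces the same class, for solutions. -/
theorem class_of_dg (hc : Injective S.code) {tw tw' : Bool} (x : S.Core) (v : S.Vtx)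
    (h : dg (S.graph tw) (mkV x) = dg (S.graph tw') v) :
    ∃ y : S.Core, v = mkV y ∧ y.item = x.item := by
  have h1 := dg_core_ge tw x
  have h2 := dg_core_lt tw x
  have h3 : 2 ≤ S.weight x.item := weight_ge _
  by_cases hv : v.1.2 = 0
  · have hvv : v = mkV v.1.1 := by
      apply Subtype.ext
      apply Prod.ext
      · rfl
      · exact hv
    refine ⟨v.1.1, hvv, ?_⟩
    have h4 := dg_core_ge tw' v.1.1
    have h5 := dg_core_lt tw' v.1.1
    rw [← hvv] at h4 h5
    apply Item.icode_inj hc
    set D := Nat.card S.Core + 2 with hD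
    have hDpos : 0 < D := by omega
    have e1 : S.weight x.item = D * (Item.icode S.code x.item + 1) := rfl
    have e2 : S.weight v.1.1.item = D * (Item.icode S.code v.1.1.item + 1) := rfl
    rw [e1] at h1 h2
    rw [e2] at h4 h5
    rw [← h] at h4 h5
    generalize Item.icode S.code x.item = A at *
    generalize Item.icode S.code v.1.1.item = B at *
    generalize dg (S.graph tw) (mkV x) = n at *
    have : A = B := by
      rcases Nat.lt_trichotomy A B with h6 | h6 | h6
      · exfalso
        have : D * (A + 2) ≤ D * (B + 1) := Nat.mul_le_mul_left D (by omega)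
        have e3 : D * (A + 2) = D * (A + 1) + D := by ring
        omega
      · exact h6
      · exfalso
        have : D * (B + 2) ≤ D * (A + 1) := Nat.mul_le_mul_left D (by omega)
        have e3 : D * (B + 2) = D * (B + 1) + D := by ring
        omega
    exact this.symm
  · have := dg_leaf_le tw' v hv
    omega

end degrees

section walk

variable [Finite N]

/-- The solution of a variable of an edge with a given value. -/
def evC {a b : N} (h : S.E a b) (v : Bool) : S.Core where
  item := .ev a b
  b1 := v
  b2 := false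
  ok := h
  dof1 := by simp [Item.free]
  dof2 := by simp

/-- The tuple holding a word, with values `α`. -/
def tupleOf (w : ℕ → N) (hw : S.IsWord w) (α : Fin S.m → Bool) : Fin S.m → S.Vtx :=
  fun g => mkV (evC (hw.2.2 g g.2) (α g))

/-- The parity of a family of bits. -/
def par {m : ℕ} (α : Fin m → Bool) : ZMod 2 := ∑ g, (if α g then 1 else 0)

theorem par_two {m : ℕ} (α : Fin m → Bool) {g1 g2 : Fin m} (hne : g1 ≠ g2) (a b : Bool)
    (h : xor a b = xor (α g1) (α g2)) : par (update (update α g1 a) g2 b) = par α := by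
  unfold par
  have h1 := Finset.add_sum_erase (Finset.univ : Finset (Fin m))
    (fun g => if (update (update α g1 a) g2 b) g then (1 : ZMod 2) else 0) (Finset.mem_univ g1)
  have h2 := Finset.add_sum_erase (Finset.univ : Finset (Fin m))
    (fun g => if α g then (1 : ZMod 2) else 0) (Finset.mem_univ g1)
  have hm2 : g2 ∈ (Finset.univ : Finset (Fin m)).erase g1 :=
    Finset.mem_erase.2 ⟨hne.symm, Finset.mem_univ _⟩
  have h3 := Finset.add_sum_erase _
    (fun g => if (update (update α g1 a) g2 b) g then (1 : ZMod 2) else 0) hm2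
  have h4 := Finset.add_sum_erase _
    (fun g => if α g then (1 : ZMod 2) else 0) hm2
  have e : ∑ x ∈ ((Finset.univ : Finset (Fin m)).erase g1).erase g2,
      (if (update (update α g1 a) g2 b) x then (1 : ZMod 2) else 0) =
      ∑ x ∈ ((Finset.univ : Finset (Fin m)).erase g1).erase g2,
      (if α x then (1 : ZMod 2) else 0) := by
    apply Finset.sum_congr rfl
    intro x hx
    have hx2 : x ≠ g2 := (Finset.mem_erase.1 hx).1
    have hx1 : x ≠ g1 := (Finset.mem_erase.1 (Finset.mem_erase.1 hx).2).1
    rw [update_of_ne hx2, update_of_ne hx1]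
  rw [← h1, ← h2, ← h3, ← h4, e]
  simp only [update_self, update_of_ne hne]
  have key : ∀ x y x' y' : Bool, xor x y = xor x' y' →
      (if x then (1 : ZMod 2) else 0) + (if y then (1 : ZMod 2) else 0) =
        (if x' then (1 : ZMod 2) else 0) + (if y' then (1 : ZMod 2) else 0) := by
    decide
  have h5 := key a b _ _ h
  rw [← add_assoc, ← add_assoc, h5]

/-- The solution with zero bits of an equation `tl`. -/
def tlC {a p q : N} (h : S.valid (.tl a p q)) : S.Core where
  item := .tl a p q
  b1 := false
  b2 := false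
  ok := h
  dof1 := fun _ => rfl
  dof2 := fun _ => rfl

/-- The solution with zero bits of an equation `tr`. -/
def trC {p q b : N} (h : S.valid (.tr p q b)) : S.Core where
  item := .tr p q b
  b1 := false
  b2 := false
  ok := h
  dof1 := fun _ => rfl
  dof2 := fun _ => rfl

/-- The solution of an equation `un`. -/
def unC {a b : N} (h : S.valid (.un a b)) : S.Core where
  item := .un a b
  b1 := false
  b2 := false
  ok := h
  dof1 := fun _ => rfl
  dof2 := fun _ => rfl

omit [Finite N] in
theorem val_zero (x : S.Core) (h1 : x.b1 = false) (h2 : x.b2 = false) (d : N × N) :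
    x.val false d = false := by
  obtain ⟨it, b1, b2, ok, dof1, dof2⟩ := x
  simp only at h1 h2
  subst h1 h2
  cases it <;> simp [Core.val]

omit [Finite N] in
theorem zero_adj (x y : S.Core) (h1 : x.b1 = false) (h2 : x.b2 = false) (h3 : y.b1 = false)
    (h4 : y.b2 = false) (hne : x.item ≠ y.item) : S.coreAdj false x y :=
  ⟨hne, fun d _ _ => by rw [val_zero x h1 h2, val_zero y h3 h4]⟩

omit [Finite N] in
theorem val_ev (tw : Bool) {x : S.Core} {a b : N} (h : x.item = .ev a b) (d : N × N) :
    x.val tw d = x.b1 := by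
  simp [Core.val, h]

omit [Finite N] in
theorem val_vv (tw : Bool) {x : S.Core} {a b : N} (h : x.item = .vv a b) (d : N × N) :
    x.val tw d = x.b1 := by
  simp [Core.val, h]

omit [Finite N] in
theorem val_un (tw : Bool) {x : S.Core} {a b : N} (h : x.item = .un a b) (d : N × N) :
    x.val tw d = (tw && decide ((a, b) = S.star)) := by
  simp [Core.val, h]

omit [Finite N] in
theorem val_tl1 (tw : Bool) {x : S.Core} {a p q : N} (h : x.item = .tl a p q) :
    x.val tw (a, p) = x.b1 := by
  simp [Core.val, h]

omit [Finite N] in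
theorem val_tl2 (tw : Bool) {x : S.Core} {a p q : N} (h : x.item = .tl a p q) (hne : p ≠ q) :
    x.val tw (a, q) = x.b2 := by
  simp [Core.val, h, hne.symm]

omit [Finite N] in
theorem val_tl3 (tw : Bool) {x : S.Core} {a p q : N} (h : x.item = .tl a p q) (hne : p ≠ a) :
    x.val tw (p, q) = xor x.b1 x.b2 := by
  simp [Core.val, h, hne]

omit [Finite N] in
theorem val_tr1 (tw : Bool) {x : S.Core} {p q b : N} (h : x.item = .tr p q b) :
    x.val tw (p, b) = x.b1 := by
  simp [Core.val, h]

omit [Finite N] in
theorem val_tr2 (tw : Bool) {x : S.Core} {p q b : N} (h : x.item = .tr p q b) (hne : p ≠ q) :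
    x.val tw (q, b) = x.b2 := by
  simp [Core.val, h, hne.symm]

omit [Finite N] in
theorem val_tr3 (tw : Bool) {x : S.Core} {p q b : N} (h : x.item = .tr p q b) (hne : p ≠ q)
    (hne2 : q ≠ b) : x.val tw (p, q) = xor x.b1 x.b2 := by
  simp [Core.val, h, hne, hne2]

omit [Finite N] in
theorem core_ev {x : S.Core} {a b : N} (h : x.item = .ev a b) (hE : S.E a b) :
    x = evC hE x.b1 := by
  apply Core.ext'
  · exact h
  · rfl
  · exact x.dof2 (by rw [h]; simp [Item.free])

omit [Finite N] in
theorem core_un {x : S.Core} {a b : N} (h : x.item = .un a b) (hv : S.valid (.un a b)) :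
    x = unC hv := by
  apply Core.ext'
  · exact h
  · exact x.dof1 (by rw [h]; rfl)
  · exact x.dof2 (by rw [h]; simp [Item.free])

omit [Finite N] in
theorem mkV_evC_congr {a b a' b' : N} {h : S.E a b} {h' : S.E a' b'} {v v' : Bool}
    (e1 : a = a') (e2 : b = b') (e3 : v = v') : mkV (evC h v) = mkV (evC h' v') := by
  subst e1 e2 e3
  rfl

namespace Nice

variable (hS : S.Nice pos lab T0)
include hS

/-- Placing a solution on an entry. -/
theorem place_core {x y : Fin S.m → S.Vtx} (h : EqvAll (S.graph false) (S.graph true) x y)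
    (i : Fin S.m) (z : S.Core) : ∃ z' : S.Core, z'.item = z.item ∧
      EqvAll (S.graph false) (S.graph true) (update x i (mkV z)) (update y i (mkV z')) ∧
      ∀ j, (S.graph false).Adj (mkV z) (x j) ↔ (S.graph true).Adj (mkV z') (y j) := by
  obtain ⟨v', h1, h2, h3⟩ := h.place hS.m_ge i (mkV z)
  obtain ⟨z', rfl, h5⟩ := class_of_dg hS.code_inj z v' h3
  exact ⟨z', h5, h1, h2⟩

theorem adj_extract {x y : S.Core} (h : S.coreAdj true x y) {d : N × N} (h1 : d ∈ x.item.vars)
    (h2 : d ∈ y.item.vars) : x.val true d = y.val true d := h.2 d h1 h2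

/-- One move of the word. -/
theorem walk_step {w w1 : ℕ → N} (hw : S.IsWord w) (hw1 : S.IsWord w1) {i : ℕ} (hi : i + 1 < S.m)
    (hagree : ∀ j, j ≤ S.m → j ≠ i + 1 → w j = w1 j) (hV : S.Vert (w (i + 1)) (w1 (i + 1)))
    {α : Fin S.m → Bool}
    (h : EqvAll (S.graph false) (S.graph true) (tupleOf w hw (fun _ => false)) (tupleOf w hw α)) :
    ∃ α1, EqvAll (S.graph false) (S.graph true) (tupleOf w1 hw1 (fun _ => false))
      (tupleOf w1 hw1 α1) ∧ par α1 = par α := by
  have hap : S.E (w i) (w (i + 1)) := hw.2.2 i (by omega)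
  have hap' : S.E (w i) (w1 (i + 1)) := by
    rw [hagree i (by omega) (by omega)]
    exact hw1.2.2 i (by omega)
  have hpb : S.E (w (i + 1)) (w (i + 2)) := hw.2.2 (i + 1) hi
  have hp'b : S.E (w1 (i + 1)) (w (i + 2)) := by
    rw [hagree (i + 2) (by omega) (by omega)]
    exact hw1.2.2 (i + 1) hi
  have hpp' := hS.V_ne hV
  let g1 : Fin S.m := ⟨i, by omega⟩
  let g2 : Fin S.m := ⟨i + 1, hi⟩
  have hg : g1 ≠ g2 := by
    intro e
    have := congrArg Fin.val e
    simp [g1, g2] at this
  have hane : w (i + 1) ≠ w i := (hS.ne_of_E hap).symm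
  have hane' : w1 (i + 1) ≠ w (i + 2) := hS.ne_of_E hp'b
  have vtl : S.valid (.tl (w i) (w (i + 1)) (w1 (i + 1))) := ⟨hap, hap', hV⟩
  have vtr : S.valid (.tr (w (i + 1)) (w1 (i + 1)) (w (i + 2))) := ⟨hpb, hp'b, hV⟩
  -- step 1
  obtain ⟨z, hz, h1, h1a⟩ := hS.place_core h g1 (tlC vtl)
  have hz' : z.item = .tl (w i) (w (i + 1)) (w1 (i + 1)) := hz
  have e1 : z.b1 = α g1 := by
    have h0 : S.coreAdj false (tlC vtl) (evC hap false) :=
      zero_adj _ _ rfl rfl rfl rfl (fun e => by cases e)
    have h0' := (h1a g1).1 ((mkV_adj _ _ _).2 h0)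
    have h0'' : S.coreAdj true z (evC hap (α g1)) := (mkV_adj _ _ _).1 h0'
    have := hS.adj_extract h0'' (d := (w i, w (i + 1))) (by rw [hz']; exact Or.inl rfl) rfl
    rw [val_tl1 true hz', val_ev true (x := evC hap (α g1)) rfl] at this
    exact this
  -- step 2
  obtain ⟨z2, hz2, h2, h2a⟩ := hS.place_core h1 g2 (trC vtr)
  have hz2' : z2.item = .tr (w (i + 1)) (w1 (i + 1)) (w (i + 2)) := hz2
  have e2 : z2.b1 = α g2 := by
    have h0 : S.coreAdj false (trC vtr) (evC hpb false) :=
      zero_adj _ _ rfl rfl rfl rfl (fun e => by cases e)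
    have h0' := (h2a g2)
    rw [update_of_ne hg.symm, update_of_ne hg.symm] at h0'
    have h0'' : S.coreAdj true z2 (evC hpb (α g2)) :=
      (mkV_adj _ _ _).1 (h0'.1 ((mkV_adj _ _ _).2 h0))
    have := hS.adj_extract h0'' (d := (w (i + 1), w (i + 2))) (by rw [hz2']; exact Or.inl rfl) rfl
    rw [val_tr1 true hz2', val_ev true (x := evC hpb (α g2)) rfl] at this
    exact this
  have e3 : xor z2.b1 z2.b2 = xor z.b1 z.b2 := by
    have h0 : S.coreAdj false (trC vtr) (tlC vtl) :=
      zero_adj _ _ rfl rfl rfl rfl (fun e => by cases e)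
    have h0' := (h2a g1)
    rw [update_self, update_self] at h0'
    have h0'' : S.coreAdj true z2 z := (mkV_adj _ _ _).1 (h0'.1 ((mkV_adj _ _ _).2 h0))
    have := hS.adj_extract h0'' (d := (w (i + 1), w1 (i + 1)))
      (by rw [hz2']; exact Or.inr (Or.inr rfl)) (by rw [hz']; exact Or.inr (Or.inr rfl))
    rw [val_tr3 true hz2' hpp' hane', val_tl3 true hz' hane] at this
    exact this
  -- step 3
  obtain ⟨v3, hv3, h3, h3a⟩ := hS.place_core h2 g1 (evC hap' false)
  have hv3' : v3.item = .ev (w i) (w1 (i + 1)) := hv3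
  have e4 : v3.b1 = z.b2 := by
    have h0 : S.coreAdj false (evC hap' false) (tlC vtl) :=
      zero_adj _ _ rfl rfl rfl rfl (fun e => by cases e)
    have h0' := (h3a g1)
    rw [update_of_ne hg, update_of_ne hg, update_self, update_self] at h0'
    have h0'' : S.coreAdj true v3 z := (mkV_adj _ _ _).1 (h0'.1 ((mkV_adj _ _ _).2 h0))
    have := hS.adj_extract h0'' (d := (w i, w1 (i + 1)))
      (by rw [hv3']; rfl) (by rw [hz']; exact Or.inr (Or.inl rfl))
    rw [val_ev true hv3', val_tl2 true hz' hpp'] at this
    exact this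
  -- step 4
  obtain ⟨v4, hv4, h4, h4a⟩ := hS.place_core h3 g2 (evC hp'b false)
  have hv4' : v4.item = .ev (w1 (i + 1)) (w (i + 2)) := hv4
  have e5 : v4.b1 = z2.b2 := by
    have h0 : S.coreAdj false (evC hp'b false) (trC vtr) :=
      zero_adj _ _ rfl rfl rfl rfl (fun e => by cases e)
    have h0' := (h4a g2)
    rw [update_of_ne hg.symm, update_of_ne hg.symm, update_self, update_self] at h0'
    have h0'' : S.coreAdj true v4 z2 := (mkV_adj _ _ _).1 (h0'.1 ((mkV_adj _ _ _).2 h0))
    have := hS.adj_extract h0'' (d := (w1 (i + 1), w (i + 2)))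
      (by rw [hv4']; rfl) (by rw [hz2']; exact Or.inr (Or.inl rfl))
    rw [val_ev true hv4', val_tr2 true hz2' hpp'] at this
    exact this
  refine ⟨update (update α g1 v3.b1) g2 v4.b1, ?_, ?_⟩
  · -- the final tuples
    have ex : tupleOf w1 hw1 (fun _ => false) =
        update (update (update (update (tupleOf w hw (fun _ => false)) g1 (mkV (tlC vtl))) g2
          (mkV (trC vtr))) g1 (mkV (evC hap' false))) g2 (mkV (evC hp'b false)) := by
      funext g
      by_cases g2e : g = g2
      · subst g2e
        rw [update_self]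
        exact mkV_evC_congr (rfl) (hagree (i + 2) (by omega) (by omega)).symm rfl
      · rw [update_of_ne g2e]
        by_cases g1e : g = g1
        · subst g1e
          rw [update_self]
          exact mkV_evC_congr (hagree i (by omega) (by omega)).symm rfl rfl
        · rw [update_of_ne g1e, update_of_ne g2e, update_of_ne g1e]
          have hne1 : g.val ≠ i := fun e => g1e (Fin.ext e)
          have hne2 : g.val ≠ i + 1 := fun e => g2e (Fin.ext e)
          exact mkV_evC_congr (hagree g.val g.isLt.le hne2).symm
            (hagree (g.val + 1) g.isLt (by omega)).symm rfl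
    have ey : tupleOf w1 hw1 (update (update α g1 v3.b1) g2 v4.b1) =
        update (update (update (update (tupleOf w hw α) g1 (mkV z)) g2
          (mkV z2)) g1 (mkV v3)) g2 (mkV v4) := by
      funext g
      by_cases g2e : g = g2
      · rw [g2e, update_self]
        refine Eq.trans ?_ (congrArg mkV (core_ev hv4' hp'b)).symm
        exact mkV_evC_congr rfl (hagree (i + 2) (by omega) (by omega)).symm (update_self ..)
      · rw [update_of_ne g2e]
        by_cases g1e : g = g1
        · rw [g1e, update_self]
          refine Eq.trans ?_ (congrArg mkV (core_ev hv3' hap')).symm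
          refine mkV_evC_congr (hagree i (by omega) (by omega)).symm rfl ?_
          rw [update_of_ne hg, update_self]
        · rw [update_of_ne g1e, update_of_ne g2e, update_of_ne g1e]
          have hne1 : g.val ≠ i := fun e => g1e (Fin.ext e)
          have hne2 : g.val ≠ i + 1 := fun e => g2e (Fin.ext e)
          refine mkV_evC_congr (hagree g.val g.isLt.le hne2).symm
            (hagree (g.val + 1) g.isLt (by omega)).symm ?_
          rw [update_of_ne g2e, update_of_ne g1e]
    rw [ex, ey]
    exact h4
  · apply par_two _ hg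
    rw [e4, e5, ← e1, ← e2]
    exact xor_aux8 _ _ _ _ e3

/-- On the special words the values are those fixed by the unary equations. -/
theorem unary_bits {τ : Bool} {w : ℕ → N} (hwτ : w = S.bw τ) (hw : S.IsWord w) {α : Fin S.m → Bool}
    (h : EqvAll (S.graph false) (S.graph true) (tupleOf w hw (fun _ => false)) (tupleOf w hw α))
    (g : Fin S.m) : α g = decide ((w g, w (g + 1)) = S.star) := by
  have hv : S.valid (.un (w g) (w (g + 1))) := by
    refine ⟨g, g.2, ?_⟩
    rw [hwτ]
    cases τ
    · exact Or.inl rfl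
    · exact Or.inr rfl
  obtain ⟨z, hz, _, hza⟩ := hS.place_core h g (unC hv)
  have hz' : z = unC hv := core_un hz hv
  subst hz'
  have h0 : S.coreAdj false (unC hv) (evC (hw.2.2 g g.2) false) :=
    zero_adj _ _ rfl rfl rfl rfl (fun e => by cases e)
  have h0'' : S.coreAdj true (unC hv) (evC (hw.2.2 g g.2) (α g)) :=
    (mkV_adj _ _ _).1 ((hza g).1 ((mkV_adj _ _ _).2 h0))
  have := hS.adj_extract h0'' (d := (w g, w (g + 1))) rfl rfl
  rw [val_un true (x := unC hv) rfl, val_ev true (x := evC (hw.2.2 g g.2) (α g)) rfl] at this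
  have h5 : (true && decide ((w g, w (g + 1)) = S.star)) = α g := this
  simpa using h5.symm

/-- The Spoiler direction: if `s` and `t` are connected, the graphs are not equivalent. -/
theorem spoil (hst : S.Conn S.s S.t) : ¬ WLEquiv (S.graph false) (S.graph true) S.m := by
  intro hWL
  have hm := hS.m_ge
  have hstne : S.s 1 ≠ S.t 1 := by
    intro e
    have h1 := hS.lab_s 1 (by omega) (by omega)
    have h2 := hS.lab_t 1 (by omega) (by omega)
    have h3 := hS.T_big
    rw [e] at h1
    omega
  have inv : ∀ w, S.Conn S.s w → ∃ (hw : S.IsWord w) (α : Fin S.m → Bool),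
      EqvAll (S.graph false) (S.graph true) (tupleOf w hw (fun _ => false)) (tupleOf w hw α) ∧
        par α = 0 := by
    intro w hc
    induction hc with
    | refl =>
      obtain ⟨σ, hσ⟩ := exists_tuple_equiv hWL
      have hx := hσ (tupleOf S.s hS.s_word (fun _ => false))
      have hcl : ∀ g : Fin S.m, ∃ b : Bool, σ (tupleOf S.s hS.s_word (fun _ => false)) g =
          mkV (evC (hS.s_word.2.2 g g.2) b) := by
        intro g
        have h1 := hx.dg_eq hm g
        obtain ⟨z, h2, h3⟩ := class_of_dg hS.code_inj _ _ h1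
        have h4 : z.item = .ev (S.s g) (S.s (g + 1)) := h3
        refine ⟨z.b1, ?_⟩
        rw [h2]
        exact congrArg mkV (core_ev h4 _)
      choose α hα using hcl
      have hy : σ (tupleOf S.s hS.s_word (fun _ => false)) = tupleOf S.s hS.s_word α := by
        funext g
        exact hα g
      rw [hy] at hx
      refine ⟨hS.s_word, α, hx, ?_⟩
      have hzero : ∀ g, α g = false := by
        intro g
        rw [hS.unary_bits (τ := false) rfl hS.s_word hx g]
        rw [decide_eq_false]
        intro e
        have e1 : S.s g = S.lo := congrArg Prod.fst e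
        have e2 : S.s (g + 1) = S.t 1 := congrArg Prod.snd e
        rcases Nat.eq_zero_or_pos g.val with h0 | h0
        · rw [h0] at e2
          exact hstne e2
        · exact hS.word_ne_lo hS.s_word h0 g.2.le e1
      unfold par
      simp [hzero]
    | @tail w w1 _ hm1 ih =>
      obtain ⟨hw, α, h1, h2⟩ := ih
      obtain ⟨_, hw1, j, hj, hj2⟩ := hm1
      by_cases hall : ∀ i, i ≤ S.m → w i = w1 i
      · refine ⟨hw1, α, ?_, h2⟩
        have e : ∀ β : Fin S.m → Bool, tupleOf w1 hw1 β = tupleOf w hw β := by
          intro β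
          funext g
          exact mkV_evC_congr (hall g g.2.le).symm (hall (g + 1) g.2).symm rfl
        rw [e, e]
        exact h1
      · push_neg at hall
        obtain ⟨i, hi, hne⟩ := hall
        have hij : i = j := by
          by_contra h'
          exact hne (hj i hi h')
        subst hij
        have hV : S.Vert (w i) (w1 i) := by
          rcases hj2 with h | h
          · exact (hne h).elim
          · exact h
        have hi0 : 0 < i := by
          rcases Nat.eq_zero_or_pos i with h | h
          · subst h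
            exact (hne (hw.1.trans hw1.1.symm)).elim
          · exact h
        have hi1 : i < S.m := by
          rcases Nat.lt_or_ge i S.m with h | h
          · exact h
          · have : i = S.m := by omega
            subst this
            exact (hne (hw.2.1.trans hw1.2.1.symm)).elim
        obtain ⟨i', rfl⟩ : ∃ i', i = i' + 1 := ⟨i - 1, by omega⟩
        obtain ⟨α1, h3, h4⟩ := hS.walk_step hw hw1 hi1 hj hV h1
        exact ⟨hw1, α1, h3, h4.trans h2⟩
  obtain ⟨hw, α, h1, h2⟩ := inv S.t hst
  have hval : ∀ g, α g = decide ((S.t g, S.t (g + 1)) = S.star) :=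
    hS.unary_bits (τ := true) rfl hw h1
  have hpar : par α = 1 := by
    unfold par
    rw [Finset.sum_eq_single (⟨0, by omega⟩ : Fin S.m)]
    · rw [hval]
      have : (S.t (0 : ℕ), S.t (0 + 1)) = S.star := by
        unfold star
        rw [hw.1]
      simp only [this, decide_true, if_true]
    · intro g _ hg
      rw [hval, decide_eq_false]
      · simp
      · intro e
        have e1 : S.t g = S.lo := congrArg Prod.fst e
        have h0 : 0 < g.val := by
          rcases Nat.eq_zero_or_pos g.val with h | h
          · exact (hg (Fin.ext h)).elim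
          · exact h
        exact hS.word_ne_lo hS.t_word h0 g.2.le e1
    · intro h
      exact (h (Finset.mem_univ _)).elim
  rw [hpar] at h2
  exact absurd h2 (by decide)

/-- The abstract main theorem. -/
theorem main_equiv (_hNice : S.Nice pos lab T0) :
    S.Conn S.s S.t ↔ ¬ WLEquiv (S.graph false) (S.graph true) S.m :=
  ⟨hS.spoil, fun h => by
    by_contra hc
    exact h (hS.dup_equiv hc)⟩

end Nice

end walk

end Layered

end Vale.Agent.P310h2
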